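import Vale.Agent.P048.Defs

/-! Arithmetic of the greedy covering. -/

namespace Vale.Agent.P048

theorem reach_ge (μ Δ s y1 y2 y3 w1 w2 w3 : ℕ) : μ ≤ reach μ Δ s y1 y2 y3 w1 w2 w3 := by
  unfold reach; omega

theorem ar_sav1_ge (μ Δ w1 w2 w3 : ℕ) : w1 ≤ sav1 μ Δ w1 w2 w3 := by
  unfold sav1; omega

theorem ar_sav1_ge2 {μ Δ : ℕ} (w1 w2 w3 : ℕ) (h : 2 ≤ μ ∨ Δ = 0) :
    w1 + w2 ≤ sav1 μ Δ w1 w2 w3 := by
  unfold sav1; rw [if_pos h]; omega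

theorem ar_sav1_ge3 {μ Δ : ℕ} (w1 w2 w3 : ℕ) (h : 3 ≤ μ ∨ (2 ≤ μ ∧ Δ = 0)) :
    w1 + w2 + w3 ≤ sav1 μ Δ w1 w2 w3 := by
  unfold sav1; rw [if_pos h, if_pos (by omega)]

theorem ar_r1 (μ Δ s y1 y2 y3 w1 w2 w3 : ℕ) :
    μ + y1 + 2 * w1 ≤ reach μ Δ s y1 y2 y3 w1 w2 w3 := by
  unfold reach; omega

theorem ar_r2 {Δ s : ℕ} (μ y1 y2 y3 w1 w2 w3 : ℕ) (h : Δ ≤ s) :
    μ + y1 + 2 * w1 + 3 * w2 ≤ reach μ Δ s y1 y2 y3 w1 w2 w3 := by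
  unfold reach; rw [if_pos (Or.inr h : 2 ≤ μ + s ∨ Δ ≤ s)]; omega

theorem ar_r3 {μ s : ℕ} (Δ y1 y2 y3 w1 w2 w3 : ℕ) (h : 2 ≤ μ + s) :
    μ + y1 + 2 * y2 + 2 * w1 + 3 * w2 ≤ reach μ Δ s y1 y2 y3 w1 w2 w3 := by
  unfold reach; rw [if_pos (Or.inl h : 2 ≤ μ + s ∨ Δ ≤ s), if_pos h]; omega

theorem ar_r4 {μ Δ s : ℕ} (y1 y2 y3 w1 w2 w3 : ℕ) (h : 2 ≤ μ + s) (h' : Δ ≤ s) :
    μ + y1 + 2 * y2 + 2 * w1 + 3 * w2 + 4 * w3 ≤ reach μ Δ s y1 y2 y3 w1 w2 w3 := by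
  unfold reach
  rw [if_pos (Or.inl h : 2 ≤ μ + s ∨ Δ ≤ s), if_pos h,
    if_pos (Or.inr ⟨h, h'⟩ : 3 ≤ μ + s ∨ (2 ≤ μ + s ∧ Δ ≤ s))]
  omega

theorem ar_r5 {μ s : ℕ} (Δ y1 y2 y3 w1 w2 w3 : ℕ) (h : 3 ≤ μ + s) :
    μ + y1 + 2 * y2 + 3 * y3 + 2 * w1 + 3 * w2 + 4 * w3 ≤ reach μ Δ s y1 y2 y3 w1 w2 w3 := by
  unfold reach
  have h2 : 2 ≤ μ + s := by omega
  rw [if_pos (Or.inl h2 : 2 ≤ μ + s ∨ Δ ≤ s), if_pos h2, if_pos h,
    if_pos (Or.inl h : 3 ≤ μ + s ∨ (2 ≤ μ + s ∧ Δ ≤ s))]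

theorem reach_Y {t f R L x1 z1 μ Δ y1 w1 : ℕ} (hg : Glob t f R L x1 0 0 0 z1 0 0 0)
    (hl : Loc f R x1 0 0 z1 0 0 μ Δ y1 0 0 w1 0 0) :
    6 ≤ reach μ Δ (sav1 μ Δ w1 0 0) y1 0 0 w1 0 0 := by
  have h := ar_r1 μ Δ (sav1 μ Δ w1 0 0) y1 0 0 w1 0 0
  obtain ⟨ht, he, hL, hk, hR, hz⟩ := hg
  obtain ⟨hΔ, hΔ2, hμ, h1, -, -, h4, -, -, hs⟩ := hl
  generalize reach μ Δ (sav1 μ Δ w1 0 0) y1 0 0 w1 0 0 = r at h
  have hK : R ≤ 2 * f + z1 := by omega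
  have hT : 9 ≤ f + x1 + 2 * z1 := by omega
  clear ht he hL hk
  omega

theorem ar_sum {x1 x2 x3 z1 z2 z3 Δ y1 y2 y3 w1 w2 w3 : ℕ} (h1 : y1 ≤ x1) (h2 : y2 ≤ x2)
    (h3 : y3 ≤ x3)
    (hs : x1 + x2 + x3 + z1 + z2 + z3 + Δ ≤ y1 + y2 + y3 + w1 + w2 + w3 + 2) :
    x1 + x2 + x3 + 2 * (z1 + z2 + z3) + 2 * Δ ≤ y1 + y2 + y3 + 2 * (w1 + w2 + w3) + 4 := by
  linarith

theorem reach_B {t f R L x1 x2 x3 x4 z1 z2 z3 z4 μ y1 y2 y3 w1 w2 w3 : ℕ}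
    (hg : Glob t f R L x1 x2 x3 x4 z1 z2 z3 z4)
    (hl : Loc f R x1 x2 x3 z1 z2 z3 μ 0 y1 y2 y3 w1 w2 w3) (hB : ModeB f R x1 z1 z2) :
    6 ≤ reach μ 0 (sav1 μ 0 w1 w2 w3) y1 y2 y3 w1 w2 w3 := by
  obtain ⟨ht, he, hL, hk, hR, hz⟩ := hg
  obtain ⟨hΔ, hΔ2, hμ, h1, h2, h3, h4, h5, h6, hs⟩ := hl
  obtain ⟨hRf, hB⟩ := hB
  have hK : x2 + 2 * x3 + 3 * x4 + z3 + 2 * z4 + R ≤ 2 * f + z1 := by linarith
  have hT : 9 ≤ f + (x1 + x2 + x3 + x4) + 2 * (z1 + z2 + z3 + z4) := by linarith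
  have hS := ar_sum h1 h2 h3 hs
  clear ht he hL hk hz hΔ hΔ2 hR
  generalize sav1 μ 0 w1 w2 w3 = s
  rcases hB with ⟨hf, hb⟩ | ⟨hf, hb⟩ | ⟨hf, hb, hb2, hb3⟩
  · have hr4 := ar_r4 (μ := μ) (Δ := 0) (s := s) y1 y2 y3 w1 w2 w3 (by linarith) (Nat.zero_le _)
    have e4 : x4 = 0 := by clear hs hS hT hr4 h1 h2 h3 h4 h5 h6; omega
    have e3 : x3 = 0 := by clear hs hS hT hr4 h1 h2 h3 h4 h5 h6; omega
    have f4 : z4 = 0 := by clear hs hS hT hr4 h1 h2 h3 h4 h5 h6; omega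
    linarith
  · have hr5 := ar_r5 (μ := μ) (s := s) 0 y1 y2 y3 w1 w2 w3 (by linarith)
    have e4 : x4 = 0 := by clear hs hS hT hr5 h1 h2 h3 h4 h5 h6; omega
    have f4 : z4 = 0 := by clear hs hS hT hr5 h1 h2 h3 h4 h5 h6; omega
    linarith
  · have hr5 := ar_r5 (μ := μ) (s := s) 0 y1 y2 y3 w1 w2 w3 (by linarith)
    have e4 : x4 = 0 := by clear hs hS hT hr5 h1 h2 h3 h4 h5 h6; omega
    have e2 : x2 = 0 := by
      have : x2 ≤ 0 := by linarith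
      omega
    have e3 : x3 = 0 := by
      have : 3 * x3 ≤ 0 := by linarith
      omega
    have f4 : z4 = 0 := by
      have : 2 * z4 ≤ 0 := by linarith
      omega
    have f3 : z3 = 2 := by clear hs hS hr5 h1 h2 h3 h4 h5 h6; omega
    have e1 : x1 = 1 := by clear hs hS hr5 h1 h2 h3 h4 h5 h6; omega
    rcases Nat.eq_zero_or_pos w3 with h | h
    · linarith
    · linarith

theorem ar_c3 {f x1 x2 x3 x4 z1 z2 z3 z4 Δ : ℕ} (hf : f ≤ 2 + Δ)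
    (hK : x2 + 2 * x3 + 3 * x4 + z3 + 2 * z4 + (3 + Δ) ≤ 2 * f + z1)
    (hT : 9 ≤ f + (x1 + x2 + x3 + x4) + 2 * (z1 + z2 + z3 + z4))
    (hs : x1 + x2 + x3 + z1 + z2 + z3 + Δ ≤ 2) : False := by
  have h1 : 2 ≤ z1 := by linarith
  have h2 : Δ = 0 := by omega
  subst h2
  have h3 : z1 = 2 := by omega
  subst h3
  have h4 : 3 ≤ x4 + 2 * z4 := by linarith
  have h5 : 3 * x4 + 2 * z4 ≤ 3 := by linarith
  omega

theorem reach_A {t f R L x1 x2 x3 x4 z1 z2 z3 z4 μ Δ y1 y2 y3 w1 w2 w3 : ℕ}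
    (hg : Glob t f R L x1 x2 x3 x4 z1 z2 z3 z4)
    (hl : Loc f R x1 x2 x3 z1 z2 z3 μ Δ y1 y2 y3 w1 w2 w3) (hB : ¬ModeB f R x1 z1 z2) :
    4 ≤ reach μ Δ (sav1 μ Δ w1 w2 w3) y1 y2 y3 w1 w2 w3 := by
  obtain ⟨ht, he, hL, hk, hR, hz⟩ := hg
  obtain ⟨hΔ, hΔ2, hμ, h1, h2, h3, h4, h5, h6, hs⟩ := hl
  have hK : x2 + 2 * x3 + 3 * x4 + z3 + 2 * z4 + R ≤ 2 * f + z1 := by linarith
  have hT : 9 ≤ f + (x1 + x2 + x3 + x4) + 2 * (z1 + z2 + z3 + z4) := by linarith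
  clear ht he hL hk hz
  subst hμ
  have hs1 := ar_sav1_ge μ Δ w1 w2 w3
  generalize sav1 μ Δ w1 w2 w3 = s at hs1
  by_contra hc
  have hc' : reach μ Δ s y1 y2 y3 w1 w2 w3 ≤ 3 := by omega
  clear hc
  have r1 := (ar_r1 μ Δ s y1 y2 y3 w1 w2 w3).trans hc'
  have r2 := fun h => (ar_r2 (Δ := Δ) (s := s) μ y1 y2 y3 w1 w2 w3 h).trans hc'
  have r3 := fun h => (ar_r3 (μ := μ) (s := s) Δ y1 y2 y3 w1 w2 w3 h).trans hc'
  have r4 := fun h h' => (ar_r4 (μ := μ) (Δ := Δ) (s := s) y1 y2 y3 w1 w2 w3 h h').trans hc'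
  have r5 := fun h => (ar_r5 (μ := μ) (s := s) Δ y1 y2 y3 w1 w2 w3 h).trans hc'
  clear hc'
  have hμ1 : 1 ≤ μ := by linarith
  have hμ3 : μ ≤ 3 := by linarith
  unfold ModeB at hB
  interval_cases μ
  · have hf : f = Δ := by clear hK hT hs r1 r2 r3 r4 r5 hB; omega
    subst hf
    clear r5 hR hΔ
    interval_cases f
    · have q2 := r2 (Nat.zero_le _)
      have e2 : w2 = 0 := by clear hK hT hs r1 r2 r3 r4 hB; omega
      subst e2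
      clear hB r2 r3
      rcases Nat.eq_zero_or_pos w1 with h | h
      · subst h
        have a1 : x2 + 2 * x3 + 3 * x4 + z3 + 2 * z4 ≤ 1 := by linarith
        have a2 : x4 = 0 := by clear hK hT hs r4; omega
        have a3 : x3 = 0 := by clear hK hT hs r4; omega
        have a4 : z4 = 0 := by clear hK hT hs r4; omega
        linarith
      · have q4 := r4 (by linarith) (Nat.zero_le _)
        have b1 : w1 = 1 := by clear hK hT hs r4; omega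
        have b2 : y1 = 0 := by clear hK hT hs r4; omega
        have b3 : y2 = 0 := by clear hK hT hs r4; omega
        have b4 : w3 = 0 := by clear hK hT hs r4; omega
        subst b1 b2 b3 b4
        have a0 : x1 + x2 + z1 + z2 + z3 ≤ 3 := by linarith
        linarith
    · have z12 : 2 ≤ z1 := by
        by_contra h
        exact hB ⟨rfl, Or.inl ⟨rfl, by clear hK hT hs r1 r2 r3 r4 hB; omega⟩⟩
      have b0 : 1 ≤ w1 := by linarith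
      have q4 := r4 (by linarith) (by linarith)
      linarith
    · have b0 : z1 ≤ w1 := by linarith
      have b1 : x1 ≤ y1 := by linarith
      have b2 : z2 ≤ w2 := by linarith
      clear hK hT hs r2 r4
      have c0 : z1 ≠ 0 := fun h => hB ⟨rfl, Or.inr (Or.inl ⟨rfl, h⟩)⟩
      have q3 := r3 (by omega)
      clear r3
      exact hB ⟨rfl, Or.inr (Or.inr ⟨rfl, by omega, by omega, by omega⟩)⟩
  · have q3 := r3 (by linarith)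
    have e1 : y2 = 0 := by clear hK hT hs r1 r2 r3 r4 r5 hB; omega
    have e2 : w1 = 0 := by clear hK hT hs r1 r2 r3 r4 r5 hB; omega
    have e3 : w2 = 0 := by clear hK hT hs r1 r2 r3 r4 r5 hB; omega
    subst e1 e2 e3
    clear r2 r3 r5
    interval_cases Δ
    · have q4 := r4 (by linarith) (Nat.zero_le _)
      have e4 : w3 = 0 := by clear hK hT hs r1 r4 hB; omega
      subst e4
      have z12 : 2 ≤ z1 := by
        by_contra h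
        have hf : f = 1 := by clear hT hs r1 r4 hB; omega
        exact hB ⟨by omega, Or.inl ⟨hf, by omega⟩⟩
      linarith
    · clear r4
      have b0 : z1 + z2 ≤ 1 := by linarith
      have hf2 : f ≤ 2 := by linarith
      interval_cases f
      · linarith
      · have c0 : z1 ≠ 0 := fun h => hB ⟨rfl, Or.inr (Or.inl ⟨rfl, h⟩)⟩
        have c1 : 1 ≤ z1 := Nat.pos_of_ne_zero c0
        have c2 : x1 ≤ 1 := by linarith
        clear hK hT hs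
        exact hB ⟨rfl, Or.inr (Or.inr ⟨rfl, by omega, by omega, c2⟩)⟩
    · linarith
  · have q5 := r5 (by linarith)
    exact ar_c3 (x1 := x1) (z2 := z2) (by linarith) hK hT (by linarith)

end Vale.Agent.P048
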