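import Vale.Agent.P048.Level

/-! A minimal counterexample has a large clique. -/

namespace Vale.Agent.P048
open Finset
open scoped Classical

variable {V : Type} [Fintype V] {G : SimpleGraph V}

/-- The union of every second set. -/
noncomputable def BFS_J (I : ℕ → Finset V) : ℕ → Finset V
  | 0 => I 0
  | 1 => I 1
  | i + 2 => I (i + 2) ∪ BFS_J I i

omit [Fintype V] in
theorem BFS_mem (I : ℕ → Finset V) : ∀ (i : ℕ) (z : V), z ∈ BFS_J I i →
    ∃ j, j ≤ i ∧ j % 2 = i % 2 ∧ z ∈ I j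
  | 0, _, h => ⟨0, le_rfl, rfl, h⟩
  | 1, _, h => ⟨1, le_rfl, rfl, h⟩
  | i + 2, z, h => by
    rw [BFS_J, mem_union] at h
    rcases h with h | h
    · exact ⟨i + 2, le_rfl, rfl, h⟩
    · obtain ⟨j, h1, h2, h3⟩ := BFS_mem I i z h
      exact ⟨j, by omega, by omega, h3⟩

omit [Fintype V] in
theorem BFS_adj {v x y : V} {a : ℕ} (hx : G.edist v x = (a : ℕ∞)) (h : G.Adj x y) :
    ∃ b : ℕ, b ≤ a + 1 ∧ G.edist v y = (b : ℕ∞) := by
  have h2 : G.edist v y ≤ G.edist v x + 1 := by
    have := SimpleGraph.edist_triangle (G := G) (u := v) (v := x) (w := y)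
    rwa [SimpleGraph.edist_eq_one_iff_adj.2 h] at this
  rw [hx] at h2
  generalize G.edist v y = z at h2
  cases z with
  | top =>
    exfalso
    have : ((a + 1 : ℕ) : ℕ∞) = ⊤ := by
      rw [top_le_iff] at h2
      exact_mod_cast h2
    exact ENat.natCast_ne_top _ this
  | coe z => exact ⟨z, by exact_mod_cast h2, rfl⟩

theorem bfs {k t : ℕ} (hc : Ctx G k t) (hk : 6 ≤ k) : k + 1 ≤ 2 * t := by
  by_contra hcon
  have ht : 2 * t ≤ k := by omega
  obtain ⟨Q, -, hQ⟩ := hc.has
  obtain ⟨v, -⟩ : Q.Nonempty := card_pos.1 (by have := hc.pos; omega)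
  have hl0 : lev G v 0 = {v} := by
    ext u
    simp only [lev, mem_filter, mem_univ, true_and, Nat.cast_zero,
      SimpleGraph.edist_eq_zero_iff, mem_singleton]
    exact eq_comm
  have hex : ∀ i : ℕ, ∃ I ⊆ lev G v i, Indep G I ∧ (i = 0 → #I = 1) ∧
      (i = 1 → 2 * #(lev G v 1) ≤ (k - 1) * #I) ∧
      (2 ≤ i → 2 * i ≤ k → #(lev G v i) ≤ k / 2 * #I) := by
    intro i
    by_cases h0 : i = 0
    · subst h0
      exact ⟨{v}, by rw [hl0], Level_indep_one v, fun _ => card_singleton v, by omega, by omega⟩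
    by_cases h1 : i = 1
    · subst h1
      obtain ⟨I, h1, h2, h3⟩ := level1 hc hk ht v
      exact ⟨I, h1, h2, by omega, fun _ => h3, by omega⟩
    by_cases h2 : 2 * i ≤ k
    · obtain ⟨I, h1, h2, h3⟩ := level hc hk ht v i (by omega) h2
      exact ⟨I, h1, h2, by omega, by omega, fun _ _ => h3⟩
    · exact ⟨∅, empty_subset _, fun a ha => by simp at ha, by omega, by omega, by omega⟩
  choose I hI hind h0 h1 h2 using hex
  have hL : ∀ j, ∀ z ∈ I j, G.edist v z = (j : ℕ∞) := fun j z hz => by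
    simpa [lev] using hI j hz
  have hJ : ∀ i, Indep G (BFS_J I i) := by
    intro i x hx y hy hxy
    obtain ⟨a, -, ha, hxa⟩ := BFS_mem I i x hx
    obtain ⟨b, -, hb, hyb⟩ := BFS_mem I i y hy
    obtain ⟨b', hb1, hb2⟩ := BFS_adj (hL a x hxa) hxy
    obtain ⟨a', ha1, ha2⟩ := BFS_adj (hL b y hyb) hxy.symm
    rw [hL b y hyb] at hb2
    rw [hL a x hxa] at ha2
    have e1 : b = b' := Nat.cast_injective (R := ℕ∞) hb2
    have e2 : a = a' := Nat.cast_injective (R := ℕ∞) ha2
    have : a = b := by omega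
    subst this
    exact hind a x hxa y hyb hxy
  have hcard : ∀ i, #(BFS_J I (i + 2)) = #(I (i + 2)) + #(BFS_J I i) := by
    intro i
    rw [BFS_J, card_union_of_disjoint]
    rw [disjoint_left]
    intro z hz hz'
    obtain ⟨j, hj, -, hzj⟩ := BFS_mem I i z hz'
    exact Level_lev_ne (hL _ z hz) (hL _ z hzj) (by omega) rfl
  have hnb : ∀ i, #(nb G (BFS_J I i)) ≤ ∑ j ∈ range (i + 2), #(lev G v j) := by
    intro i
    refine le_trans (card_le_card ?_) card_biUnion_le
    intro z hz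
    simp only [nb, mem_filter, mem_univ, true_and] at hz
    rw [mem_biUnion]
    rcases hz with hz | ⟨u, hu, huz⟩
    · obtain ⟨j, hj, -, hzj⟩ := BFS_mem I i z hz
      exact ⟨j, mem_range.2 (by omega), hI j hzj⟩
    · obtain ⟨j, hj, -, hzj⟩ := BFS_mem I i u hu
      obtain ⟨b, hb1, hb2⟩ := BFS_adj (hL j u hzj) huz
      exact ⟨b, mem_range.2 (by omega), by simpa [lev] using hb2⟩
  have hE0 : #(BFS_J I 0) = 1 := h0 0 rfl
  have hE1 : #(BFS_J I 1) = #(I 1) := rfl
  have h11 := h1 1 rfl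
  have hal : 1 ≤ #(I 1) := by
    have a1 := hc.exp (BFS_J I 0) (card_pos.1 (by omega)) (hJ 0)
    have a2 := hnb 0
    rw [sum_range_succ, sum_range_succ, sum_range_zero, hl0, card_singleton] at a2
    rw [hE0] at a1
    by_contra hz
    have : #(I 1) = 0 := by omega
    rw [this] at h11
    omega
  have hpos : ∀ i, 1 ≤ #(BFS_J I i) ∧ 1 ≤ #(BFS_J I (i + 1)) := by
    intro i
    induction i with
    | zero => exact ⟨by omega, by rw [Nat.zero_add]; omega⟩
    | succ i ih => exact ⟨ih.2, by rw [hcard]; omega⟩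
  obtain ⟨d, hd⟩ : ∃ d, d = k / 2 := ⟨_, rfl⟩
  rw [← hd] at h2
  have hS : ∀ m, m + 1 ≤ d → ∑ j ∈ range (m + 2), #(lev G v j) + d + d * #(I 1) ≤
      1 + #(lev G v 1) + d * (#(BFS_J I (m + 1)) + #(BFS_J I m)) := by
    intro m
    induction m with
    | zero =>
      intro _
      rw [sum_range_succ, sum_range_succ, sum_range_zero, hl0, card_singleton, Nat.zero_add,
        hE0, hE1, mul_add]
      omega
    | succ m ih =>
      intro hm
      have a1 := ih (by omega)
      have a2 := h2 (m + 2) (by omega) (by omega)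
      rw [sum_range_succ, hcard]
      simp only [mul_add] at a1 ⊢
      omega
  have hstep : ∀ m, m + 1 ≤ d → k * #(BFS_J I m) + d + d * #(I 1) ≤
      #(lev G v 1) + d * (#(BFS_J I (m + 1)) + #(BFS_J I m)) := by
    intro m hm
    have a1 := hS m hm
    have a2 := hnb m
    have a3 := hc.exp (BFS_J I m) (card_pos.1 (hpos m).1) (hJ m)
    omega
  have hfin := hc.ind _ (hJ d)
  have hd3 : 3 ≤ d := by omega
  have key : ∀ m, m + 1 ≤ d → #(BFS_J I m) + 2 ≤ #(BFS_J I (m + 1)) ∧
      (k = 2 * d + 1 → d < #(BFS_J I m) → #(BFS_J I m) + 3 ≤ #(BFS_J I (m + 1))) := by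
    intro m hm
    have a1 := hstep m hm
    have a2 := (hpos m).1
    generalize #(BFS_J I m) = x at a1 a2 ⊢
    generalize #(BFS_J I (m + 1)) = y at a1 ⊢
    generalize #(I 1) = a at a1 h11 hal
    generalize #(lev G v 1) = l at a1 h11
    rcases (by omega : k = 2 * d ∨ k = 2 * d + 1) with hk2 | hk2
    · refine ⟨?_, by omega⟩
      by_contra hy
      have b1 : d * y ≤ d * (x + 1) := Nat.mul_le_mul_left _ (by omega)
      obtain ⟨e, rfl⟩ : ∃ e, d = e + 1 := ⟨d - 1, by omega⟩
      rw [hk2, show 2 * (e + 1) - 1 = 2 * e + 1 by omega] at h11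
      rw [hk2] at a1
      nlinarith
    · rw [hk2, show 2 * d + 1 - 1 = 2 * d by omega] at h11
      rw [hk2] at a1
      refine ⟨?_, fun _ hx => ?_⟩
      · by_contra hy
        have b1 : d * y ≤ d * (x + 1) := Nat.mul_le_mul_left _ (by omega)
        nlinarith
      · by_contra hy
        have b1 : d * y ≤ d * (x + 2) := Nat.mul_le_mul_left _ (by omega)
        nlinarith
  have hlow : ∀ m, m ≤ d → 2 * m + 1 ≤ #(BFS_J I m) := by
    intro m
    induction m with
    | zero => intro _; omega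
    | succ m ih =>
      intro hm
      have := ih (by omega)
      have := (key m hm).1
      omega
  rcases (by omega : k = 2 * d ∨ k = 2 * d + 1) with hk2 | hk2
  · have := hlow d le_rfl
    omega
  · obtain ⟨e, rfl⟩ : ∃ e, d = e + 1 := ⟨d - 1, by omega⟩
    have a1 := hlow e (by omega)
    have a2 := (key e le_rfl).2 hk2 (by omega)
    omega

end Vale.Agent.P048
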