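import Vale.Agent.P048.Defs

/-! Balls grown outside a finite set. -/

namespace Vale.Agent.P048
open Finset
open scoped Classical

variable {V : Type} [Fintype V] {G : SimpleGraph V}

omit [Fintype V] in
theorem ballA_rev {u v : V} {D : List V} (h : List.IsChain G.Adj (u :: D ++ [v])) :
    List.IsChain G.Adj (v :: D.reverse ++ [u]) := by
  have h2 : List.IsChain (flip G.Adj) (u :: D ++ [v]).reverse := List.isChain_reverse.2 h
  have h3 : (u :: D ++ [v]).reverse = v :: D.reverse ++ [u] := by simp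
  rw [h3] at h2
  exact h2.imp fun a b hab => hab.symm

omit [Fintype V] in
theorem Out.symm {F : Finset V} {d : ℕ} {u v : V} (h : Out G F d u v) : Out G F d v u := by
  obtain ⟨D, hl, hn, hF, hc⟩ := h
  exact ⟨D.reverse, by simpa using hl, List.nodup_reverse.2 hn,
    fun z hz => hF z (List.mem_reverse.1 hz), ballA_rev hc⟩

omit [Fintype V] in
theorem Far.symm {F : Finset V} {r : ℕ} {u v : V} (h : Far G F r u v) : Far G F r v u :=
  fun d h1 h2 ho => h d h1 h2 ho.symm

omit [Fintype V] in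
theorem Far.mono {F : Finset V} {r s : ℕ} {u v : V} (h : Far G F r u v) (hs : s ≤ r) :
    Far G F s u v :=
  fun d h1 h2 ho => h d h1 (h2.trans hs) ho

omit [Fintype V] in
theorem ballA_dup {D : List V} (h : ¬D.Nodup) :
    ∃ A B C : List V, ∃ x, D = A ++ x :: B ++ x :: C := by
  obtain ⟨x, hx⟩ := List.exists_duplicate_iff_not_nodup.2 h
  rw [List.duplicate_iff_sublist, List.cons_sublist_iff] at hx
  obtain ⟨r1, r2, hD, h1, h2⟩ := hx
  have h2' : x ∈ r2 := h2.subset (by simp)
  obtain ⟨A, B, rfl⟩ := List.append_of_mem h1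
  obtain ⟨B', C, rfl⟩ := List.append_of_mem h2'
  exact ⟨A, B ++ B', C, x, by simp [hD]⟩

omit [Fintype V] in
/-- A walk outside `F` can be shortened to a path. -/
theorem out_of_walk {F : Finset V} {u v : V} (D : List V) (hD : D ≠ []) (hF : ∀ z ∈ D, z ∉ F)
    (hc : List.IsChain G.Adj (u :: D ++ [v])) : ∃ d, 1 ≤ d ∧ d ≤ D.length ∧ Out G F d u v := by
  induction hn : D.length using Nat.strong_induction_on generalizing D with
  | _ n ih =>
    by_cases hnd : D.Nodup
    · exact ⟨n, by rw [← hn]; exact List.length_pos_iff.2 hD, le_rfl, D, hn, hnd, hF, hc⟩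
    · obtain ⟨A, B, C, x, rfl⟩ := ballA_dup hnd
      have e1 : u :: (A ++ x :: B ++ x :: C) ++ [v] = (u :: A) ++ x :: (B ++ x :: (C ++ [v])) := by
        simp
      rw [e1, List.isChain_split] at hc
      obtain ⟨h1, h2⟩ := hc
      have e2 : x :: (B ++ x :: (C ++ [v])) = (x :: B) ++ x :: (C ++ [v]) := by simp
      rw [e2, List.isChain_split] at h2
      have h3 : List.IsChain G.Adj (u :: (A ++ x :: C) ++ [v]) := by
        have e3 : u :: (A ++ x :: C) ++ [v] = (u :: A) ++ x :: (C ++ [v]) := by simp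
        rw [e3, List.isChain_split]
        exact ⟨h1, h2.2⟩
      have hlt : (A ++ x :: C).length < n := by
        rw [← hn]; simp
      obtain ⟨d, hd1, hd2, hd3⟩ := ih _ hlt (A ++ x :: C) (by simp)
        (fun z hz => hF z (by
          simp only [List.mem_append, List.mem_cons] at hz ⊢
          tauto)) h3 rfl
      exact ⟨d, hd1, by omega, hd3⟩

theorem ballA_succ (F : Finset V) (u : V) {r : ℕ} (hr : 1 ≤ r) :
    ball G F u r ⊆ ball G F u (r + 1) := by
  obtain ⟨s, rfl⟩ : ∃ s, r = s + 1 := ⟨r - 1, by omega⟩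
  intro z hz
  show z ∈ ball G F u (s + 2)
  rw [ball]
  exact mem_union_left _ hz

theorem ball_mono (F : Finset V) (u : V) {r s : ℕ} (hr : 1 ≤ r) (h : r ≤ s) :
    ball G F u r ⊆ ball G F u s := by
  induction s, h using Nat.le_induction with
  | base => exact Subset.refl _
  | succ s hs ih => exact ih.trans (ballA_succ F u (hr.trans hs))

theorem ballA_mem_one {F : Finset V} {u z : V} : z ∈ ball G F u 1 ↔ z ∉ F ∧ G.Adj u z := by
  simp [ball]

theorem ballA_mem_succ {F : Finset V} {u z : V} {r : ℕ} :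
    z ∈ ball G F u (r + 2) ↔
      z ∈ ball G F u (r + 1) ∨ (z ∉ F ∧ ∃ y ∈ ball G F u (r + 1), G.Adj y z) := by
  rw [ball]; simp

theorem ball_walk {F : Finset V} {u z : V} {r : ℕ} (hr : 1 ≤ r) (hz : z ∈ ball G F u r) :
    ∃ D : List V, D.length < r ∧ (∀ y ∈ D, y ∉ F) ∧ z ∉ F ∧
      List.IsChain G.Adj (u :: D ++ [z]) := by
  induction r, hr using Nat.le_induction generalizing z with
  | base =>
    rw [ballA_mem_one] at hz
    exact ⟨[], by simp, by simp, hz.1, by simpa using hz.2⟩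
  | succ s hs ih =>
    obtain ⟨s, rfl⟩ : ∃ t, s = t + 1 := ⟨s - 1, by omega⟩
    rcases ballA_mem_succ.1 hz with h | ⟨hF, y, hy, hadj⟩
    · obtain ⟨D, h1, h2, h3, h4⟩ := ih h
      exact ⟨D, by omega, h2, h3, h4⟩
    · obtain ⟨D, h1, h2, h3, h4⟩ := ih hy
      refine ⟨D ++ [y], by simp; omega, ?_, hF, ?_⟩
      · intro w hw
        rcases List.mem_append.1 hw with hw | hw
        · exact h2 w hw
        · rw [List.mem_singleton.1 hw]; exact h3
      · have e : u :: (D ++ [y]) ++ [z] = (u :: D) ++ y :: [z] := by simp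
        rw [e, List.isChain_split]
        exact ⟨h4, by simpa using hadj⟩

theorem ball_step {F : Finset V} {u y z : V} {r : ℕ} (hr : 1 ≤ r) (hy : y ∈ ball G F u r)
    (hz : z ∉ F) (h : G.Adj y z) : z ∈ ball G F u (r + 1) := by
  obtain ⟨s, rfl⟩ : ∃ s, r = s + 1 := ⟨r - 1, by omega⟩
  exact ballA_mem_succ.2 (Or.inr ⟨hz, y, hy, h⟩)

/-- A neighbour in `F` of a vertex of the ball is not far from the centre. -/
theorem ball_not_far {F : Finset V} {u y v : V} {r : ℕ} (hr : 1 ≤ r) (hy : y ∈ ball G F u r)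
    (h : G.Adj y v) : ¬Far G F r u v := by
  obtain ⟨D, h1, h2, h3, h4⟩ := ball_walk hr hy
  have hc : List.IsChain G.Adj (u :: (D ++ [y]) ++ [v]) := by
    have e : u :: (D ++ [y]) ++ [v] = (u :: D) ++ y :: [v] := by simp
    rw [e, List.isChain_split]
    exact ⟨h4, by simpa using h⟩
  obtain ⟨d, hd1, hd2, hd3⟩ := out_of_walk (F := F) (D ++ [y]) (by simp) (by
    intro w hw
    rcases List.mem_append.1 hw with hw | hw
    · exact h2 w hw
    · rw [List.mem_singleton.1 hw]; exact h3) hc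
  intro hf
  exact hf d hd1 (by simp at hd2; omega) hd3

theorem Wt.mono {F : Finset V} {u : V} {r s w : ℕ} (h : Wt G F u r w) (hr : 1 ≤ r) (hs : r ≤ s) :
    Wt G F u s w := by
  obtain ⟨I, h1, h2, h3⟩ := h
  exact ⟨I, h1.trans (ball_mono F u hr hs), h2, h3⟩

theorem ballA_two {F : Finset V} {u v a b : V} {r s : ℕ} (hr : 1 ≤ r) (hs : 1 ≤ s)
    (ha : a ∈ ball G F u r) (hb : b ∈ ball G F v s) (hab : a = b ∨ G.Adj a b) :
    ¬Far G F (r + s) u v := by
  obtain ⟨D, h1, h2, h3, h4⟩ := ball_walk hr ha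
  obtain ⟨E, e1, e2, e3, e4⟩ := ball_walk hs hb
  have e5 := ballA_rev e4
  intro hf
  rcases hab with rfl | hab
  · have hc : List.IsChain G.Adj (u :: (D ++ a :: E.reverse) ++ [v]) := by
      have e : u :: (D ++ a :: E.reverse) ++ [v] = (u :: D) ++ a :: (E.reverse ++ [v]) := by simp
      rw [e, List.isChain_split]
      exact ⟨h4, e5⟩
    obtain ⟨d, hd1, hd2, hd3⟩ := out_of_walk (F := F) _ (by simp) (by
      intro w hw
      simp only [List.mem_append, List.mem_cons, List.mem_reverse] at hw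
      rcases hw with hw | rfl | hw
      · exact h2 w hw
      · exact h3
      · exact e2 w hw) hc
    exact hf d hd1 (by simp at hd2; omega) hd3
  · have hc : List.IsChain G.Adj (u :: (D ++ a :: b :: E.reverse) ++ [v]) := by
      have e : u :: (D ++ a :: b :: E.reverse) ++ [v] =
          (u :: D) ++ a :: (b :: E.reverse ++ [v]) := by simp
      rw [e, List.isChain_split]
      refine ⟨h4, ?_⟩
      rw [List.cons_append, List.isChain_cons_cons]
      exact ⟨hab, e5⟩
    obtain ⟨d, hd1, hd2, hd3⟩ := out_of_walk (F := F) _ (by simp) (by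
      intro w hw
      simp only [List.mem_append, List.mem_cons, List.mem_reverse] at hw
      rcases hw with hw | rfl | rfl | hw
      · exact h2 w hw
      · exact h3
      · exact e3
      · exact e2 w hw) hc
    exact hf d hd1 (by simp at hd2; omega) hd3

theorem ballA_sep {F : Finset V} {u v a b : V} {r s : ℕ} (hu : u ∈ F) (hv : v ∈ F)
    (hne : u ≠ v) (hf : Far G F (r + s) u v) (h0 : r = 0 → s = 0 → ¬G.Adj u v)
    (ha : a ∈ ball G F u r) (hb : b ∈ ball G F v s) : a ≠ b ∧ ¬G.Adj a b := by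
  rcases Nat.eq_zero_or_pos r with rfl | hr
  · have ha' : a = u := by simpa [ball] using ha
    subst ha'
    rcases Nat.eq_zero_or_pos s with rfl | hs
    · have hb' : b = v := by simpa [ball] using hb
      subst hb'
      exact ⟨hne, h0 rfl rfl⟩
    · obtain ⟨_, _, _, hbF, _⟩ := ball_walk hs hb
      refine ⟨fun h => hbF (h ▸ hu), fun h => ball_not_far hs hb h.symm ?_⟩
      simpa using hf.symm
  · rcases Nat.eq_zero_or_pos s with rfl | hs
    · have hb' : b = v := by simpa [ball] using hb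
      subst hb'
      obtain ⟨_, _, _, haF, _⟩ := ball_walk hr ha
      refine ⟨fun h => haF (h ▸ hv), fun h => ball_not_far hr ha h ?_⟩
      simpa using hf
    · exact ⟨fun h => ballA_two hr hs ha hb (Or.inl h) hf,
        fun h => ballA_two hr hs ha hb (Or.inr h) hf⟩

theorem pack {ι : Type} {k t : ℕ} (hc : Ctx G k t) (F : Finset V) (S : Finset ι) (u : ι → V)
    (r w : ι → ℕ) (hu : ∀ i ∈ S, u i ∈ F) (hw : ∀ i ∈ S, Wt G F (u i) (r i) (w i))
    (hp : ∀ i ∈ S, ∀ j ∈ S, i ≠ j → u i ≠ u j ∧ Far G F (r i + r j) (u i) (u j) ∧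
      (r i = 0 → r j = 0 → ¬G.Adj (u i) (u j))) : ∑ i ∈ S, w i ≤ k := by
  choose! I hI1 hI2 hI3 using hw
  have hsep : ∀ i ∈ S, ∀ j ∈ S, i ≠ j → ∀ a ∈ I i, ∀ b ∈ I j, a ≠ b ∧ ¬G.Adj a b := by
    intro i hi j hj hij a ha b hb
    obtain ⟨p1, p2, p3⟩ := hp i hi j hj hij
    exact ballA_sep (hu i hi) (hu j hj) p1 p2 p3 (hI1 i hi ha) (hI1 j hj hb)
  have hcard : #(S.biUnion I) = ∑ i ∈ S, w i := by
    rw [card_biUnion]
    · exact sum_congr rfl hI3
    · intro i hi j hj hij
      exact disjoint_left.2 fun a ha hb => (hsep i hi j hj hij a ha a hb).1 rfl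
  rw [← hcard]
  apply hc.ind
  intro a ha b hb
  obtain ⟨i, hi, ha⟩ := mem_biUnion.1 ha
  obtain ⟨j, hj, hb⟩ := mem_biUnion.1 hb
  by_cases hij : i = j
  · subst hij; exact hI2 i hi a ha b hb
  · exact (hsep i hi j hj hij a ha b hb).2

end Vale.Agent.P048
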