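import Vale.Agent.P048.Defs

/-! Independent triples in large sets. -/

namespace Vale.Agent.P048
open Finset
open scoped Classical

variable {V : Type} {G : SimpleGraph V}

namespace LX

lemma cyc_of (L : List V) (hn : L.Nodup) (hc : L.IsChain G.Adj) {a b : V}
    (ha : L.head? = some a) (hb : L.getLast? = some b) (hab : G.Adj b a) : Cyc G L.length := by
  cases L with
  | nil => simp at ha
  | cons x l =>
    simp only [List.head?_cons, Option.some.injEq] at ha
    subst ha
    refine ⟨x, l, hn, by simp, ?_⟩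
    refine List.isChain_append.2 ⟨hc, List.isChain_singleton _, ?_⟩
    intro y hy z hz
    rw [hb] at hy
    simp only [Option.mem_def, Option.some.injEq, List.head?_cons] at hy hz
    rw [← hy, ← hz]; exact hab

lemma join (L1 L2 : List V) (h1 : L1.Nodup) (h2 : L2.Nodup) (hd : ∀ x ∈ L1, x ∉ L2)
    (c1 : L1.IsChain G.Adj) (c2 : L2.IsChain G.Adj) {a b c d : V}
    (ha : L1.head? = some a) (hb : L1.getLast? = some b) (hc : L2.head? = some c)
    (hd' : L2.getLast? = some d) (hbc : G.Adj b c) (hda : G.Adj d a) :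
    Cyc G (L1.length + L2.length) := by
  rw [← List.length_append]
  refine cyc_of (L1 ++ L2) ?_ ?_ (a := a) (b := d) ?_ ?_ hda
  · exact List.nodup_append.2 ⟨h1, h2, fun x hx y hy e => hd x hx (e ▸ hy)⟩
  · refine List.isChain_append.2 ⟨c1, c2, ?_⟩
    intro y hy z hz
    rw [hb] at hy; rw [hc] at hz
    simp only [Option.mem_def, Option.some.injEq] at hy hz
    rw [← hy, ← hz]; exact hbc
  · rw [List.head?_append, ha]; rfl
  · rw [List.getLast?_append, hd']; rfl

lemma cpath {A : Finset V} (hA : Clq G A) {a b : V} (ha : a ∈ A) (hb : b ∈ A) (hab : a ≠ b) :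
    ∃ L : List V, L.Nodup ∧ (∀ x ∈ L, x ∈ A) ∧ L.length = #A ∧ L.IsChain G.Adj ∧
      L.head? = some a ∧ L.getLast? = some b := by
  have hn : (a :: (((A.erase a).erase b).toList ++ [b])).Nodup := by
    refine List.nodup_cons.2 ⟨?_, List.nodup_append.2 ⟨nodup_toList _, List.nodup_singleton _, ?_⟩⟩
    · simp [hab]
    · intro x hx y hy
      simp only [List.mem_singleton] at hy
      simp only [mem_toList, mem_erase] at hx
      rw [hy]; exact hx.1
  have hm : ∀ x ∈ a :: (((A.erase a).erase b).toList ++ [b]), x ∈ A := by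
    intro x hx
    simp only [List.mem_cons, List.mem_append, mem_toList, mem_erase, List.not_mem_nil,
      or_false] at hx
    rcases hx with rfl | hx | rfl
    · exact ha
    · exact hx.2.2
    · exact hb
  refine ⟨_, hn, hm, ?_, ?_, rfl, ?_⟩
  · have h1 : #((A.erase a).erase b) + 1 = #(A.erase a) :=
      card_erase_add_one (mem_erase.2 ⟨hab.symm, hb⟩)
    have h2 : #(A.erase a) + 1 = #A := card_erase_add_one ha
    simp only [List.length_cons, List.length_append, length_toList, List.length_nil]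
    omega
  · apply List.Pairwise.isChain
    exact List.Pairwise.imp_of_mem (fun hx hy e => hA _ (hm _ hx) _ (hm _ hy) e) hn
  · rw [← List.cons_append, List.getLast?_append]; rfl

/-- no independent triple -/
def Al (G : SimpleGraph V) (X : Finset V) : Prop :=
  ∀ a ∈ X, ∀ b ∈ X, ∀ c ∈ X, a ≠ b → a ≠ c → b ≠ c → ¬G.Adj a b → ¬G.Adj a c → G.Adj b c

lemma p3 {t : ℕ} (hclq : ∀ S, Clq G S → #S ≤ t) {Y : Finset V} (hY : Al G Y) (h : 2 * t < #Y) :
    ∃ u ∈ Y, ∃ v ∈ Y, ∃ w ∈ Y, G.Adj u v ∧ G.Adj v w ∧ u ≠ w ∧ ¬G.Adj u w := by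
  by_contra hcon
  push Not at hcon
  obtain ⟨y, hy⟩ : Y.Nonempty := card_pos.1 (by omega)
  have h1 : Clq G (Y.filter fun z => z = y ∨ G.Adj y z) := by
    intro a ha b hb hab
    obtain ⟨ha, ha'⟩ := mem_filter.1 ha
    obtain ⟨hb, hb'⟩ := mem_filter.1 hb
    rcases ha' with rfl | ha' <;> rcases hb' with rfl | hb'
    · exact absurd rfl hab
    · exact hb'
    · exact ha'.symm
    · exact hcon a ha y hy b hb ha'.symm hb' hab
  have h2 : Clq G (Y.filter fun z => ¬(z = y ∨ G.Adj y z)) := by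
    intro a ha b hb hab
    obtain ⟨ha, ha'⟩ := mem_filter.1 ha
    obtain ⟨hb, hb'⟩ := mem_filter.1 hb
    push Not at ha' hb'
    exact hY y hy a ha b hb (Ne.symm ha'.1) (Ne.symm hb'.1) hab ha'.2 hb'.2
  have h3 := card_filter_add_card_filter_not (s := Y) fun z => z = y ∨ G.Adj y z
  have := hclq _ h1
  have := hclq _ h2
  omega

/-- no vertex separates into two cliques -/
def Sep (G : SimpleGraph V) (Z : Finset V) : Prop :=
  ∀ (z : V) (A B : Finset V), (∀ y ∈ Z, y ≠ z → y ∈ A ∨ y ∈ B) → Clq G A → Clq G B →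
    ∃ a ∈ A, ∃ b ∈ B, G.Adj a b

lemma sep_aux {A B : Finset V} (hA : Clq G A) (hB : Clq G B) {u v w : V}
    (hu : u ∈ A ∨ u ∈ B) (hv : v ∈ A ∨ v ∈ B) (hw : w ∈ A ∨ w ∈ B)
    (h1 : G.Adj u v) (h2 : G.Adj v w) (h3 : u ≠ w) (h4 : ¬G.Adj u w) :
    ∃ a ∈ A, ∃ b ∈ B, G.Adj a b := by
  rcases hu with hu | hu <;> rcases hw with hw | hw
  · exact absurd (hA u hu w hw h3) h4
  · rcases hv with hv | hv
    · exact ⟨v, hv, w, hw, h2⟩
    · exact ⟨u, hu, v, hv, h1⟩
  · rcases hv with hv | hv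
    · exact ⟨v, hv, u, hu, h1.symm⟩
    · exact ⟨w, hw, v, hv, h2.symm⟩
  · exact absurd (hB u hu w hw h3) h4

lemma exists_Z {k t : ℕ} (hk : 5 ≤ k) (hclq : ∀ S, Clq G S → #S ≤ t)
    {X : Finset V} (hX : Al G X) (h1 : 2 * t + 4 ≤ #X) (h2 : k + 1 ≤ #X) :
    ∃ Z ⊆ X, #Z = k + 1 ∧ Sep G Z := by
  obtain ⟨u, hu, v, hv, w, hw, e1, e2, e3, e4⟩ := p3 hclq hX (by omega)
  have hY : Al G (X \ {u, v, w}) := fun a ha b hb c hc =>
    hX a (mem_sdiff.1 ha).1 b (mem_sdiff.1 hb).1 c (mem_sdiff.1 hc).1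
  have hc3 : #({u, v, w} : Finset V) ≤ 3 := card_le_three
  have hcard := le_card_sdiff ({u, v, w} : Finset V) X
  obtain ⟨u', hu', v', hv', w', hw', f1, f2, f3, f4⟩ := p3 hclq hY (by omega)
  have hc3' : #({u', v', w'} : Finset V) ≤ 3 := card_le_three
  have hc6 := card_union_le ({u, v, w} : Finset V) {u', v', w'}
  have hsub : ({u, v, w} : Finset V) ∪ {u', v', w'} ⊆ X := by
    intro x hx
    simp only [mem_union, mem_insert, mem_singleton] at hx
    rcases hx with (rfl | rfl | rfl) | (rfl | rfl | rfl)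
    exacts [hu, hv, hw, (mem_sdiff.1 hu').1, (mem_sdiff.1 hv').1, (mem_sdiff.1 hw').1]
  obtain ⟨Z, hZ1, hZ2, hZ3⟩ := exists_subsuperset_card_eq hsub (n := k + 1) (by omega) h2
  refine ⟨Z, hZ2, hZ3, fun z A B hz hA hB => ?_⟩
  by_cases hz3 : z ∈ ({u, v, w} : Finset V)
  · have g : ∀ x ∈ X \ {u, v, w}, x ≠ z := fun x hx e => (mem_sdiff.1 hx).2 (e ▸ hz3)
    exact sep_aux hA hB (hz u' (hZ1 (by simp)) (g _ hu')) (hz v' (hZ1 (by simp)) (g _ hv'))
      (hz w' (hZ1 (by simp)) (g _ hw')) f1 f2 f3 f4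
  · have g : ∀ x ∈ ({u, v, w} : Finset V), x ≠ z := fun x hx e => hz3 (e ▸ hx)
    exact sep_aux hA hB (hz u (hZ1 (by simp)) (g _ (by simp))) (hz v (hZ1 (by simp)) (g _ (by simp)))
      (hz w (hZ1 (by simp)) (g _ (by simp))) e1 e2 e3 e4

lemma extend {Z : Finset V} (hZ : Al G Z) (hS : Sep G Z) (p : List V) (hn : p.Nodup)
    (hc : p.IsChain G.Adj) (hm : ∀ x ∈ p, x ∈ Z) (hl : p.length < #Z) :
    ∃ q : List V, q.Nodup ∧ q.IsChain G.Adj ∧ (∀ x ∈ q, x ∈ Z) ∧ q.length = p.length + 1 := by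
  obtain ⟨w0, hw0, hw0'⟩ : ∃ w ∈ Z, w ∉ p := by
    by_contra hcon
    push Not at hcon
    have : Z ⊆ p.toFinset := fun x hx => List.mem_toFinset.2 (hcon x hx)
    have h2 := card_le_card this
    rw [List.toFinset_card_of_nodup hn] at h2
    omega
  cases p with
  | nil => exact ⟨[w0], List.nodup_singleton _, List.isChain_singleton _, by simpa using hw0, rfl⟩
  | cons a p =>
    have hex : ∃ v ∈ a :: p, ∃ w ∈ Z, w ∉ a :: p ∧ G.Adj v w := by
      by_contra hcon
      push Not at hcon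
      obtain ⟨x, hx, y, hy, e⟩ := hS a (a :: p).toFinset (Z \ (a :: p).toFinset)
        (fun y hy _ => by
          by_cases h : y ∈ (a :: p).toFinset
          · exact Or.inl h
          · exact Or.inr (mem_sdiff.2 ⟨hy, h⟩))
        (fun x hx y hy hxy => by
          rw [List.mem_toFinset] at hx hy
          exact hZ w0 hw0 x (hm x hx) y (hm y hy) (fun e => hw0' (e ▸ hx)) (fun e => hw0' (e ▸ hy))
            hxy (fun e => hcon x hx w0 hw0 hw0' e.symm) (fun e => hcon y hy w0 hw0 hw0' e.symm))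
        (fun x hx y hy hxy => by
          rw [mem_sdiff, List.mem_toFinset] at hx hy
          have ha : a ∈ a :: p := List.mem_cons_self
          exact hZ a (hm a ha) x hx.1 y hy.1 (fun e => hx.2 (e ▸ ha)) (fun e => hy.2 (e ▸ ha))
            hxy (hcon a ha x hx.1 hx.2) (hcon a ha y hy.1 hy.2))
      rw [mem_sdiff, List.mem_toFinset] at hy
      exact hcon x (List.mem_toFinset.1 hx) y hy.1 hy.2 e
    obtain ⟨v, hv, w, hw, hw', e⟩ := hex
    have fin : ∀ q : List V, q.Perm (w :: a :: p) → q.IsChain G.Adj →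
        ∃ q : List V, q.Nodup ∧ q.IsChain G.Adj ∧ (∀ x ∈ q, x ∈ Z) ∧
          q.length = (a :: p).length + 1 := by
      intro q hq hqc
      refine ⟨q, hq.nodup_iff.2 (List.nodup_cons.2 ⟨hw', hn⟩), hqc, fun x hx => ?_, ?_⟩
      · rcases List.mem_cons.1 (hq.subset hx) with rfl | hx
        · exact hw
        · exact hm x hx
      · rw [hq.length_eq]; rfl
    by_cases hwa : G.Adj w a
    · exact fin _ (List.Perm.refl _) (List.isChain_cons_cons.2 ⟨hwa, hc⟩)
    have hva : v ≠ a := fun h => hwa (h ▸ e.symm)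
    obtain ⟨l1, l2, rfl⟩ := List.append_of_mem ((List.mem_cons.1 hv).resolve_left hva)
    rw [← List.cons_append, List.isChain_split] at hc
    cases l2 with
    | nil =>
      refine fin (a :: l1 ++ v :: [w]) ?_ ?_
      · rw [List.perm_iff_count]; intro x
        simp only [List.count_cons, List.count_append, List.count_nil]; omega
      · rw [List.isChain_split]
        exact ⟨hc.1, List.isChain_cons_cons.2 ⟨e, List.isChain_singleton _⟩⟩
    | cons y l2 =>
      have hc2 := List.isChain_cons_cons.1 hc.2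
      by_cases hwy : G.Adj w y
      · refine fin (a :: l1 ++ v :: w :: y :: l2) ?_ ?_
        · rw [List.perm_iff_count]; intro x
          simp only [List.count_cons, List.count_append]; omega
        · rw [List.isChain_split]
          exact ⟨hc.1, List.isChain_cons_cons.2 ⟨e, List.isChain_cons_cons.2 ⟨hwy, hc2.2⟩⟩⟩
      · have hay : G.Adj a y := by
          refine hZ w hw a (hm a (by simp)) y (hm y (by simp)) (fun h => hw' (by simp [h]))
            (fun h => hw' (by simp [h])) ?_ hwa hwy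
          intro h
          have := (List.nodup_cons.1 hn).1
          apply this; simp [h]
        refine fin (w :: (v :: l1.reverse ++ a :: y :: l2)) ?_ ?_
        · rw [List.perm_iff_count]; intro x
          simp only [List.count_cons, List.count_append, List.count_reverse]; omega
        · rw [List.cons_append]
          refine List.isChain_cons_cons.2 ⟨e.symm, ?_⟩
          rw [← List.cons_append, List.isChain_split]
          refine ⟨?_, List.isChain_cons_cons.2 ⟨hay, hc2.2⟩⟩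
          have h1 : v :: l1.reverse ++ [a] = (a :: l1 ++ [v]).reverse := by simp
          rw [h1, List.isChain_reverse]
          exact hc.1.imp fun _ _ h => h.symm

lemma ham {Z : Finset V} (hZ : Al G Z) (hS : Sep G Z) : ∀ n ≤ #Z,
    ∃ q : List V, q.Nodup ∧ q.IsChain G.Adj ∧ (∀ x ∈ q, x ∈ Z) ∧ q.length = n
  | 0, _ => ⟨[], List.nodup_nil, List.isChain_nil, by simp, rfl⟩
  | n + 1, h => by
    obtain ⟨p, h1, h2, h3, h4⟩ := ham hZ hS n (by omega)
    obtain ⟨q, g1, g2, g3, g4⟩ := extend hZ hS p h1 h2 h3 (by omega)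
    exact ⟨q, g1, g2, g3, by omega⟩

lemma rot {p : List V} (hn : p.Nodup) (hc : p.IsChain G.Adj) {a b : V} (ha : p.head? = some a)
    (hb : p.getLast? = some b) (hcyc : ¬Cyc G p.length) (l1 : List V) (c y : V) (l2 : List V)
    (hp : p = l1 ++ c :: y :: l2) (hcb : G.Adj c b) : ¬G.Adj a y := by
  intro hay
  subst hp
  apply hcyc
  have e : l1 ++ c :: y :: l2 = (l1 ++ [c]) ++ (y :: l2) := by simp
  rw [e] at hn hc ha hb ⊢
  have hn' := List.nodup_append.1 hn
  have hc' := List.isChain_append.1 hc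
  have := join (G := G) (l1 ++ [c]) (y :: l2).reverse hn'.1 (List.nodup_reverse.2 hn'.2.1)
    (fun x hx hx' => hn'.2.2 x hx x (List.mem_reverse.1 hx') rfl) hc'.1
    (List.isChain_reverse.2 (hc'.2.1.imp fun _ _ h => h.symm)) (a := a) (b := c) (c := b) (d := y)
    (by cases l1 <;> simpa using ha) (by simp)
    (by
      rw [List.head?_reverse]
      rw [List.getLast?_append, List.getLast?_eq_some_getLast (l := y :: l2) (by simp)] at hb
      rw [List.getLast?_eq_some_getLast (l := y :: l2) (by simp)]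
      simpa using hb)
    (by rw [List.getLast?_reverse]; rfl) hcb hay.symm
  rw [List.length_reverse] at this
  rw [List.length_append]; exact this

lemma tail_non {Z : Finset V} (hZ : Al G Z) {p : List V} (hn : p.Nodup) (hc : p.IsChain G.Adj)
    (hm : ∀ x ∈ p, x ∈ Z) {a b : V} (ha : p.head? = some a)
    (hb : p.getLast? = some b) (hcyc : ¬Cyc G p.length) (hab : ¬G.Adj a b) (hne : a ≠ b) :
    ∀ (l2 l1 : List V) (c : V), p = l1 ++ c :: l2 → G.Adj c b → ∀ y ∈ l2, ¬G.Adj a y
  | [], _, _, _, _ => by simp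
  | y :: l2, l1, c, hp, hcb => by
    have h1 := rot hn hc ha hb hcyc l1 c y l2 hp hcb
    intro z hz
    rcases List.mem_cons.1 hz with rfl | hz
    · exact h1
    · refine tail_non hZ hn hc hm ha hb hcyc hab hne l2 (l1 ++ [c]) y (by simp [hp]) ?_ z hz
      have hap : a ∈ l1 ++ [c] := by
        apply List.mem_of_mem_head?
        rw [hp] at ha
        cases l1 <;> simpa using ha
      have hbl : b ∈ l2 := by
        apply List.mem_of_mem_getLast?
        rw [hp] at hb
        obtain ⟨z', l3, rfl⟩ := List.exists_cons_of_ne_nil (List.ne_nil_of_mem hz)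
        rw [List.getLast?_append] at hb
        simpa using hb
      have e : p = (l1 ++ [c]) ++ (y :: l2) := by simp [hp]
      have hn' := List.nodup_append.1 (e ▸ hn)
      refine hZ a (hm a (by rw [e]; exact List.mem_append_left _ hap)) y (hm y (by simp [hp])) b
        (hm b (by simp [hp, hbl])) (hn'.2.2 a hap y (by simp)) hne ?_ h1 hab
      intro h
      exact (List.nodup_cons.1 hn'.2.1).1 (h ▸ hbl)

lemma first_split (f : V → Prop) : ∀ p : List V, (∃ x ∈ p, f x) →
    ∃ l1 c l2, p = l1 ++ c :: l2 ∧ f c ∧ ∀ y ∈ l1, ¬f y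
  | [], h => by simp at h
  | x :: p, h => by
    by_cases hx : f x
    · exact ⟨[], x, p, rfl, hx, by simp⟩
    · obtain ⟨l1, c, l2, e, h1, h2⟩ := first_split f p (by
        obtain ⟨y, hy, hy'⟩ := h
        rcases List.mem_cons.1 hy with rfl | hy
        · exact absurd hy' hx
        · exact ⟨y, hy, hy'⟩)
      refine ⟨x :: l1, c, l2, by simp [e], h1, fun y hy => ?_⟩
      rcases List.mem_cons.1 hy with rfl | hy
      · exact hx
      · exact h2 y hy

lemma final {Z S T : Finset V} (hZ : Al G Z) (hS : Sep G Z) {a b c s0 : V}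
    (hcov : ∀ y ∈ Z, y ∈ S ∨ y = c ∨ y ∈ T) (hSZ : S ⊆ Z) (hTZ : T ⊆ Z) (hcZ : c ∈ Z)
    (hST : ∀ y ∈ S, y ∉ T) (hcS : c ∉ S) (hcT : c ∉ T) (ha : a ∈ S) (hb : b ∈ T)
    (hSb : ∀ y ∈ S, ¬G.Adj y b) (hTa : ∀ y ∈ T, ¬G.Adj a y) (hcb : G.Adj c b)
    (hs0 : s0 ∈ S) (hs0c : G.Adj s0 c) : Cyc G (#S + 1 + #T) := by
  have cS : Clq G S := fun x hx y hy hxy =>
    hZ b (hTZ hb) x (hSZ hx) y (hSZ hy) (fun e => hST x hx (e ▸ hb)) (fun e => hST y hy (e ▸ hb))
      hxy (fun e => hSb x hx e.symm) (fun e => hSb y hy e.symm)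
  have cT : Clq G T := fun x hx y hy hxy =>
    hZ a (hSZ ha) x (hTZ hx) y (hTZ hy) (fun e => hST a ha (e ▸ hx)) (fun e => hST a ha (e ▸ hy))
      hxy (hTa x hx) (hTa y hy)
  obtain ⟨s, hs, τ, hτ, e⟩ := hS c S T (fun y hy hyc => by
    rcases hcov y hy with h | h | h
    exacts [Or.inl h, absurd h hyc, Or.inr h]) cS cT
  have case1 : ∀ s2 ∈ S, s ≠ s2 → G.Adj s2 c → Cyc G (#S + 1 + #T) := by
    intro s2 hs2 hne hadj
    obtain ⟨LT, t1, t2, t3, t4, t5, t6⟩ := cpath cT hb hτ (fun h => hSb s hs (h ▸ e))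
    obtain ⟨LS, s1, s2', s3, s4, s5, s6⟩ := cpath cS hs hs2 hne
    obtain ⟨LT', rfl⟩ : ∃ l, LT = b :: l := by
      cases LT with
      | nil => simp at t5
      | cons x l => simp at t5; exact ⟨l, by rw [t5]⟩
    have := join (G := G) (c :: b :: LT') LS (List.nodup_cons.2 ⟨fun h => hcT (t2 c h), t1⟩) s1
      (fun x hx hx' => by
        rcases List.mem_cons.1 hx with rfl | hx
        · exact hcS (s2' _ hx')
        · exact hST x (s2' x hx') (t2 x hx))
      (List.isChain_cons_cons.2 ⟨hcb, t4⟩) s4 (a := c) (b := τ) (c := s) (d := s2) rfl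
      (by rw [List.getLast?_cons_cons]; exact t6) s5 s6 e.symm hadj
    rw [List.length_cons, t3, s3] at this
    convert this using 1; omega
  by_cases h1 : s = s0
  swap
  · exact case1 s0 hs0 h1 hs0c
  by_cases h2 : G.Adj a c
  · exact case1 a ha (fun h => hTa τ hτ (h ▸ e)) h2
  subst h1
  have cT' : Clq G (insert c T) := by
    have g : ∀ x ∈ insert c T, x ∈ Z ∧ a ≠ x ∧ ¬G.Adj a x := by
      intro x hx
      rcases mem_insert.1 hx with rfl | hx
      · exact ⟨hcZ, fun e => hcS (e ▸ ha), h2⟩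
      · exact ⟨hTZ hx, fun e => hST a ha (e ▸ hx), hTa x hx⟩
    exact fun x hx y hy hxy => hZ a (hSZ ha) x (g x hx).1 y (g y hy).1 (g x hx).2.1 (g y hy).2.1
      hxy (g x hx).2.2 (g y hy).2.2
  obtain ⟨s', hs', τ', hτ', e'⟩ := hS s (S.erase s) (insert c T) (fun y hy hys => by
    rcases hcov y hy with h | h | h
    exacts [Or.inl (mem_erase.2 ⟨hys, h⟩), Or.inr (mem_insert.2 (Or.inl h)),
      Or.inr (mem_insert_of_mem h)])
    (fun x hx y hy => cS x (mem_erase.1 hx).2 y (mem_erase.1 hy).2) cT'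
  obtain ⟨τ2, g1, g2, g3⟩ : ∃ τ2 ∈ insert c T, τ2 ≠ τ' ∧ G.Adj s τ2 := by
    by_cases h : c = τ'
    · exact ⟨τ, mem_insert_of_mem hτ, fun h' => hcT (by rw [h, ← h']; exact hτ), e⟩
    · exact ⟨c, mem_insert_self _ _, h, hs0c⟩
  obtain ⟨LT, t1, t2, t3, t4, t5, t6⟩ := cpath cT' g1 hτ' g2
  obtain ⟨LS, s1, s2', s3, s4, s5, s6⟩ := cpath cS (mem_erase.1 hs').2 hs (mem_erase.1 hs').1
  have := join (G := G) LT LS t1 s1
    (fun x hx hx' => by
      rcases mem_insert.1 (t2 x hx) with rfl | hx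
      · exact hcS (s2' _ hx')
      · exact hST x (s2' x hx') hx) t4 s4 t5 t6 s5 s6 e'.symm g3
  rw [t3, s3, card_insert_of_notMem hcT] at this
  convert this using 1; omega

lemma hamc {Z : Finset V} (hZ : Al G Z) (hS : Sep G Z) (h2 : 2 ≤ #Z) : Cyc G #Z := by
  by_contra hcyc
  obtain ⟨p, hn, hc, hm, hl⟩ := ham hZ hS #Z le_rfl
  have hall : ∀ y ∈ Z, y ∈ p := by
    have h1 : p.toFinset ⊆ Z := fun x hx => hm x (List.mem_toFinset.1 hx)
    have h3 := eq_of_subset_of_card_le h1 (by rw [List.toFinset_card_of_nodup hn, hl])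
    intro y hy; rw [← h3] at hy; exact List.mem_toFinset.1 hy
  rw [← hl] at hcyc
  obtain ⟨q, x, b, rfl⟩ : ∃ q x b, p = q ++ [x, b] := by
    rcases List.eq_nil_or_concat p with rfl | ⟨q, b, rfl⟩
    · simp at hl; omega
    · rcases List.eq_nil_or_concat q with rfl | ⟨q', x, rfl⟩
      · simp at hl; omega
      · exact ⟨q', x, b, by simp⟩
  obtain ⟨a, ha⟩ : ∃ a, (q ++ [x, b]).head? = some a := by
    cases q <;> simp
  have hb : (q ++ [x, b]).getLast? = some b := by simp
  have hab : ¬G.Adj a b := fun h => hcyc (cyc_of _ hn hc ha hb h.symm)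
  have hxb : G.Adj x b := by
    rw [List.isChain_split] at hc
    exact (List.isChain_cons_cons.1 hc.2).1
  have hne : a ≠ b := by
    have hap : a ∈ q ++ [x] := by
      apply List.mem_of_mem_head?
      cases q <;> simpa using ha
    have e : q ++ [x, b] = (q ++ [x]) ++ [b] := by simp
    exact (List.nodup_append.1 (e ▸ hn)).2.2 a hap b (by simp)
  obtain ⟨l1, c, l2, e, hcb, hl1⟩ := first_split (fun y => G.Adj y b) (q ++ [x, b])
    ⟨x, by simp, hxb⟩
  have hT := tail_non hZ hn hc hm ha hb hcyc hab hne l2 l1 c e hcb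
  rw [e] at hn hc hm ha hb hcyc hall
  have hn' := List.nodup_append.1 hn
  have hn2 := List.nodup_cons.1 hn'.2.1
  have hl1ne : l1 ≠ [] := by
    rintro rfl
    simp only [List.nil_append, List.head?_cons, Option.some.injEq] at ha
    exact hab (ha ▸ hcb)
  have hal : a ∈ l1 := by
    apply List.mem_of_mem_head?
    obtain ⟨z, l, rfl⟩ := List.exists_cons_of_ne_nil hl1ne
    simpa using ha
  have hbl : b ∈ l2 := by
    have : b ∈ c :: l2 := by
      apply List.mem_of_mem_getLast?
      rw [List.getLast?_append] at hb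
      simpa using hb
    rcases List.mem_cons.1 this with h | h
    · exact absurd (h ▸ hcb) G.irrefl
    · exact h
  have hs0 : G.Adj (l1.getLast hl1ne) c := by
    refine (List.isChain_append.1 hc).2.2 _ ?_ c rfl
    exact List.getLast?_eq_some_getLast hl1ne
  have := final (S := l1.toFinset) (T := l2.toFinset) hZ hS (a := a) (b := b) (c := c)
    (s0 := l1.getLast hl1ne)
    (fun y hy => by simpa using hall y hy)
    (fun y hy => hm y (by simp [List.mem_toFinset.1 hy]))
    (fun y hy => hm y (by simp [List.mem_toFinset.1 hy])) (hm c (by simp))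
    (fun y hy hy' => hn'.2.2 y (List.mem_toFinset.1 hy) y
      (List.mem_cons_of_mem _ (List.mem_toFinset.1 hy')) rfl)
    (fun h => hn'.2.2 c (List.mem_toFinset.1 h) c (by simp) rfl)
    (fun h => hn2.1 (List.mem_toFinset.1 h)) (List.mem_toFinset.2 hal) (List.mem_toFinset.2 hbl)
    (fun y hy => hl1 y (List.mem_toFinset.1 hy)) (fun y hy => hT y (List.mem_toFinset.1 hy)) hcb
    (List.mem_toFinset.2 (List.getLast_mem _)) hs0
  rw [List.toFinset_card_of_nodup hn'.1, List.toFinset_card_of_nodup hn2.2] at this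
  apply hcyc
  rw [List.length_append, List.length_cons]
  convert this using 1; omega

end LX

theorem lemX {k t : ℕ} (hk : 5 ≤ k) (hcyc : ¬Cyc G (k + 1)) (hclq : ∀ S, Clq G S → #S ≤ t)
    (X : Finset V) (h1 : 2 * t + 4 ≤ #X) (h2 : k + 1 ≤ #X) :
    ∃ I ⊆ X, Indep G I ∧ #I = 3 := by
  by_contra hcon
  have hX : LX.Al G X := by
    intro a ha b hb c hc hab hac hbc e1 e2
    by_contra e3
    apply hcon
    refine ⟨{a, b, c}, ?_, ?_, card_eq_three.2 ⟨a, b, c, hab, hac, hbc, rfl⟩⟩
    · intro x hx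
      simp only [mem_insert, mem_singleton] at hx
      rcases hx with rfl | rfl | rfl <;> assumption
    · intro x hx y hy
      simp only [mem_insert, mem_singleton] at hx hy
      rcases hx with rfl | rfl | rfl <;> rcases hy with rfl | rfl | rfl
      exacts [G.irrefl, e1, e2, fun h => e1 h.symm, G.irrefl, e3, fun h => e2 h.symm,
        fun h => e3 h.symm, G.irrefl]
  obtain ⟨Z, hZ1, hZ2, hZ3⟩ := LX.exists_Z hk hclq hX h1 h2
  have hZ : LX.Al G Z := fun a ha b hb c hc => hX a (hZ1 ha) b (hZ1 hb) c (hZ1 hc)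
  have := LX.hamc hZ hZ3 (by omega)
  rw [hZ2] at this
  exact hcyc this

end Vale.Agent.P048
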