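import Vale.Agent.P048.BallA
import Vale.Agent.P048.LemX

/-! Independent vertices in balls. -/

namespace Vale.Agent.P048
open Finset
open scoped Classical

variable {V : Type} [Fintype V] {G : SimpleGraph V}

theorem ballB_mem_nb {I : Finset V} {v : V} : v ∈ nb G I ↔ v ∈ I ∨ ∃ u ∈ I, G.Adj u v := by
  simp [nb]

theorem ballB_one {k t : ℕ} (hc : Ctx G k t) (u : V) : k + 1 ≤ #(nb G {u}) := by
  have := hc.exp {u} (singleton_nonempty u) (by
    intro a ha b hb
    rw [mem_singleton.1 ha, mem_singleton.1 hb]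
    exact G.loopless.irrefl u)
  simpa using this

theorem ballB_notMem {F : Finset V} {u z : V} {r : ℕ} (hr : 1 ≤ r) (hz : z ∈ ball G F u r) :
    z ∉ F := by
  obtain ⟨_, _, _, h, _⟩ := ball_walk hr hz
  exact h

omit [Fintype V] in
theorem ballB_chain {Q : Finset V} (hq : Clq G Q) {L : List V} (hn : L.Nodup)
    (hL : ∀ x ∈ L, x ∈ Q) : L.IsChain G.Adj :=
  (List.Pairwise.imp_of_mem (fun ha hb hab => hq _ (hL _ ha) _ (hL _ hb) hab) hn).isChain

theorem ballB_min {F : Finset V} {u v y : V} {D : List V} (hn : (y :: D).Nodup)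
    (hF : ∀ z ∈ y :: D, z ∉ F) (hc : List.IsChain G.Adj (u :: (y :: D) ++ [v]))
    (hmin : ∀ d, 1 ≤ d → d < (y :: D).length → ¬Out G F d u v) :
    ∀ w ∈ D, w ∉ ball G F u 1 := by
  intro w hw hb
  obtain ⟨A, B, rfl⟩ := List.append_of_mem hw
  refine hmin (w :: B).length (by simp) (by simp) ⟨w :: B, rfl, ?_, ?_, ?_⟩
  · exact ((List.nodup_cons.1 hn).2.sublist (List.sublist_append_right _ _))
  · intro z hz
    exact hF z (List.mem_cons_of_mem _ (List.mem_append_right _ hz))
  · have e : u :: (y :: (A ++ w :: B)) ++ [v] = (u :: y :: A) ++ w :: (B ++ [v]) := by simp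
    rw [e, List.isChain_split] at hc
    have e2 : u :: (w :: B) ++ [v] = u :: w :: (B ++ [v]) := by simp
    rw [e2, List.isChain_cons_cons]
    exact ⟨(ballA_mem_one.1 hb).2, hc.2⟩

theorem ballB_pre {F : Finset V} {u v y : V} {D : List V} (hq : Clq G (ball G F u 1))
    (hn : (y :: D).Nodup) (hF : ∀ z ∈ y :: D, z ∉ F)
    (hc : List.IsChain G.Adj (u :: (y :: D) ++ [v])) (hD : ∀ w ∈ D, w ∉ ball G F u 1) {j : ℕ}
    (hj : j < #(ball G F u 1)) :
    ∃ L : List V, L.length = j ∧ (∀ w ∈ L, w ∈ ball G F u 1) ∧ (L ++ y :: D).Nodup ∧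
      (∀ z ∈ L ++ y :: D, z ∉ F) ∧ List.IsChain G.Adj (u :: (L ++ y :: D) ++ [v]) := by
  have e2 : u :: (y :: D) ++ [v] = u :: y :: (D ++ [v]) := by simp
  rw [e2, List.isChain_cons_cons] at hc
  have hy : y ∈ ball G F u 1 := ballA_mem_one.2 ⟨hF y (by simp), hc.1⟩
  obtain ⟨T, hT, hTc⟩ := exists_subset_card_eq (s := (ball G F u 1).erase y) (n := j)
    (by rw [card_erase_of_mem hy]; omega)
  have hmem : ∀ w ∈ T.toList, w ∈ ball G F u 1 ∧ w ≠ y := by
    intro w hw
    have := hT (mem_toList.1 hw)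
    exact ⟨mem_of_mem_erase this, ne_of_mem_erase this⟩
  have hnd : (T.toList ++ [y]).Nodup := by
    rw [List.nodup_append]
    refine ⟨T.nodup_toList, by simp, ?_⟩
    intro a ha b hb
    rw [List.mem_singleton.1 hb]
    exact (hmem a ha).2
  refine ⟨T.toList, by simpa using hTc, fun w hw => (hmem w hw).1, ?_, ?_, ?_⟩
  · rw [List.nodup_append]
    refine ⟨T.nodup_toList, hn, ?_⟩
    intro a ha b hb hab
    subst hab
    rcases List.mem_cons.1 hb with hb | hb
    · exact (hmem a ha).2 hb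
    · exact hD a hb (hmem a ha).1
  · intro z hz
    rcases List.mem_append.1 hz with hz | hz
    · exact (ballA_mem_one.1 (hmem z hz).1).1
    · exact hF z hz
  · have e : u :: (T.toList ++ y :: D) ++ [v] = (u :: T.toList) ++ y :: (D ++ [v]) := by simp
    rw [e, List.isChain_split]
    refine ⟨?_, hc.2⟩
    have hall : ∀ x ∈ T.toList ++ [y], x ∈ ball G F u 1 := by
      intro x hx
      rcases List.mem_append.1 hx with hx | hx
      · exact (hmem x hx).1
      · rw [List.mem_singleton.1 hx]; exact hy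
    have hch := ballB_chain hq hnd hall
    rw [List.cons_append, List.isChain_cons]
    refine ⟨fun x hx => ?_, hch⟩
    exact (ballA_mem_one.1 (hall x (List.mem_of_mem_head? hx))).2

omit [Fintype V] in
theorem ballB_least {F : Finset V} {u v : V} {r : ℕ} (h : ¬Far G F r u v) :
    ∃ d, 1 ≤ d ∧ d ≤ r ∧ Out G F d u v ∧ ∀ e, 1 ≤ e → e < d → ¬Out G F e u v := by
  have hex : ∃ d, 1 ≤ d ∧ d ≤ r ∧ Out G F d u v := by
    by_contra hne
    exact h fun d h1 h2 ho => hne ⟨d, h1, h2, ho⟩
  obtain ⟨h1, h2, h3⟩ := Nat.find_spec hex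
  refine ⟨_, h1, h2, h3, fun e he1 he2 ho => ?_⟩
  exact Nat.find_min hex he2 ⟨he1, by omega, ho⟩

theorem ball_deg {k t : ℕ} (hc : Ctx G k t) {F : Finset V} {u : V} (A : Finset V)
    (hA : ∀ v ∈ F, G.Adj u v → v ∈ A) : k ≤ #A + #(ball G F u 1) := by
  have h1 := ballB_one hc u
  have h2 : nb G {u} ⊆ insert u (A ∪ ball G F u 1) := by
    intro v hv
    rcases ballB_mem_nb.1 hv with hv | ⟨w, hw, hadj⟩
    · rw [mem_singleton.1 hv]; exact mem_insert_self _ _
    · rw [mem_singleton.1 hw] at hadj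
      refine mem_insert_of_mem ?_
      by_cases hF : v ∈ F
      · exact mem_union_left _ (hA v hF hadj)
      · exact mem_union_right _ (ballA_mem_one.2 ⟨hF, hadj⟩)
  have h3 := card_le_card h2
  have h4 := card_insert_le u (A ∪ ball G F u 1)
  have h5 := card_union_le A (ball G F u 1)
  omega

theorem ball_ne {k t : ℕ} (hc : Ctx G k t) {F : Finset V} {u : V} (hu : u ∈ F) (hF : #F ≤ k) :
    (ball G F u 1).Nonempty := by
  by_contra hne
  have h1 := ballB_one hc u
  have h2 : nb G {u} ⊆ F := by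
    intro v hv
    rcases ballB_mem_nb.1 hv with hv | ⟨w, hw, hadj⟩
    · rw [mem_singleton.1 hv]; exact hu
    · rw [mem_singleton.1 hw] at hadj
      by_contra hF
      exact hne ⟨v, ballA_mem_one.2 ⟨hF, hadj⟩⟩
  have h3 := card_le_card h2
  omega

theorem wt0 (F : Finset V) (u : V) : Wt G F u 0 1 := by
  refine ⟨{u}, by simp [ball], ?_, card_singleton u⟩
  intro a ha b hb
  rw [mem_singleton.1 ha, mem_singleton.1 hb]
  exact G.loopless.irrefl u

theorem wt1 {F : Finset V} {u : V} (h : (ball G F u 1).Nonempty) : Wt G F u 1 1 := by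
  obtain ⟨y, hy⟩ := h
  refine ⟨{y}, singleton_subset_iff.2 hy, ?_, card_singleton y⟩
  intro a ha b hb
  rw [mem_singleton.1 ha, mem_singleton.1 hb]
  exact G.loopless.irrefl y

theorem wt_nclq {F : Finset V} {u : V} {r : ℕ} (h : ¬Clq G (ball G F u r)) : Wt G F u r 2 := by
  unfold Clq at h
  push Not at h
  obtain ⟨a, ha, b, hb, hab, hadj⟩ := h
  refine ⟨{a, b}, ?_, ?_, card_pair hab⟩
  · intro x hx
    rcases mem_insert.1 hx with rfl | hx
    · exact ha
    · rw [mem_singleton.1 hx]; exact hb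
  · intro x hx y hy
    simp only [mem_insert, mem_singleton] at hx hy
    rcases hx with rfl | rfl <;> rcases hy with rfl | rfl
    · exact G.loopless.irrefl _
    · exact hadj
    · exact fun h => hadj h.symm
    · exact G.loopless.irrefl _

theorem ball_clq_lt {k t : ℕ} (hc : Ctx G k t) {F : Finset V} {u : V} (hu : u ∈ F)
    (h : Clq G (ball G F u 1)) : #(ball G F u 1) < t := by
  have hnu : u ∉ ball G F u 1 := fun hb => (ballA_mem_one.1 hb).1 hu
  have h1 := hc.clq (insert u (ball G F u 1)) (by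
    intro a ha b hb hab
    rcases mem_insert.1 ha with rfl | ha <;> rcases mem_insert.1 hb with rfl | hb
    · exact absurd rfl hab
    · exact (ballA_mem_one.1 hb).2
    · exact (ballA_mem_one.1 ha).2.symm
    · exact h a ha b hb hab)
  rw [card_insert_of_notMem hnu] at h1
  omega

theorem wt2 {k t : ℕ} (hc : Ctx G k t) {F : Finset V} {u : V} (hne : (ball G F u 1).Nonempty)
    (μ : ℕ) (hμ : ∀ S ⊆ F, (∀ a ∈ S, Out G F 1 u a) → (∀ a ∈ S, ∀ b ∈ S, Out G F 1 a b) → #S ≤ μ)
    (h : t + μ ≤ k) : Wt G F u 2 2 := by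
  by_contra hw
  have hq : Clq G (ball G F u 2) := by
    by_contra hq
    exact hw (wt_nclq hq)
  have h1 := hc.clq _ hq
  obtain ⟨y, hy⟩ := hne
  have hy' := ballA_mem_one.1 hy
  have h2 := ballB_one hc y
  have h3 : nb G {y} ⊆ ball G F u 2 ∪ F.filter (G.Adj y) := by
    intro v hv
    rcases ballB_mem_nb.1 hv with hv | ⟨w, hw, hadj⟩
    · rw [mem_singleton.1 hv]
      exact mem_union_left _ (ball_mono F u le_rfl (by omega) hy)
    · rw [mem_singleton.1 hw] at hadj
      by_cases hF : v ∈ F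
      · exact mem_union_right _ (mem_filter.2 ⟨hF, hadj⟩)
      · exact mem_union_left _ (ball_step le_rfl hy hF hadj)
  have h4 := hμ (F.filter (G.Adj y)) (filter_subset _ _)
    (fun a ha => ⟨[y], rfl, by simp, by simpa using hy'.1,
      by simpa using ⟨hy'.2, (mem_filter.1 ha).2⟩⟩)
    (fun a ha b hb => ⟨[y], rfl, by simp, by simpa using hy'.1,
      by simpa using ⟨(mem_filter.1 ha).2.symm, (mem_filter.1 hb).2⟩⟩)
  have h5 := card_le_card h3
  have h6 := card_union_le (ball G F u 2) (F.filter (G.Adj y))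
  omega

theorem wt2' {k t : ℕ} (hc : Ctx G k t) {F : Finset V} {u : V} (hu : u ∈ F)
    (hne : (ball G F u 1).Nonempty) (A : Finset V)
    (hA : ∀ v ∈ F, v ≠ u → v ∉ A → Far G F 2 u v) (h : t + #A ≤ k) : Wt G F u 3 2 := by
  by_contra hw
  have hq : Clq G (ball G F u 3) := by
    by_contra hq
    exact hw (wt_nclq hq)
  have h1 := hc.clq _ hq
  by_cases hsub : ball G F u 2 ⊆ ball G F u 1
  · obtain ⟨y, hy⟩ := hne
    have hq1 : Clq G (ball G F u 1) := fun a ha b hb hab =>
      hq a (ball_mono F u le_rfl (by omega) ha) b (ball_mono F u le_rfl (by omega) hb) hab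
    have h2 := ball_clq_lt hc hu hq1
    have h3 := ballB_one hc y
    have h4 : nb G {y} ⊆ insert u (ball G F u 1 ∪ A) := by
      intro v hv
      rcases ballB_mem_nb.1 hv with hv | ⟨w, hw, hadj⟩
      · rw [mem_singleton.1 hv]
        exact mem_insert_of_mem (mem_union_left _ hy)
      · rw [mem_singleton.1 hw] at hadj
        by_cases hF : v ∈ F
        · by_cases hvu : v = u
          · rw [hvu]; exact mem_insert_self _ _
          · refine mem_insert_of_mem (mem_union_right _ ?_)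
            by_contra hvA
            exact ball_not_far (by omega) (ball_mono F u le_rfl (by omega : 1 ≤ 2) hy) hadj
              (hA v hF hvu hvA)
        · exact mem_insert_of_mem (mem_union_left _ (hsub (ball_step le_rfl hy hF hadj)))
    have h5 := card_le_card h4
    have h6 := card_insert_le u (ball G F u 1 ∪ A)
    have h7 := card_union_le (ball G F u 1) A
    omega
  · obtain ⟨z, hz2, hz1⟩ := not_subset.1 hsub
    have hzF := ballB_notMem (by omega) hz2
    have h3 := ballB_one hc z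
    have h4 : nb G {z} ⊆ ball G F u 3 ∪ A := by
      intro v hv
      rcases ballB_mem_nb.1 hv with hv | ⟨w, hw, hadj⟩
      · rw [mem_singleton.1 hv]
        exact mem_union_left _ (ball_mono F u (by omega) (by omega) hz2)
      · rw [mem_singleton.1 hw] at hadj
        by_cases hF : v ∈ F
        · refine mem_union_right _ ?_
          by_contra hvA
          have hvu : v ≠ u := by
            rintro rfl
            exact hz1 (ballA_mem_one.2 ⟨hzF, hadj.symm⟩)
          exact ball_not_far (by omega) hz2 hadj (hA v hF hvu hvA)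
        · exact mem_union_left _ (ball_step (by omega) hz2 hF hadj)
    have h5 := card_le_card h4
    have h7 := card_union_le (ball G F u 3) A
    omega

theorem wt3 {k t : ℕ} (hc : Ctx G k t) (hk : 5 ≤ k) (hkt : k + 1 ≤ 2 * t) {F : Finset V} {u : V}
    {r : ℕ} (hr : 1 ≤ r) (hw : Wt G F u r 2) (A : Finset V)
    (hA : ∀ v ∈ F, v ≠ u → v ∉ A → Far G F r u v) (h : 2 * t + 4 + #A ≤ 2 * k) :
    Wt G F u (r + 1) 3 := by
  obtain ⟨I, hI1, hI2, hI3⟩ := hw
  have h1 := hc.exp I (card_pos.1 (by omega)) hI2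
  have h4 : nb G I ⊆ insert u (ball G F u (r + 1) ∪ A) := by
    intro v hv
    rcases ballB_mem_nb.1 hv with hv | ⟨w, hw, hadj⟩
    · exact mem_insert_of_mem (mem_union_left _ (ball_mono F u hr (by omega) (hI1 hv)))
    · by_cases hF : v ∈ F
      · by_cases hvu : v = u
        · rw [hvu]; exact mem_insert_self _ _
        · refine mem_insert_of_mem (mem_union_right _ ?_)
          by_contra hvA
          exact ball_not_far hr (hI1 hw) hadj (hA v hF hvu hvA)
      · exact mem_insert_of_mem (mem_union_left _ (ball_step hr (hI1 hw) hF hadj))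
  have h5 := card_le_card h4
  have h6 := card_insert_le u (ball G F u (r + 1) ∪ A)
  have h7 := card_union_le (ball G F u (r + 1)) A
  rw [hI3] at h1
  exact lemX hk hc.cyc hc.clq _ (by omega) (by omega)

theorem far_ext {F : Finset V} {u v : V} {κ r : ℕ} (hq : Clq G (ball G F u 1))
    (hκ : κ ≤ #(ball G F u 1)) (h : ∀ d, 1 ≤ d → d ≤ r → ∃ z, d ≤ z ∧ z < d + κ ∧ ¬Out G F z u v) :
    Far G F r u v := by
  by_contra hf
  obtain ⟨d, hd1, hd2, ⟨D, hl, hn, hF, hc⟩, hmin⟩ := ballB_least hf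
  obtain ⟨z, hz1, hz2, hz3⟩ := h d hd1 hd2
  obtain _ | ⟨y, D⟩ := D
  · simp at hl; omega
  have hD := ballB_min hn hF hc (by rw [hl]; exact hmin)
  obtain ⟨L, hL1, -, hL3, hL4, hL5⟩ := ballB_pre hq hn hF hc hD (j := z - d) (by omega)
  exact hz3 ⟨_, by rw [List.length_append, hL1, hl]; omega, hL3, hL4, hL5⟩

theorem far_ext2 {F : Finset V} {u v : V} {κ κ' r : ℕ} (hq : Clq G (ball G F u 1))
    (hκ : κ ≤ #(ball G F u 1)) (hq' : Clq G (ball G F v 1)) (hκ' : κ' ≤ #(ball G F v 1))
    (h1 : Far G F 1 u v)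
    (h : ∀ d, 2 ≤ d → d ≤ r → ∃ z, d ≤ z ∧ z + 1 < d + κ + κ' ∧ ¬Out G F z u v) :
    Far G F r u v := by
  by_contra hf
  obtain ⟨d, hd1, hd2, ho, hmin⟩ := ballB_least hf
  have hd3 : 2 ≤ d := by
    by_contra hlt
    exact h1 d hd1 (by omega) ho
  obtain ⟨D, hl, hn, hF, hc⟩ := ho
  obtain ⟨z, hz1, hz2, hz3⟩ := h d hd3 hd2
  obtain ⟨y', E, hE⟩ : ∃ y' E, D.reverse = y' :: E := by
    apply List.exists_cons_of_length_pos
    simp; omega
  have hc' := ballA_rev hc
  have hn' : (y' :: E).Nodup := hE ▸ List.nodup_reverse.2 hn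
  have hF' : ∀ w ∈ y' :: E, w ∉ F := fun w hw => hF w (List.mem_reverse.1 (hE ▸ hw))
  have hl' : (y' :: E).length = d := by rw [← hE]; simpa using hl
  rw [hE] at hc'
  have hE' := ballB_min hn' hF' hc' (by
    rw [hl']; exact fun e he1 he2 ho => hmin e he1 he2 ho.symm)
  have hy' : y' ∈ ball G F v 1 := by
    have e2 : v :: (y' :: E) ++ [u] = v :: y' :: (E ++ [u]) := by simp
    rw [e2, List.isChain_cons_cons] at hc'
    exact ballA_mem_one.2 ⟨hF' y' (by simp), hc'.1⟩
  obtain _ | ⟨y, D⟩ := D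
  · simp at hl; omega
  have hD := ballB_min hn hF hc (by rw [hl]; exact hmin)
  have hy : y ∈ ball G F u 1 := by
    have e2 : u :: (y :: D) ++ [v] = u :: y :: (D ++ [v]) := by simp
    have hc2 := hc
    rw [e2, List.isChain_cons_cons] at hc2
    exact ballA_mem_one.2 ⟨hF y (by simp), hc2.1⟩
  have ha := card_pos.2 ⟨y, hy⟩
  have hb := card_pos.2 ⟨y', hy'⟩
  obtain ⟨L, hL1, hL2, hL3, hL4, hL5⟩ := ballB_pre hq hn hF hc hD
    (j := min (z - d) (#(ball G F u 1) - 1)) (by omega)
  have hrev : (L ++ y :: D).reverse = y' :: (E ++ L.reverse) := by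
    rw [List.reverse_append, hE]; simp
  have hc3 := ballA_rev hL5
  rw [hrev] at hc3
  obtain ⟨M, hM1, -, hM3, hM4, hM5⟩ := ballB_pre hq' (hrev ▸ List.nodup_reverse.2 hL3)
    (fun w hw => hL4 w (List.mem_reverse.1 (hrev ▸ hw))) hc3 (by
      intro w hw hwb
      rcases List.mem_append.1 hw with hw | hw
      · exact hE' w hw hwb
      · have hwu := ballA_mem_one.1 (hL2 w (List.mem_reverse.1 hw))
        exact h1 1 le_rfl le_rfl ⟨[w], rfl, by simp, by simpa using hwu.1,
          by simpa using ⟨hwu.2, (ballA_mem_one.1 hwb).2.symm⟩⟩)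
    (j := z - d - min (z - d) (#(ball G F u 1) - 1)) (by omega)
  refine hz3 (Out.symm ⟨_, ?_, hM3, hM4, hM5⟩)
  simp only [List.length_append, List.length_cons, List.length_reverse, hM1, hL1] at hl' ⊢
  omega

end Vale.Agent.P048
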