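import Vale.Agent.P048.Defs

/-! Class counts of a block system. -/

namespace Vale.Agent.P048
open Finset
open scoped Classical

variable {V : Type} {G : SimpleGraph V}

namespace BSys
variable {Q : Finset V} {t : ℕ}

theorem e_add_free (S : BSys G Q t) : S.e + S.cz (range t) 0 = t := by
  unfold e cz
  have h := Finset.card_filter_add_card_filter_not (s := range t)
    (fun m => S.a m ≠ 0 ∨ S.a (m + 1) ≠ 0)
  rw [card_range] at h
  refine Eq.trans ?_ h
  congr 2
  ext m
  simp

theorem cnt_a_zero (S : BSys G Q t) : S.a 0 = 0 := by simp [a, S.zero]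

theorem cnt_a_top (S : BSys G Q t) : S.a t = 0 := by simp [a, S.top t le_rfl]

theorem cnt_pt (u v : ℕ) : 1 + (if u ≠ 0 then 1 else 0 : ℕ) =
    (if u = 0 ∧ v = 0 then 1 else 0) + ((if u = 1 ∧ v ≠ 0 then 1 else 0) +
      (if u = 2 ∧ v ≠ 0 then 1 else 0) + (if u = 3 ∧ v ≠ 0 then 1 else 0) +
      (if 4 ≤ u ∧ v ≠ 0 then 1 else 0)) + 2 * ((if u = 1 ∧ v = 0 then 1 else 0) +
      (if u = 2 ∧ v = 0 then 1 else 0) + (if u = 3 ∧ v = 0 then 1 else 0) +
      (if 4 ≤ u ∧ v = 0 then 1 else 0)) + (if v ≠ 0 then 1 else 0) := by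
  rcases u with _ | _ | _ | _ | u <;> by_cases hv : v = 0 <;> simp [hv]

theorem cnt_he (S : BSys G Q t) :
    t = S.cz (range t) 0 + (S.cx (range t) 1 + S.cx (range t) 2 + S.cx (range t) 3 + S.cx4) +
      2 * (S.cz (range t) 1 + S.cz (range t) 2 + S.cz (range t) 3 + S.cz4) := by
  have h1 : ∑ m ∈ range t, (if S.a (m + 1) ≠ 0 then 1 else 0) =
      ∑ m ∈ range t, (if S.a m ≠ 0 then 1 else 0 : ℕ) := by
    have h2 := Finset.sum_range_succ' (fun m => (if S.a m ≠ 0 then 1 else 0 : ℕ)) t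
    rw [Finset.sum_range_succ] at h2
    simp only [S.cnt_a_zero, S.cnt_a_top, ne_eq, not_true_eq_false, if_false, add_zero] at h2
    exact h2.symm
  have h3 : ∑ m ∈ range t, (1 + (if S.a m ≠ 0 then 1 else 0 : ℕ)) =
      S.cz (range t) 0 + (S.cx (range t) 1 + S.cx (range t) 2 + S.cx (range t) 3 + S.cx4) +
      2 * (S.cz (range t) 1 + S.cz (range t) 2 + S.cz (range t) 3 + S.cz4) +
      ∑ m ∈ range t, (if S.a (m + 1) ≠ 0 then 1 else 0) := by
    unfold cz cx cx4 cz4
    simp only [Finset.card_filter, ← Finset.sum_add_distrib, Finset.mul_sum]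
    exact Finset.sum_congr rfl fun m _ => cnt_pt _ _
  rw [Finset.sum_add_distrib, h1] at h3
  simp only [Finset.sum_const, card_range, smul_eq_mul, mul_one] at h3
  omega

theorem cnt_hL (S : BSys G Q t) :
    S.cx (range t) 1 + 2 * S.cx (range t) 2 + 3 * S.cx (range t) 3 + 4 * S.cx4 +
      S.cz (range t) 1 + 2 * S.cz (range t) 2 + 3 * S.cz (range t) 3 + 4 * S.cz4 ≤ S.L := by
  unfold cz cx cx4 cz4 L
  simp only [Finset.card_filter, ← Finset.sum_add_distrib, Finset.mul_sum]
  refine Finset.sum_le_sum fun m _ => ?_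
  generalize S.a m = u
  generalize S.a (m + 1) = v
  split_ifs <;> omega

theorem cnt_hz (S : BSys G Q t)
    (h : S.cz (range t) 1 + S.cz (range t) 2 + S.cz (range t) 3 + S.cz4 = 0) :
    S.cx (range t) 1 + S.cx (range t) 2 + S.cx (range t) 3 + S.cx4 = 0 := by
  have h1 : S.cz (range t) 1 = 0 := by omega
  have h2 : S.cz (range t) 2 = 0 := by omega
  have h3 : S.cz (range t) 3 = 0 := by omega
  have h4 : S.cz4 = 0 := by omega
  unfold cz at h1 h2 h3
  unfold cz4 at h4
  rw [Finset.card_eq_zero, Finset.filter_eq_empty_iff] at h1 h2 h3 h4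
  have step : ∀ m < t, S.a (m + 1) = 0 → S.a m = 0 := by
    intro m hm h0
    have a1 := h1 (mem_range.2 hm)
    have a2 := h2 (mem_range.2 hm)
    have a3 := h3 (mem_range.2 hm)
    have a4 := h4 (mem_range.2 hm)
    omega
  have all : ∀ d m, m + d = t → S.a m = 0 := by
    intro d
    induction d with
    | zero => intro m hm; rw [show m = t by omega]; exact S.cnt_a_top
    | succ d ih => intro m hm; exact step m (by omega) (ih (m + 1) (by omega))
  have all' : ∀ m ∈ range t, S.a m = 0 := fun m hm =>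
    all (t - m) m (by have := mem_range.1 hm; omega)
  unfold cx cx4
  simp only [Nat.add_eq_zero_iff, Finset.card_eq_zero, Finset.filter_eq_empty_iff]
  refine ⟨⟨⟨?_, ?_⟩, ?_⟩, ?_⟩ <;> intro m hm <;> rw [all' m hm] <;> omega

theorem glob (S : BSys G Q t) {k R : ℕ} (ht : 9 ≤ t) (hR : S.L + S.e + R = k + 1)
    (hk : k + 1 ≤ 2 * t) (hL : S.L + t ≤ k) :
    Glob t (S.cz (range t) 0) R S.L (S.cx (range t) 1) (S.cx (range t) 2) (S.cx (range t) 3) S.cx4
      (S.cz (range t) 1) (S.cz (range t) 2) (S.cz (range t) 3) S.cz4 := by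
  have he := S.e_add_free
  exact ⟨ht, S.cnt_he, S.cnt_hL, by omega, by omega, S.cnt_hz⟩

theorem cnt_cx_split (S : BSys G Q t) {U W : Finset ℕ} (h : W ⊆ U) (n : ℕ) :
    S.cx U n = S.cx (U \ W) n + S.cx W n := by
  unfold cx
  simp only [Finset.card_filter]
  rw [Finset.sum_sdiff h]

theorem cnt_cz_split (S : BSys G Q t) {U W : Finset ℕ} (h : W ⊆ U) (n : ℕ) :
    S.cz U n = S.cz (U \ W) n + S.cz W n := by
  unfold cz
  simp only [Finset.card_filter]
  rw [Finset.sum_sdiff h]

theorem cnt_le_card (S : BSys G Q t) (W : Finset ℕ) :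
    S.cx W 1 + S.cx W 2 + S.cx W 3 + S.cz W 1 + S.cz W 2 + S.cz W 3 + S.cz W 0 ≤ #W := by
  unfold cz cx
  rw [Finset.card_eq_sum_ones W]
  simp only [Finset.card_filter, ← Finset.sum_add_distrib]
  refine Finset.sum_le_sum fun m _ => ?_
  generalize S.a m = u
  generalize S.a (m + 1) = v
  split_ifs <;> omega

theorem loc (S : BSys G Q t) {i j μ R : ℕ} (hi : i < t) (hj : j < t) (hij : i ≠ j)
    (hμ : μ + S.cz {i, j} 0 = R) :
    Loc (S.cz (range t) 0) R (S.cx (range t) 1) (S.cx (range t) 2) (S.cx (range t) 3)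
      (S.cz (range t) 1) (S.cz (range t) 2) (S.cz (range t) 3) μ (S.cz {i, j} 0)
      (S.cx (range t \ {i, j}) 1) (S.cx (range t \ {i, j}) 2) (S.cx (range t \ {i, j}) 3)
      (S.cz (range t \ {i, j}) 1) (S.cz (range t \ {i, j}) 2) (S.cz (range t \ {i, j}) 3) := by
  have hsub : ({i, j} : Finset ℕ) ⊆ range t := by
    intro m hm
    simp only [mem_insert, mem_singleton] at hm
    rcases hm with rfl | rfl <;> simpa
  have hc := S.cnt_le_card {i, j}
  rw [Finset.card_pair hij] at hc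
  have a0 := S.cnt_cz_split hsub 0
  have a1 := S.cnt_cz_split hsub 1
  have a2 := S.cnt_cz_split hsub 2
  have a3 := S.cnt_cz_split hsub 3
  have b1 := S.cnt_cx_split hsub 1
  have b2 := S.cnt_cx_split hsub 2
  have b3 := S.cnt_cx_split hsub 3
  exact ⟨by linarith, by linarith, hμ, by linarith, by linarith, by linarith, by linarith,
    by linarith, by linarith, by linarith⟩

end BSys

end Vale.Agent.P048
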