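import Vale.Agent.P048.SysB
import Vale.Agent.P048.BallA

/-! Forbidden outside paths between representatives. -/

namespace Vale.Agent.P048
open Finset
open scoped Classical

variable {V : Type} {G : SimpleGraph V}

namespace BSys
variable {Q : Finset V} {t : ℕ}

theorem forb_lt (hQ : Clq G Q) (S : BSys G Q t) {k : ℕ} (ho : Opt G Q k S.L S.e) {i j μ : ℕ}
    (hj : j < t) (hij : i < j) (hμ : S.L + S.e + S.cz {i, j} 0 + μ = k + 1)
    (Del : Finset ℕ) (hD : Del ⊆ range t \ {i, j}) {d : ℕ}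
    (hd : (∑ m ∈ Del, S.a m < d ∧
        d ≤ ∑ m ∈ Del, S.a m + μ + #{m ∈ Del | S.a m ≠ 0 ∧ S.a (m + 1) = 0}) ∨
      (d = ∑ m ∈ Del, S.a m ∧ S.cz {i, j} 0 < #{m ∈ Del | S.a m ≠ 0 ∧ S.a (m + 1) = 0})) :
    ¬Out G S.F d (S.rep i) (S.rep j) := by
  intro h
  have hi' : i ∉ Del := fun hm => by simpa using (hD hm)
  have hj' : j ∉ Del := fun hm => by simpa using (hD hm)
  obtain ⟨p, hp, hY, hQ'⟩ := S.twoopt hQ hij hj Del hi' hj' h
  have hsub : Del ⊆ range t := fun m hm => (mem_sdiff.1 (hD hm)).1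
  have hL : ∑ m ∈ range t \ Del, S.a m + ∑ m ∈ Del, S.a m = S.L := sum_sdiff hsub
  set T := insert i (insert j {m ∈ range t |
        (S.a m ≠ 0 ∧ m ∉ insert i (insert j Del)) ∨
        (S.a (m + 1) ≠ 0 ∧ m + 1 ∉ insert i (insert j Del))}) with hT
  set R := {m ∈ Del | S.a m ≠ 0 ∧ S.a (m + 1) = 0} with hR
  have hdis : Disjoint T R := by
    rw [disjoint_left]
    intro m hm hm'
    rw [hR, mem_filter] at hm'
    obtain ⟨h1, h2, h3⟩ := hm'
    simp only [hT, mem_insert, mem_filter] at hm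
    rcases hm with rfl | rfl | ⟨_, h4 | h4⟩
    · exact hi' h1
    · exact hj' h1
    · exact h4.2 (Or.inr (Or.inr h1))
    · exact h4.1 h3
  have hcard : #T + #R ≤ S.e + S.cz {i, j} 0 := by
    rw [← card_union_of_disjoint hdis]
    refine le_trans (card_le_card ?_) (card_union_le _ _)
    intro m hm
    have hmt : m < t := by
      rcases mem_union.1 hm with hm | hm
      · simp only [hT, mem_insert, mem_filter, mem_range] at hm
        rcases hm with rfl | rfl | ⟨h, _⟩ <;> omega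
      · exact mem_range.1 (hsub (mem_filter.1 hm).1)
    by_cases ht : S.a m ≠ 0 ∨ S.a (m + 1) ≠ 0
    · exact mem_union_left _ (mem_filter.2 ⟨mem_range.2 hmt, ht⟩)
    · refine mem_union_right _ (mem_filter.2 ⟨?_, by tauto⟩)
      rcases mem_union.1 hm with hm | hm
      · simp only [hT, mem_insert, mem_filter] at hm
        rcases hm with rfl | rfl | ⟨_, h4 | h4⟩
        · simp
        · simp
        · exact absurd (Or.inl h4.1) ht
        · exact absurd (Or.inr h4.1) ht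
      · exact absurd (Or.inl (mem_filter.1 hm).2.1) ht
  rcases hd with ⟨h1, h2⟩ | ⟨h1, h2⟩
  · have := ho.gt p hp (by omega)
    omega
  · have := ho.eq p hp (by omega)
    omega

theorem forb (hQ : Clq G Q) (S : BSys G Q t) {k : ℕ} (ho : Opt G Q k S.L S.e) {i j μ : ℕ}
    (hi : i < t) (hj : j < t) (hij : i ≠ j) (hμ : S.L + S.e + S.cz {i, j} 0 + μ = k + 1)
    (Del : Finset ℕ) (hD : Del ⊆ range t \ {i, j}) {d : ℕ}
    (hd : (∑ m ∈ Del, S.a m < d ∧
        d ≤ ∑ m ∈ Del, S.a m + μ + #{m ∈ Del | S.a m ≠ 0 ∧ S.a (m + 1) = 0}) ∨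
      (d = ∑ m ∈ Del, S.a m ∧ S.cz {i, j} 0 < #{m ∈ Del | S.a m ≠ 0 ∧ S.a (m + 1) = 0})) :
    ¬Out G S.F d (S.rep i) (S.rep j) := by
  rcases lt_or_gt_of_ne hij with h | h
  · exact forb_lt hQ S ho hj h hμ Del hD hd
  · intro h'
    rw [pair_comm i j] at hμ hD hd
    exact forb_lt hQ S ho hi h hμ Del hD hd h'.symm

/-- Greedy extension of a set of deleted blocks. -/
theorem cov_union (hQ : Clq G Q) (S : BSys G Q t) {k : ℕ} (ho : Opt G Q k S.L S.e) {i j μ : ℕ}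
    (hi : i < t) (hj : j < t) (hij : i ≠ j) (hμ : S.L + S.e + S.cz {i, j} 0 + μ = k + 1)
    (D : Finset ℕ) (hD : D ⊆ range t \ {i, j}) (s : ℕ)
    (hs : s ≤ #{m ∈ D | S.a m ≠ 0 ∧ S.a (m + 1) = 0})
    (hc : Far G S.F (μ + ∑ m ∈ D, S.a m + #{m ∈ D | S.a m ≠ 0 ∧ S.a (m + 1) = 0})
      (S.rep i) (S.rep j))
    (U : Finset ℕ) (hU : U ⊆ range t \ {i, j})
    (hu : ∀ m ∈ U, S.a m ≠ 0 ∧ (S.a m ≤ μ + s ∨
      (S.a (m + 1) = 0 ∧ S.a m ≤ μ + s + 1 ∧ S.cz {i, j} 0 ≤ s))) :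
    Far G S.F (μ + ∑ m ∈ D ∪ U, S.a m + #{m ∈ D ∪ U | S.a m ≠ 0 ∧ S.a (m + 1) = 0})
      (S.rep i) (S.rep j) := by
  induction U using Finset.induction_on with
  | empty => simpa using hc
  | insert m U hm ih =>
    have ih' := ih (fun x hx => hU (mem_insert_of_mem hx)) (fun x hx => hu x (mem_insert_of_mem hx))
    by_cases hmD : m ∈ D ∪ U
    · rwa [union_insert, insert_eq_of_mem hmD]
    · rw [union_insert]
      have hs' : s ≤ #{m ∈ D ∪ U | S.a m ≠ 0 ∧ S.a (m + 1) = 0} :=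
        hs.trans (card_le_card (filter_subset_filter _ subset_union_left))
      obtain ⟨h0, hum⟩ := hu m (mem_insert_self _ _)
      have hsub : insert m (D ∪ U) ⊆ range t \ {i, j} := by
        rw [← union_insert]
        exact union_subset hD hU
      have hle : #{x ∈ D ∪ U | S.a x ≠ 0 ∧ S.a (x + 1) = 0} ≤
          #{x ∈ insert m (D ∪ U) | S.a x ≠ 0 ∧ S.a (x + 1) = 0} :=
        card_le_card (filter_subset_filter _ (subset_insert _ _))
      intro d hd1 hd2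
      by_cases hold : d ≤ μ + ∑ m ∈ D ∪ U, S.a m + #{m ∈ D ∪ U | S.a m ≠ 0 ∧ S.a (m + 1) = 0}
      · exact ih' d hd1 hold
      · refine forb hQ S ho hi hj hij hμ _ hsub ?_
        have hsum : ∑ x ∈ insert m (D ∪ U), S.a x = S.a m + ∑ x ∈ D ∪ U, S.a x :=
          sum_insert hmD
        rcases hum with h1 | ⟨h1, h2, h3⟩
        · left
          omega
        · have hc1 : #{x ∈ insert m (D ∪ U) | S.a x ≠ 0 ∧ S.a (x + 1) = 0} =
              #{x ∈ D ∪ U | S.a x ≠ 0 ∧ S.a (x + 1) = 0} + 1 := by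
            rw [filter_insert, if_pos ⟨h0, h1⟩, card_insert_of_notMem]
            exact fun h => hmD (mem_filter.1 h).1
          omega

theorem ite_mul_aux (P : Prop) [Decidable P] (c x : ℕ) :
    (if P then c * x else 0) = (if P then c else 0) * x := by
  split_ifs <;> simp

theorem ite_one_aux (P : Prop) [Decidable P] (x : ℕ) :
    (if P then x else 0) = (if P then 1 else 0) * x := by
  split_ifs <;> simp

theorem sav1_le (S : BSys G Q t) (W : Finset ℕ) {μ Δ : ℕ} (h1 : 1 ≤ μ) :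
    sav1 μ Δ (S.cz W 1) (S.cz W 2) (S.cz W 3) ≤
      #{m ∈ {m ∈ W | S.a m ≠ 0 ∧ (S.a m ≤ μ + 0 ∨
        (S.a (m + 1) = 0 ∧ S.a m ≤ μ + 0 + 1 ∧ Δ ≤ 0))} | S.a m ≠ 0 ∧ S.a (m + 1) = 0} := by
  rw [filter_filter, sav1, ite_one_aux _ (S.cz W 2), ite_one_aux _ (S.cz W 3)]
  simp only [cz, card_filter, mul_sum, ← sum_add_distrib]
  refine sum_le_sum fun m _ => ?_
  split_ifs <;> omega

theorem reach_le (S : BSys G Q t) (W : Finset ℕ) {μ Δ s : ℕ} (h1 : 1 ≤ μ) :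
    reach μ Δ s (S.cx W 1) (S.cx W 2) (S.cx W 3) (S.cz W 1) (S.cz W 2) (S.cz W 3) ≤
      μ + ∑ m ∈ {m ∈ W | S.a m ≠ 0 ∧ (S.a m ≤ μ + s ∨
        (S.a (m + 1) = 0 ∧ S.a m ≤ μ + s + 1 ∧ Δ ≤ s))}, S.a m +
      #{m ∈ {m ∈ W | S.a m ≠ 0 ∧ (S.a m ≤ μ + s ∨
        (S.a (m + 1) = 0 ∧ S.a m ≤ μ + s + 1 ∧ Δ ≤ s))} | S.a m ≠ 0 ∧ S.a (m + 1) = 0} := by
  rw [filter_filter, reach, ite_mul_aux _ 2, ite_mul_aux _ 3, ite_mul_aux _ 3, ite_mul_aux _ 4,
    sum_filter]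
  simp only [add_assoc]
  refine Nat.add_le_add_left ?_ _
  simp only [cz, cx, card_filter, mul_sum, ← sum_add_distrib]
  refine sum_le_sum fun m _ => ?_
  generalize S.a m = x
  generalize S.a (m + 1) = y
  rcases y with _ | y
  · rcases x with _ | _ | _ | _ | x <;> simp <;> (try split_ifs) <;> omega
  · rcases x with _ | _ | _ | _ | x <;> simp <;> (try split_ifs) <;> omega

theorem cover (hQ : Clq G Q) (S : BSys G Q t) {k : ℕ} (ho : Opt G Q k S.L S.e) {i j μ : ℕ}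
    (hi : i < t) (hj : j < t) (hij : i ≠ j) (hμ : S.L + S.e + S.cz {i, j} 0 + μ = k + 1)
    (h1 : 1 ≤ μ) :
    Far G S.F (reach μ (S.cz {i, j} 0)
      (sav1 μ (S.cz {i, j} 0) (S.cz (range t \ {i, j}) 1) (S.cz (range t \ {i, j}) 2)
        (S.cz (range t \ {i, j}) 3))
      (S.cx (range t \ {i, j}) 1) (S.cx (range t \ {i, j}) 2) (S.cx (range t \ {i, j}) 3)
      (S.cz (range t \ {i, j}) 1) (S.cz (range t \ {i, j}) 2) (S.cz (range t \ {i, j}) 3))
      (S.rep i) (S.rep j) := by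
  set W := range t \ {i, j} with hW
  set Δ := S.cz {i, j} 0 with hΔ
  set s := sav1 μ Δ (S.cz W 1) (S.cz W 2) (S.cz W 3) with hs
  have c0 : Far G S.F (μ + ∑ m ∈ (∅ : Finset ℕ), S.a m +
      #{m ∈ (∅ : Finset ℕ) | S.a m ≠ 0 ∧ S.a (m + 1) = 0}) (S.rep i) (S.rep j) := by
    intro d hd1 hd2
    refine forb hQ S ho hi hj hij hμ ∅ (empty_subset _) (Or.inl ?_)
    simp only [sum_empty, filter_empty, card_empty] at hd2 ⊢
    omega
  have c1 := cov_union hQ S ho hi hj hij hμ ∅ (empty_subset _) 0 (Nat.zero_le _) c0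
    {m ∈ W | S.a m ≠ 0 ∧ (S.a m ≤ μ + 0 ∨ (S.a (m + 1) = 0 ∧ S.a m ≤ μ + 0 + 1 ∧ Δ ≤ 0))}
    (filter_subset _ _) (fun m hm => (mem_filter.1 hm).2)
  rw [empty_union] at c1
  have c2 := cov_union hQ S ho hi hj hij hμ _ (filter_subset _ _) s (sav1_le S W h1) c1
    {m ∈ W | S.a m ≠ 0 ∧ (S.a m ≤ μ + s ∨ (S.a (m + 1) = 0 ∧ S.a m ≤ μ + s + 1 ∧ Δ ≤ s))}
    (filter_subset _ _) (fun m hm => (mem_filter.1 hm).2)
  refine c2.mono ((reach_le S W h1).trans ?_)
  exact Nat.add_le_add (Nat.add_le_add_left (sum_le_sum_of_subset subset_union_right) _)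
    (card_le_card (filter_subset_filter _ subset_union_right))

end BSys

end Vale.Agent.P048
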