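import Vale.Agent.P048.SysH

/-! The flattened form of a block system, and counting. -/

namespace Vale.Agent.P048
open Finset
open scoped Classical

variable {V : Type} {G : SimpleGraph V}

theorem eOf_range (n : ℕ) : ∀ f : ℕ → ℕ, f n = 0 →
    #{m ∈ range n | f m ≠ 0 ∨ f (m + 1) ≠ 0} = eOf ((List.range n).map f) := by
  induction n with
  | zero => intro f _; simp [eOf]
  | succ n ih =>
    intro f hf
    rw [List.range_succ_eq_map, List.map_cons, List.map_map, eOf,
      ← ih (f ∘ Nat.succ) hf, Finset.card_filter, Finset.card_filter, Finset.sum_range_succ',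
      add_comm]
    have h : (List.map (f ∘ Nat.succ) (List.range n)).headD 0 = f 1 := by
      cases n with
      | zero => simpa using hf.symm
      | succ n => simp [List.range_succ_eq_map]
    rw [h]
    rfl

theorem sum_range_list (n : ℕ) (f : ℕ → ℕ) : ((List.range n).map f).sum = ∑ m ∈ range n, f m := by
  induction n with
  | zero => simp
  | succ n ih => rw [List.range_succ, List.map_append, List.sum_append, ih, Finset.sum_range_succ]; simp

namespace BSys
variable {Q : Finset V} {t : ℕ}

theorem e_eq (S : BSys G Q t) : S.e = eOf S.am := by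
  unfold e am
  rw [← eOf_range t S.a ((S.a_eq t).2 (S.top t le_rfl))]

theorem am_length (S : BSys G Q t) : S.am.length = t := by
  simp [am]

theorem am_sum (S : BSys G Q t) : S.am.sum = S.L := by
  unfold am L
  exact sum_range_list t S.a

theorem am_head (S : BSys G Q t) : S.am.headD 0 = 0 := by
  unfold am
  have h := (S.a_eq 0).2 S.zero
  cases t with
  | zero => simp
  | succ n => simpa [List.range_succ_eq_map] using h

theorem q_surj (ht : #Q = t) (S : BSys G Q t) {v : V} (hv : v ∈ Q) : ∃ m < t, S.q m = v := by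
  have h1 : (range t).image S.q ⊆ Q := by
    intro x hx
    obtain ⟨m, hm, rfl⟩ := Finset.mem_image.1 hx
    exact S.mem m (Finset.mem_range.1 hm)
  have h2 : #((range t).image S.q) = t := by
    rw [Finset.card_image_of_injOn, Finset.card_range]
    intro m hm n hn h
    exact S.inj m (by simpa using hm) n (by simpa using hn) h
  have h3 := Finset.eq_of_subset_of_card_le h1 (by omega)
  rw [← h3] at hv
  obtain ⟨m, hm, h⟩ := Finset.mem_image.1 hv
  exact ⟨m, Finset.mem_range.1 hm, h⟩

theorem mem_F (S : BSys G Q t) (v : V) : v ∈ S.F ↔ v ∈ Q ∨ ∃ m, v ∈ S.Y m := by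
  unfold F
  rw [Finset.mem_union, Finset.mem_biUnion]
  constructor
  · rintro (h | ⟨m, -, h⟩)
    · exact Or.inl h
    · exact Or.inr ⟨m, List.mem_toFinset.1 h⟩
  · rintro (h | ⟨m, h⟩)
    · exact Or.inl h
    · exact Or.inr ⟨m, Finset.mem_range.2 (S.lt_of_ne (List.ne_nil_of_mem h)),
        List.mem_toFinset.2 h⟩

theorem card_F (ht : #Q = t) (S : BSys G Q t) : #S.F = t + S.L := by
  unfold F L
  rw [Finset.card_union_of_disjoint, ht, Finset.card_biUnion]
  · congr 1
    refine Finset.sum_congr rfl fun m _ => ?_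
    exact List.toFinset_card_of_nodup (S.nd m)
  · intro m _ n _ hmn
    rw [Function.onFun, Finset.disjoint_left]
    intro z hz hz'
    exact S.dj m n hmn z (List.mem_toFinset.1 hz) (List.mem_toFinset.1 hz')
  · rw [Finset.disjoint_left]
    intro z hz hz'
    obtain ⟨m, -, h⟩ := Finset.mem_biUnion.1 hz'
    exact S.out m z (List.mem_toFinset.1 h) hz

theorem rep_cases (S : BSys G Q t) (m : ℕ) :
    (S.Y m = [] ∧ S.rep m = S.q m) ∨ ∃ l, S.Y m = S.rep m :: l := by
  unfold rep
  cases h : S.Y m with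
  | nil => exact Or.inl ⟨rfl, rfl⟩
  | cons a l => exact Or.inr ⟨l, rfl⟩

theorem rep_mem (S : BSys G Q t) {m : ℕ} (hm : m < t) : S.rep m ∈ S.F := by
  rw [mem_F]
  rcases S.rep_cases m with ⟨-, h⟩ | ⟨l, h⟩
  · exact Or.inl (h ▸ S.mem m hm)
  · exact Or.inr ⟨m, by rw [h]; simp⟩

theorem rep_inj (S : BSys G Q t) {m n : ℕ} (hm : m < t) (hn : n < t) (h : S.rep m = S.rep n) :
    m = n := by
  rcases S.rep_cases m with ⟨-, h1⟩ | ⟨l, h1⟩ <;> rcases S.rep_cases n with ⟨-, h2⟩ | ⟨l', h2⟩
  · exact S.inj m hm n hn (h1.symm.trans (h.trans h2))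
  · exact absurd (by rw [← h, h1]; exact S.mem m hm) (S.out n (S.rep n) (by rw [h2]; simp))
  · exact absurd (by rw [h, h2]; exact S.mem n hn) (S.out m (S.rep m) (by rw [h1]; simp))
  · by_contra hmn
    exact S.dj m n hmn (S.rep m) (by rw [h1]; simp) (by rw [h, h2]; simp)

/-- In a block with at least two outside vertices the last two vertices are not representatives. -/
theorem two_nonrep (S : BSys G Q t) {m : ℕ} (hm : S.Y m ≠ []) (h2 : 2 ≤ S.a m) :
    (S.Y m).getLast hm ∈ S.F ∧ S.q m ∈ S.F ∧ (S.Y m).getLast hm ≠ S.q m ∧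
      ∀ n < t, S.rep n ≠ (S.Y m).getLast hm ∧ S.rep n ≠ S.q m := by
  have hmt := S.lt_of_ne hm
  have hl : (S.Y m).getLast hm ∈ S.Y m := List.getLast_mem hm
  have hq := S.mem m hmt
  refine ⟨(S.mem_F _).2 (Or.inr ⟨m, hl⟩), (S.mem_F _).2 (Or.inl hq), ?_, ?_⟩
  · intro h
    exact S.out m _ hl (h ▸ hq)
  · intro n hn
    rcases S.rep_cases n with ⟨h0, h1⟩ | ⟨l, h1⟩
    · refine ⟨fun h => S.out m _ hl (by rw [← h, h1]; exact S.mem n hn), fun h => ?_⟩
      have := S.inj n hn m hmt (h1.symm.trans h)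
      exact hm (this ▸ h0)
    · have hr : S.rep n ∈ S.Y n := by rw [h1]; simp
      refine ⟨fun h => ?_, fun h => S.out n _ hr (h ▸ hq)⟩
      have hnm : n = m := by
        by_contra hnm
        exact S.dj n m hnm _ hr (h ▸ hl)
      subst hnm
      have hnd := S.nd n
      have hlen : 2 ≤ (S.Y n).length := h2
      generalize S.rep n = r at h1 h
      revert hm h
      rw [h1] at hnd hlen ⊢
      intro hm _ h
      have hl0 : l ≠ [] := by
        rintro rfl
        simp at hlen
      rw [List.getLast_cons hl0] at h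
      rw [List.nodup_cons] at hnd
      exact hnd.1 (h ▸ List.getLast_mem hl0)

theorem fl_map (S : BSys G Q t) {n : ℕ} (hn : n ≤ t) :
    (S.fl (fun _ => True) n).map (fun v => decide (v ∈ Q)) = qpat ((List.range n).map S.a) := by
  induction n with
  | zero => simp [fl_zero, qpat]
  | succ n ih =>
    have ih' := ih (by omega)
    unfold qpat at ih' ⊢
    rw [fl_succ, List.map_append, ih', List.range_succ, List.map_append, List.flatMap_append,
      if_pos trivial]
    congr 1
    have h2 : S.q n ∈ Q := S.mem n (by omega)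
    have h1 : (S.Y n).map (fun v => decide (v ∈ Q)) = List.replicate (S.a n) false := by
      rw [List.eq_replicate_iff]
      refine ⟨by simp [a], ?_⟩
      intro b hb
      obtain ⟨v, hv, rfl⟩ := List.mem_map.1 hb
      simpa using S.out n v hv
    rw [List.map_append, h1]
    simp [h2]

theorem flat_spec (hQ : Clq G Q) (ht : #Q = t) (S : BSys G Q t) :
    ∃ x : ℕ → V, (∀ i < t + S.L, ∀ j < t + S.L, x i = x j → i = j) ∧
      (∀ i, i + 1 < t + S.L → G.Adj (x i) (x (i + 1))) ∧
      (∀ i < t + S.L, (x i ∈ Q ↔ (qpat S.am).getD i false = true)) ∧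
      ∀ v ∈ Q, ∃ i < t + S.L, x i = v := by
  set l := S.fl (fun _ => True) t with hl
  have hnd : l.Nodup := S.fl_nodup _ le_rfl
  have hch : l.IsChain G.Adj := S.fl_chain hQ (fun _ _ => trivial) le_rfl
  have hlen : l.length = t + S.L := by
    rw [← nY_add_nQ Q l, hl, S.fl_nY (fun _ _ => trivial) le_rfl, S.fl_nQ _ le_rfl, add_comm]
    simp [L]
  have hmap : l.map (fun v => decide (v ∈ Q)) = qpat S.am := S.fl_map le_rfl
  refine ⟨fun i => l.getD i (S.q 0), ?_, ?_, ?_, ?_⟩
  · intro i hi j hj h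
    rw [← hlen] at hi hj
    simp only [List.getD_eq_getElem _ _ hi, List.getD_eq_getElem _ _ hj] at h
    exact (List.Nodup.getElem_inj_iff hnd).1 h
  · intro i hi
    rw [← hlen] at hi
    simp only [List.getD_eq_getElem _ _ hi, List.getD_eq_getElem _ _ (Nat.lt_of_succ_lt hi)]
    exact List.isChain_iff_getElem.1 hch i hi
  · intro i hi
    rw [← hlen] at hi
    rw [← hmap, List.getD_eq_getElem _ _ (by simpa using hi)]
    simp only [List.getD_eq_getElem _ _ hi]
    simp
  · intro v hv
    obtain ⟨m, hm, rfl⟩ := S.q_surj ht hv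
    have : S.q m ∈ l := (S.mem_fl _ t _).2 ⟨m, hm, trivial, Or.inr rfl⟩
    obtain ⟨i, hi, h⟩ := List.getElem_of_mem this
    refine ⟨i, hlen ▸ hi, ?_⟩
    simp only [List.getD_eq_getElem _ _ hi]
    exact h

end BSys

end Vale.Agent.P048
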