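import Vale.Agent.P048.SysC
import Vale.Agent.P048.SysD
import Vale.Agent.P048.Cover
import Vale.Agent.P048.Cnt
import Vale.Agent.P048.Ar
import Vale.Agent.P048.BallB

/-! The case of a clique with at least nine vertices. -/

namespace Vale.Agent.P048
open Finset
open scoped Classical

variable {V : Type} [Fintype V] {G : SimpleGraph V}

theorem pack_rep {k t : ℕ} (hc : Ctx G k t) {Q : Finset V} (S : BSys G Q t) (N : Finset ℕ)
    (hN : N ⊆ range t) (r w : ℕ) (hr : 1 ≤ r) (hw : ∀ i ∈ N, Wt G S.F (S.rep i) r w)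
    (hf : ∀ i ∈ N, ∀ j ∈ N, i ≠ j → Far G S.F (r + r) (S.rep i) (S.rep j)) : #N * w ≤ k := by
  have := pack hc S.F N S.rep (fun _ => r) (fun _ => w)
    (fun i hi => S.rep_mem (mem_range.1 (hN hi))) hw
    (fun i hi j hj hij => ⟨fun h => hij (S.rep_inj (mem_range.1 (hN hi)) (mem_range.1 (hN hj)) h),
      hf i hi j hj hij, fun h => by omega⟩)
  simpa using this

theorem big {k t : ℕ} (hc : Ctx G k t) (ht : 9 ≤ t) (hk : k + 1 ≤ 2 * t) : False := by
  have hk1 : 1 ≤ k := by
    obtain ⟨Q, -, hQ⟩ := hc.has
    obtain ⟨v, -⟩ : Q.Nonempty := card_pos.1 (by omega)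
    have := hc.ind {v} (fun a ha b hb => by
      rw [mem_singleton.1 ha, mem_singleton.1 hb]; exact G.loopless.irrefl _)
    simpa using this
  obtain ⟨Q, S, hQ, hQt, ho, hLk, -⟩ := exists_opt hc hk1
  have hef := S.e_add_free
  obtain ⟨R, hR⟩ : ∃ R, S.L + S.e + R = k + 1 := ⟨k + 1 - S.L - S.e, by omega⟩
  have hg := S.glob ht hR hk hLk
  have hF := S.card_F hQt
  -- pairs
  have hΔ : ∀ i < t, ∀ j < t, S.cz {i, j} 0 ≤ S.cz (range t) 0 := by
    intro i hi j hj
    refine card_le_card (filter_subset_filter _ ?_)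
    intro m hm
    simp only [mem_insert, mem_singleton] at hm
    rcases hm with rfl | rfl <;> simpa
  have hpair : ∀ i < t, ∀ j < t, i ≠ j → ∃ μ, μ + S.cz {i, j} 0 = R ∧ 1 ≤ μ ∧
      Far G S.F (reach μ (S.cz {i, j} 0)
      (sav1 μ (S.cz {i, j} 0) (S.cz (range t \ {i, j}) 1) (S.cz (range t \ {i, j}) 2)
        (S.cz (range t \ {i, j}) 3))
      (S.cx (range t \ {i, j}) 1) (S.cx (range t \ {i, j}) 2) (S.cx (range t \ {i, j}) 3)
      (S.cz (range t \ {i, j}) 1) (S.cz (range t \ {i, j}) 2) (S.cz (range t \ {i, j}) 3))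
      (S.rep i) (S.rep j) := by
    intro i hi j hj hij
    have := hΔ i hi j hj
    refine ⟨R - S.cz {i, j} 0, by omega, by omega, ?_⟩
    exact S.cover hQ ho hi hj hij (by omega) (by omega)
  set A0 := S.F \ (range t).image S.rep with hA0
  have hA0c : #A0 = S.L := by
    rw [hA0, card_sdiff_of_subset, card_image_of_injOn, card_range, hF]
    · omega
    · intro a ha b hb h
      exact S.rep_inj (by simpa using ha) (by simpa using hb) h
    · intro v hv
      obtain ⟨m, hm, rfl⟩ := mem_image.1 hv
      exact S.rep_mem (mem_range.1 hm)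
  have hrep : ∀ v ∈ S.F, v ∉ A0 → ∃ j < t, S.rep j = v := by
    intro v hv hv'
    by_contra hne
    refine hv' (mem_sdiff.2 ⟨hv, fun h => hne ?_⟩)
    obtain ⟨m, hm, rfl⟩ := mem_image.1 h
    exact ⟨m, mem_range.1 hm, rfl⟩
  have hne : ∀ i < t, (ball G S.F (S.rep i) 1).Nonempty := fun i hi =>
    ball_ne hc (S.rep_mem hi) (by omega)
  by_cases hY : ∀ m < t, S.a m ≤ 1
  · have hx : ∀ W ⊆ range t, ∀ n, 2 ≤ n → S.cx W n = 0 := by
      intro W hW n hn
      refine card_eq_zero.2 (filter_eq_empty_iff.2 fun m hm h => ?_)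
      have := hY m (mem_range.1 (hW hm))
      omega
    have hz : ∀ W ⊆ range t, ∀ n, 2 ≤ n → S.cz W n = 0 := by
      intro W hW n hn
      refine card_eq_zero.2 (filter_eq_empty_iff.2 fun m hm h => ?_)
      have := hY m (mem_range.1 (hW hm))
      omega
    have hx4 : S.cx4 = 0 := by
      refine card_eq_zero.2 (filter_eq_empty_iff.2 fun m hm h => ?_)
      have := hY m (mem_range.1 hm)
      omega
    have hz4 : S.cz4 = 0 := by
      refine card_eq_zero.2 (filter_eq_empty_iff.2 fun m hm h => ?_)
      have := hY m (mem_range.1 hm)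
      omega
    rw [hx _ subset_rfl 2 le_rfl, hx _ subset_rfl 3 (by omega), hz _ subset_rfl 2 le_rfl,
      hz _ subset_rfl 3 (by omega), hx4, hz4] at hg
    have h6 : ∀ i < t, ∀ j < t, i ≠ j → Far G S.F 6 (S.rep i) (S.rep j) := by
      intro i hi j hj hij
      obtain ⟨μ, h1, -, h3⟩ := hpair i hi j hj hij
      have hl := S.loc hi hj hij h1
      rw [hx _ subset_rfl 2 le_rfl, hx _ subset_rfl 3 (by omega), hz _ subset_rfl 2 le_rfl,
        hz _ subset_rfl 3 (by omega)] at hl
      rw [hx _ sdiff_subset 2 le_rfl, hx _ sdiff_subset 3 (by omega), hz _ sdiff_subset 2 le_rfl,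
        hz _ sdiff_subset 3 (by omega)] at hl h3
      exact h3.mono (reach_Y hg hl)
    have := pack_rep hc S (range t) subset_rfl 3 2 (by omega) (fun i hi => by
      refine wt2' hc (S.rep_mem (mem_range.1 hi)) (hne i (mem_range.1 hi)) A0 ?_ (by omega)
      intro v hv hvi hvA
      obtain ⟨j, hj, rfl⟩ := hrep v hv hvA
      exact (h6 i (mem_range.1 hi) j hj (fun h => hvi (by rw [h]))).mono (by omega))
      (fun i hi j hj hij => h6 i (mem_range.1 hi) j (mem_range.1 hj) hij)
    rw [card_range] at this
    omega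
  · push Not at hY
    obtain ⟨m, hm, hm2⟩ := hY
    have hYm : S.Y m ≠ [] := by
      intro h
      simp [BSys.a, h] at hm2
    obtain ⟨hy1, hy2, -, hy4⟩ := S.two_nonrep hYm hm2
    have hins := S.insertion hQ ho hLk hYm
    have hyA : (S.Y m).getLast hYm ∈ A0 := mem_sdiff.2 ⟨hy1, fun h => by
      obtain ⟨n, hn, h⟩ := mem_image.1 h
      exact (hy4 n (mem_range.1 hn)).1 h⟩
    have hqA : S.q m ∈ A0 := mem_sdiff.2 ⟨hy2, fun h => by
      obtain ⟨n, hn, h⟩ := mem_image.1 h
      exact (hy4 n (mem_range.1 hn)).2 h⟩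
    have hw2 : ∀ i < t, Wt G S.F (S.rep i) 2 2 := by
      intro i hi
      refine wt2 hc (hne i hi) S.L ?_ (by omega)
      intro T hT h1 h2
      have key : ∀ y ∈ A0, y ∉ T → #T ≤ S.L := by
        intro y hy hyT
        have hsub : T ⊆ insert (S.rep i) (A0.erase y) := by
          intro v hv
          by_cases hvA : v ∈ A0
          · exact mem_insert_of_mem (mem_erase.2 ⟨fun h => hyT (h ▸ hv), hvA⟩)
          · obtain ⟨j, hj, rfl⟩ := hrep v (hT hv) hvA
            by_cases hij : i = j
            · rw [hij]; exact mem_insert_self _ _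
            · obtain ⟨μ, -, h3, h4⟩ := hpair i hi j hj hij
              exact absurd (h1 _ hv) (h4 1 le_rfl (h3.trans (reach_ge _ _ _ _ _ _ _ _ _)))
        have h5 := (card_le_card hsub).trans (card_insert_le _ _)
        have h6 := card_erase_of_mem hy
        have h7 := card_pos.2 ⟨y, hy⟩
        omega
      by_cases h3 : (S.Y m).getLast hYm ∈ T
      · by_cases h4 : S.q m ∈ T
        · exact absurd (h2 _ h3 _ h4) hins
        · exact key _ hqA h4
      · exact key _ hyA h3
    by_cases hB : ModeB (S.cz (range t) 0) R (S.cx (range t) 1) (S.cz (range t) 1)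
      (S.cz (range t) 2)
    · have hB' := hB
      obtain ⟨hRf, hf⟩ := hB'
      set N := {m ∈ range t | S.a m ≠ 0 ∨ S.a (m + 1) ≠ 0} with hN
      have hNe : #N = S.e := rfl
      have hNt : ∀ i ∈ N, i < t := fun i hi => mem_range.1 (mem_filter.1 hi).1
      have h6 : ∀ i ∈ N, ∀ j ∈ N, i ≠ j → Far G S.F 6 (S.rep i) (S.rep j) := by
        intro i hi j hj hij
        obtain ⟨μ, h1, -, h3⟩ := hpair i (hNt i hi) j (hNt j hj) hij
        have hl := S.loc (hNt i hi) (hNt j hj) hij h1
        have h0 : S.cz {i, j} 0 = 0 := by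
          refine card_eq_zero.2 (filter_eq_empty_iff.2 fun m hm h => ?_)
          have h4 := (mem_filter.1 hi).2
          have h5 := (mem_filter.1 hj).2
          simp only [mem_insert, mem_singleton] at hm
          rcases hm with rfl | rfl <;> tauto
        rw [h0] at hl h3
        exact h3.mono (reach_B hg hl hB)
      by_cases hke : k < 2 * S.e
      · have := pack_rep hc S N (filter_subset _ _) 2 2 (by omega) (fun i hi => hw2 i (hNt i hi))
          (fun i hi j hj hij => (h6 i hi j hj hij).mono (by omega))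
        omega
      · have hw3 : ∀ i ∈ N, Wt G S.F (S.rep i) (2 + 1) 3 := by
          intro i hi
          by_cases hf1 : S.cz (range t) 0 = 1
          · refine wt3 hc (by omega) hk (by omega) (hw2 i (hNt i hi))
              (A0 ∪ {m ∈ range t | S.a m = 0 ∧ S.a (m + 1) = 0}.image S.rep) ?_ ?_
            · intro v hv hvi hvA
              obtain ⟨j, hj, rfl⟩ := hrep v hv (fun h => hvA (mem_union_left _ h))
              have hjN : j ∈ N := by
                refine mem_filter.2 ⟨mem_range.2 hj, ?_⟩
                by_contra h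
                exact hvA (mem_union_right _ (mem_image_of_mem _
                  (mem_filter.2 ⟨mem_range.2 hj, by tauto⟩)))
              exact (h6 i hi j hjN (fun h => hvi (by rw [h]))).mono (by omega)
            · have h1 := card_union_le A0
                ({m ∈ range t | S.a m = 0 ∧ S.a (m + 1) = 0}.image S.rep)
              have h2 : #({m ∈ range t | S.a m = 0 ∧ S.a (m + 1) = 0}.image S.rep) ≤
                S.cz (range t) 0 := card_image_le
              omega
          · refine wt3 hc (by omega) hk (by omega) (hw2 i (hNt i hi)) A0 ?_ (by omega)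
            intro v hv hvi hvA
            obtain ⟨j, hj, rfl⟩ := hrep v hv hvA
            obtain ⟨μ, h1, -, h3⟩ := hpair i (hNt i hi) j hj (fun h => hvi (by rw [h]))
            have h0 : S.cz {i, j} 0 ≤ 1 := by
              refine le_trans (card_le_card (t := {j}) fun m hm => ?_) (by simp)
              have h4 := (mem_filter.1 hi).2
              obtain ⟨h5, h6⟩ := mem_filter.1 hm
              simp only [mem_insert, mem_singleton] at h5 ⊢
              rcases h5 with rfl | rfl <;> tauto
            exact h3.mono (le_trans (by omega) (reach_ge _ _ _ _ _ _ _ _ _))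
        have := pack_rep hc S N (filter_subset _ _) 3 3 (by omega) hw3 h6
        omega
    · have := pack_rep hc S (range t) subset_rfl 2 2 (by omega)
        (fun i hi => hw2 i (mem_range.1 hi)) (fun i hi j hj hij => by
          obtain ⟨μ, h1, -, h3⟩ := hpair i (mem_range.1 hi) j (mem_range.1 hj) hij
          exact h3.mono (reach_A hg (S.loc (mem_range.1 hi) (mem_range.1 hj) hij h1) hB))
      rw [card_range] at this
      omega

end Vale.Agent.P048
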