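import Vale.Agent.P048.Cert3
import Vale.Agent.P048.Cert4
import Vale.Agent.P048.Cert5

/-! All normal patterns have certificates. -/

namespace Vale.Agent.P048

theorem all_13_7 : ∃ D : List (List ℕ × Cert), D.all (chkP 13 7) = true ∧
    pats 13 7 = D.map Prod.fst :=
  ⟨dat_13_7_0 ++ dat_13_7_1 ++ dat_13_7_2 ++ dat_13_7_3 ++ dat_13_7_4 ++ dat_13_7_5 ++ dat_13_7_6 ++ dat_13_7_7 ++ dat_13_7_8,
    by simp only [List.all_append, Bool.and_self, ok_13_7_0, ok_13_7_1, ok_13_7_2, ok_13_7_3, ok_13_7_4, ok_13_7_5, ok_13_7_6, ok_13_7_7, ok_13_7_8],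
    by decide +kernel⟩

theorem all_13_8 : ∃ D : List (List ℕ × Cert), D.all (chkP 13 8) = true ∧
    pats 13 8 = D.map Prod.fst :=
  ⟨dat_13_8_0 ++ dat_13_8_1 ++ dat_13_8_2 ++ dat_13_8_3 ++ dat_13_8_4,
    by simp only [List.all_append, Bool.and_self, ok_13_8_0, ok_13_8_1, ok_13_8_2, ok_13_8_3, ok_13_8_4],
    by decide +kernel⟩

end Vale.Agent.P048
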