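import Vale.Agent.P048.Cert5
import Vale.Agent.P048.Cert6
import Vale.Agent.P048.Cert7

/-! All normal patterns have certificates. -/

namespace Vale.Agent.P048

theorem all_14_8 : ∃ D : List (List ℕ × Cert), D.all (chkP 14 8) = true ∧
    pats 14 8 = D.map Prod.fst :=
  ⟨dat_14_8_0 ++ dat_14_8_1 ++ dat_14_8_2 ++ dat_14_8_3 ++ dat_14_8_4 ++ dat_14_8_5 ++ dat_14_8_6 ++ dat_14_8_7 ++ dat_14_8_8 ++ dat_14_8_9 ++ dat_14_8_10,
    by simp only [List.all_append, Bool.and_self, ok_14_8_0, ok_14_8_1, ok_14_8_2, ok_14_8_3, ok_14_8_4, ok_14_8_5, ok_14_8_6, ok_14_8_7, ok_14_8_8, ok_14_8_9, ok_14_8_10],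
    by decide +kernel⟩

end Vale.Agent.P048
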