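import Vale.Agent.P048.Cert7
import Vale.Agent.P048.Cert8
import Vale.Agent.P048.Cert9
import Vale.Agent.P048.Cert10
import Vale.Agent.P048.Cert11
import Vale.Agent.P048.Cert12

/-! All normal patterns have certificates. -/

namespace Vale.Agent.P048

theorem all_15_8 : ∃ D : List (List ℕ × Cert), D.all (chkP 15 8) = true ∧
    pats 15 8 = D.map Prod.fst :=
  ⟨dat_15_8_0 ++ dat_15_8_1 ++ dat_15_8_2 ++ dat_15_8_3 ++ dat_15_8_4 ++ dat_15_8_5 ++ dat_15_8_6 ++ dat_15_8_7 ++ dat_15_8_8 ++ dat_15_8_9 ++ dat_15_8_10 ++ dat_15_8_11 ++ dat_15_8_12 ++ dat_15_8_13 ++ dat_15_8_14 ++ dat_15_8_15 ++ dat_15_8_16 ++ dat_15_8_17 ++ dat_15_8_18 ++ dat_15_8_19 ++ dat_15_8_20 ++ dat_15_8_21,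
    by simp only [List.all_append, Bool.and_self, ok_15_8_0, ok_15_8_1, ok_15_8_2, ok_15_8_3, ok_15_8_4, ok_15_8_5, ok_15_8_6, ok_15_8_7, ok_15_8_8, ok_15_8_9, ok_15_8_10, ok_15_8_11, ok_15_8_12, ok_15_8_13, ok_15_8_14, ok_15_8_15, ok_15_8_16, ok_15_8_17, ok_15_8_18, ok_15_8_19, ok_15_8_20, ok_15_8_21],
    by decide +kernel⟩

end Vale.Agent.P048
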