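import Vale.Agent.P048.EnumA
import Vale.Agent.P048.EnumB
import Vale.Agent.P048.EnumC
import Vale.Agent.P048.EnumD

/-! All normal patterns have certificates. -/

namespace Vale.Agent.P048

theorem all_cert {k t : ℕ} (h5 : 5 ≤ k) (ht : t ≤ 8) (htk : t ≤ k) (hk : k + 1 ≤ 2 * t) :
    ∃ D : List (List ℕ × Cert), D.all (chkP k t) = true ∧ pats k t = D.map Prod.fst := by
  obtain rfl | rfl | rfl | rfl | rfl | rfl | rfl | rfl | rfl | rfl | rfl :
      k = 5 ∨ k = 6 ∨ k = 7 ∨ k = 8 ∨ k = 9 ∨ k = 10 ∨ k = 11 ∨ k = 12 ∨ k = 13 ∨ k = 14 ∨ k = 15 := by omega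
  · obtain rfl | rfl | rfl : t = 3 ∨ t = 4 ∨ t = 5 := by omega
    exacts [all_5_3, all_5_4, all_5_5]
  · obtain rfl | rfl | rfl : t = 4 ∨ t = 5 ∨ t = 6 := by omega
    exacts [all_6_4, all_6_5, all_6_6]
  · obtain rfl | rfl | rfl | rfl : t = 4 ∨ t = 5 ∨ t = 6 ∨ t = 7 := by omega
    exacts [all_7_4, all_7_5, all_7_6, all_7_7]
  · obtain rfl | rfl | rfl | rfl : t = 5 ∨ t = 6 ∨ t = 7 ∨ t = 8 := by omega
    exacts [all_8_5, all_8_6, all_8_7, all_8_8]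
  · obtain rfl | rfl | rfl | rfl : t = 5 ∨ t = 6 ∨ t = 7 ∨ t = 8 := by omega
    exacts [all_9_5, all_9_6, all_9_7, all_9_8]
  · obtain rfl | rfl | rfl : t = 6 ∨ t = 7 ∨ t = 8 := by omega
    exacts [all_10_6, all_10_7, all_10_8]
  · obtain rfl | rfl | rfl : t = 6 ∨ t = 7 ∨ t = 8 := by omega
    exacts [all_11_6, all_11_7, all_11_8]
  · obtain rfl | rfl : t = 7 ∨ t = 8 := by omega
    exacts [all_12_7, all_12_8]
  · obtain rfl | rfl : t = 7 ∨ t = 8 := by omega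
    exacts [all_13_7, all_13_8]
  · obtain rfl : t = 8 := by omega
    exacts [all_14_8]
  · obtain rfl : t = 8 := by omega
    exacts [all_15_8]

end Vale.Agent.P048
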