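import Vale.Agent.P048.ChkD
import Vale.Agent.P048.BallA

/-! Soundness of witnesses. -/

namespace Vale.Agent.P048
open Finset
open scoped Classical

variable {V : Type} [Fintype V] {G : SimpleGraph V}

/-- The meaning of the parameters. -/
structure Sem (G : SimpleGraph V) (P : Par) (x : ℕ → V) (Q : Finset V) : Prop where
  ctx : Ctx G P.k P.t
  k5 : 5 ≤ P.k
  k15 : P.k ≤ 15
  kt : P.k + 1 ≤ 2 * P.t
  tk : P.t ≤ P.k
  nk : P.n ≤ P.k
  inj : ∀ i < P.n, ∀ j < P.n, x i = x j → i = j
  qm : ∀ i < P.n, (x i ∈ Q ↔ P.qm.testBit i = true)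
  cov : ∀ v ∈ Q, ∃ i < P.n, x i = v
  opt : Opt G Q P.k P.L P.e

/-- The labelled vertices. -/
noncomputable def FF (n : ℕ) (x : ℕ → V) : Finset V := (range n).image x

/-- The recorded edges are edges. -/
def AOK (G : SimpleGraph V) (n : ℕ) (x : ℕ → V) (A : ℕ) : Prop :=
  ∀ u < n, ∀ v < n, A.testBit (16 * u + v) = true → G.Adj (x u) (x v)

/-- The recorded lengths are forbidden. -/
def TOK (G : SimpleGraph V) (n : ℕ) (x : ℕ → V) (T : ℕ) : Prop :=
  ∀ u < n, ∀ v < n, ∀ d < 16, T.testBit (256 * u + 16 * v + d) = true →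
    ¬Out G (FF n x) d (x u) (x v)

omit [Fintype V] in
theorem mem_FF {n : ℕ} {x : ℕ → V} {i : ℕ} (h : i < n) : x i ∈ FF n x :=
  mem_image_of_mem _ (mem_range.2 h)

omit [Fintype V] in
theorem of_mem_FF {n : ℕ} {x : ℕ → V} {v : V} (h : v ∈ FF n x) : ∃ i < n, x i = v := by
  obtain ⟨i, hi, rfl⟩ := mem_image.1 h
  exact ⟨i, mem_range.1 hi, rfl⟩

omit [Fintype V] in
theorem TOK.add {n : ℕ} {x : ℕ → V} {T u v lo c : ℕ} (h : TOK G n x T) (hn : n ≤ 16) (hu : u < n)
    (hv : v < n) (H : ∀ d, lo ≤ d → d < lo + c → d < 16 ∧ ¬Out G (FF n x) d (x u) (x v)) :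
    TOK G n x (addF T u v lo c) := by
  intro a ha b hb d hd hT
  simp only [addF, Nat.testBit_or, Nat.testBit_shiftLeft, Nat.testBit_two_pow_sub_one,
    Bool.or_eq_true, Bool.and_eq_true, decide_eq_true_eq] at hT
  rcases hT with (hT | ⟨h1, h2⟩) | ⟨h1, h2⟩
  · exact h a ha b hb d hd hT
  · obtain ⟨h3, h4⟩ := H (256 * a + 16 * b + d - (256 * u + 16 * v)) (by omega) (by omega)
    obtain ⟨rfl, rfl⟩ : a = u ∧ b = v := by omega
    rwa [show 256 * a + 16 * b + d - (256 * a + 16 * b) = d by omega] at h4
  · obtain ⟨h3, h4⟩ := H (256 * a + 16 * b + d - (256 * v + 16 * u)) (by omega) (by omega)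
    obtain ⟨rfl, rfl⟩ : a = v ∧ b = u := by omega
    rw [show 256 * a + 16 * b + d - (256 * a + 16 * b) = d by omega] at h4
    exact fun h5 => h4 h5.symm

theorem scan_spec (A qm n z : ℕ) (K : ℕ → ℕ → ℕ → ℕ → ℕ) (m : ℕ) : ∀ w p mk cq : ℕ,
    scan A qm n z K m w p mk cq = z ∨ ∃ (l : List ℕ) (w' mk' : ℕ), l.length = m ∧
      (∀ a ∈ l, a < n ∧ mk.testBit a = false) ∧ l.Nodup ∧
      List.IsChain (fun a b => A.testBit (16 * a + b) = true) (p :: l) ∧
      (∀ a, mk.testBit a = true ∨ a ∈ l → mk'.testBit a = true) ∧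
      scan A qm n z K m w p mk cq =
        K w' (l.getLastD p) mk' (cq + l.countP fun a => qm.testBit a) := by
  induction m with
  | zero =>
    intro w p mk cq
    exact Or.inr ⟨[], w, mk, rfl, by simp, by simp, by simp, by simp, by simp [scan]⟩
  | succ m ih =>
    intro w p mk cq
    simp only [scan, frc_eq]
    generalize w % 16 = a
    cases hc : (Nat.blt a n && (!mk.testBit a && A.testBit (16 * p + a))) with
    | false => exact Or.inl rfl
    | true =>
      simp only [Bool.and_eq_true, Nat.blt_eq, Bool.not_eq_true'] at hc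
      obtain ⟨h1, h2, h3⟩ := hc
      simp only [cond_true]
      rcases ih (w / 16) a (mk ||| 2 ^ a) (bif qm.testBit a then cq + 1 else cq) with h | h
      · exact Or.inl h
      obtain ⟨l, w', mk', e1, e2, e3, e4, e5, e6⟩ := h
      have hb : ∀ b, (mk ||| 2 ^ a).testBit b = false → mk.testBit b = false ∧ b ≠ a := by
        intro b hb
        rw [Nat.testBit_or, Bool.or_eq_false_iff] at hb
        refine ⟨hb.1, fun h => ?_⟩
        rw [h, Nat.testBit_two_pow_self] at hb
        exact absurd hb.2 (by simp)
      refine Or.inr ⟨a :: l, w', mk', by simp [e1], ?_, ?_, ?_, ?_, ?_⟩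
      · intro b hb'
        rcases List.mem_cons.1 hb' with rfl | hb'
        · exact ⟨h1, h2⟩
        · exact ⟨(e2 b hb').1, (hb b (e2 b hb').2).1⟩
      · exact List.nodup_cons.2 ⟨fun h => (hb a (e2 a h).2).2 rfl, e3⟩
      · exact List.IsChain.cons_cons h3 e4
      · intro b hb'
        apply e5
        rcases hb' with hb' | hb'
        · left; simp [Nat.testBit_or, hb']
        · rcases List.mem_cons.1 hb' with rfl | hb'
          · left; simp [Nat.testBit_or]
          · exact Or.inr hb'
      · rw [e6, List.getLastD_cons, List.countP_cons]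
        congr 1
        cases qm.testBit a <;> simp <;> omega

omit [Fintype V] in
theorem chain_map {n : ℕ} {x : ℕ → V} {A : ℕ} (hA : AOK G n x A) : ∀ (l : List ℕ) (p : ℕ), p < n →
    (∀ a ∈ l, a < n) → List.IsChain (fun a b => A.testBit (16 * a + b) = true) (p :: l) →
    List.IsChain G.Adj (x p :: l.map x)
  | [], _, _, _, _ => by simp
  | a :: l, p, hp, hl, h => by
    rw [List.isChain_cons_cons] at h
    exact List.IsChain.cons_cons (hA p hp a (hl a (by simp)) h.1)
      (chain_map hA l a (hl a (by simp)) (fun b hb => hl b (by simp [hb])) h.2)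

omit [Fintype V] in
theorem glue {a b D : List V} {u v : V} (ha : List.IsChain G.Adj (u :: a))
    (hD : List.IsChain G.Adj (u :: D ++ [v])) (hb : List.IsChain G.Adj (v :: b)) :
    List.IsChain G.Adj (a.reverse ++ u :: (D ++ v :: b)) := by
  rw [List.isChain_split]
  refine ⟨?_, ?_⟩
  · rw [← List.reverse_cons, List.isChain_reverse]
    exact ha.imp fun _ _ h => h.symm
  · rw [← List.cons_append, List.isChain_split]
    exact ⟨hD, hb⟩

omit [Fintype V] in
theorem head_glue (a r : List V) (u : V) :
    (a.reverse ++ u :: r).head? = some (a.getLastD u) := by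
  induction a using List.reverseRecOn with
  | nil => simp
  | append_singleton a c _ => simp

omit [Fintype V] in
theorem last_glue (a b : List V) (v : V) : (a ++ v :: b).getLast? = some (b.getLastD v) := by
  rw [List.getLast?_append, List.getLast?_cons]
  simp

omit [Fintype V] in
theorem cyc_of_path {p : List V} {a b : V} (hp : Path G p) (ha : p.head? = some a)
    (hb : p.getLast? = some b) (h : G.Adj b a) : Cyc G p.length := by
  cases p with
  | nil => simp at ha
  | cons c l =>
    obtain rfl : c = a := by simpa using ha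
    refine ⟨c, l, hp.1, by simp, ?_⟩
    rw [List.isChain_append]
    refine ⟨hp.2, by simp, ?_⟩
    intro y hy z hz
    rw [hb] at hy
    obtain rfl : b = y := by simpa using hy
    obtain rfl : c = z := by simpa using hz
    exact h

theorem getLastD_mem (l : List ℕ) (p : ℕ) : l.getLastD p ∈ p :: l := by
  induction l generalizing p with
  | nil => simp
  | cons a l ih => rw [List.getLastD_cons]; exact List.mem_cons_of_mem _ (ih a)

/-- The path obtained from a witness and an outside path. -/
theorem wit_path {P : Par} {x : ℕ → V} {Q : Finset V} (hs : Sem G P x Q) {A u v d : ℕ}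
    (hA : AOK G P.n x A) {a b : List ℕ} (hlt : ∀ y ∈ (u :: a) ++ v :: b, y < P.n)
    (hnd : ((u :: a) ++ v :: b).Nodup)
    (ha : List.IsChain (fun a b => A.testBit (16 * a + b) = true) (u :: a))
    (hb : List.IsChain (fun a b => A.testBit (16 * a + b) = true) (v :: b))
    (h : Out G (FF P.n x) d (x u) (x v)) :
    ∃ p : List V, Path G p ∧ p.head? = some (x (a.getLastD u)) ∧
      p.getLast? = some (x (b.getLastD v)) ∧ p.length = a.length + b.length + 2 + d ∧
      nQ Q p = ((u :: a) ++ v :: b).countP fun y => P.qm.testBit y := by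
  obtain ⟨D, hd, hD, hF, hc⟩ := h
  have hperm : ((a.map x).reverse ++ x u :: (D ++ x v :: b.map x)).Perm
      ((((u :: a) ++ v :: b).map x) ++ D) := by
    rw [List.perm_iff_count]
    intro y
    simp only [List.count_append, List.count_cons, List.count_reverse, List.map_append,
      List.map_cons]
    omega
  refine ⟨(a.map x).reverse ++ x u :: (D ++ x v :: b.map x), ⟨?_, ?_⟩, ?_, ?_, ?_, ?_⟩
  · rw [hperm.nodup_iff, List.nodup_append]
    refine ⟨hnd.map_on fun y hy z hz e => hs.inj y (hlt y hy) z (hlt z hz) e, hD, ?_⟩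
    intro y hy z hz e
    obtain ⟨i, hi, rfl⟩ := List.mem_map.1 hy
    exact hF z hz (e ▸ mem_FF (hlt i hi))
  · exact glue (chain_map hA a u (hlt u (by simp)) (fun y hy => hlt y (by simp [hy])) ha) hc
      (chain_map hA b v (hlt v (by simp)) (fun y hy => hlt y (by simp [hy])) hb)
  · rw [head_glue, List.getLastD_map]
  · rw [← List.cons_append, ← List.append_assoc, last_glue, List.getLastD_map]
  · simp only [List.length_append, List.length_cons, List.length_reverse, List.length_map, hd]
    omega
  · unfold nQ
    rw [hperm.countP_eq, List.countP_append, List.countP_map]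
    have h0 : D.countP (fun y => decide (y ∈ Q)) = 0 := by
      rw [List.countP_eq_zero]
      intro y hy hQ
      obtain ⟨i, hi, rfl⟩ := hs.cov y (by simpa using hQ)
      exact hF _ hy (mem_FF hi)
    rw [h0, add_zero]
    refine List.countP_congr fun y hy => ?_
    simpa using hs.qm y (hlt y hy)

omit [Fintype V] in
theorem nY_add_nQ (Q : Finset V) (p : List V) : nY Q p + nQ Q p = p.length := by
  unfold nY nQ
  rw [add_comm, List.length_eq_countP_add_countP fun a => decide (a ∈ Q)]
  simp

theorem wfin_ok {P : Par} {x : ℕ → V} {Q : Finset V} (hs : Sem G P x Q) {A T kd u v : ℕ}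
    (hA : AOK G P.n x A) (hT : TOK G P.n x T) {a b : List ℕ}
    (hlt : ∀ y ∈ (u :: a) ++ v :: b, y < P.n) (hnd : ((u :: a) ++ v :: b).Nodup)
    (ha : List.IsChain (fun a b => A.testBit (16 * a + b) = true) (u :: a))
    (hb : List.IsChain (fun a b => A.testBit (16 * a + b) = true) (v :: b)) :
    TOK G P.n x (wfin P A T kd u v (a.length + b.length + 2) (a.getLastD u) (b.getLastD v)
      (((u :: a) ++ v :: b).countP fun y => P.qm.testBit y)) := by
  have hn : P.n ≤ 16 := by have := hs.nk; have := hs.k15; omega
  have k15 := hs.k15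
  have hp : a.getLastD u < P.n := hlt _ (List.mem_append_left _ (getLastD_mem a u))
  have hp' : b.getLastD v < P.n := hlt _ (List.mem_append_right _ (getLastD_mem b v))
  have hle : (((u :: a) ++ v :: b).countP fun y => P.qm.testBit y) ≤ a.length + b.length + 2 := by
    refine List.countP_le_length.trans (le_of_eq ?_)
    simp only [List.length_append, List.length_cons]
    omega
  have key := fun d => wit_path hs (d := d) hA hlt hnd ha hb
  generalize (((u :: a) ++ v :: b).countP fun y => P.qm.testBit y) = e0 at *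
  generalize hs' : a.length + b.length + 2 = s at *
  have hs2 : 2 ≤ s := by omega
  have hu : u < P.n := hlt u (by simp)
  have hv : v < P.n := hlt v (by simp)
  unfold wfin
  simp only [frc_eq]
  cases Nat.beq kd 0 with
  | true =>
    simp only [cond_true]
    cases hq : (P.qm.testBit (a.getLastD u) && P.qm.testBit (b.getLastD v)) with
    | false => exact hT
    | true =>
      simp only [cond_true]
      rw [Bool.and_eq_true] at hq
      refine hT.add hn hu hv fun d h1 h2 => ⟨by omega, fun ho => ?_⟩
      obtain ⟨p, p1, p2, p3, p4, p5⟩ := key d ho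
      have hP : PSys G Q p := by
        refine ⟨p1, fun y hy => ?_, fun y hy => ?_⟩
        · rw [p2] at hy
          obtain rfl : x (a.getLastD u) = y := by simpa using hy
          exact (hs.qm _ hp).2 hq.1
        · rw [p3] at hy
          obtain rfl : x (b.getLastD v) = y := by simpa using hy
          exact (hs.qm _ hp').2 hq.2
      have h3 := nY_add_nQ Q p
      have h4 := hs.opt.gt p hP
      have h5 := hs.opt.eq p hP
      cases hc : (Nat.blt e0 P.e && Nat.ble (s - e0) P.L) with
      | false =>
        rw [hc, cond_false] at h1 h2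
        omega
      | true =>
        rw [hc, cond_true] at h1 h2
        simp only [Bool.and_eq_true, Nat.blt_eq, Nat.ble_eq] at hc
        omega
  | false =>
    simp only [cond_false]
    cases hq : (A.testBit (16 * a.getLastD u + b.getLastD v) && Nat.ble s (P.k + 1)) with
    | false => exact hT
    | true =>
      simp only [cond_true]
      rw [Bool.and_eq_true, Nat.ble_eq] at hq
      refine hT.add hn hu hv fun d h1 h2 => ⟨by omega, fun ho => ?_⟩
      obtain ⟨p, p1, p2, p3, p4, -⟩ := key d ho
      have := cyc_of_path p1 p2 p3 (hA _ hp _ hp' hq.1).symm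
      rw [show p.length = P.k + 1 by omega] at this
      exact hs.ctx.cyc this

theorem wit_ok {P : Par} {x : ℕ → V} {Q : Finset V} (hs : Sem G P x Q) {A T : ℕ}
    (hA : AOK G P.n x A) (hT : TOK G P.n x T) (w : ℕ) : TOK G P.n x (wit P A T w) := by
  unfold wit
  simp only [frc_eq]
  generalize w / 16 % 16 = u
  generalize w / 256 % 16 = v
  generalize w / 4096 % 16 = la
  generalize w / 65536 % 16 = lb
  cases hc : (Nat.blt u P.n && (Nat.blt v P.n && !Nat.beq u v)) with
  | false => exact hT
  | true =>
    simp only [cond_true]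
    simp only [Bool.and_eq_true, Nat.blt_eq, Bool.not_eq_true'] at hc
    obtain ⟨hu, hv, huv⟩ := hc
    have huv' : u ≠ v := Nat.ne_of_beq_eq_false huv
    rcases scan_spec A P.qm P.n T _ la (w / 1048576) u (2 ^ u ||| 2 ^ v) _ with h | h
    · rw [h]; exact hT
    obtain ⟨a, w', mk', a1, a2, a3, a4, a5, a6⟩ := h
    rw [a6]
    rcases scan_spec A P.qm P.n T _ lb w' v mk' _ with h | h
    · rw [h]; exact hT
    obtain ⟨b, w'', mk'', b1, b2, b3, b4, -, b6⟩ := h
    rw [b6, ← a1, ← b1]
    have bu : (2 ^ u ||| 2 ^ v).testBit u = true := by simp [Nat.testBit_or]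
    have bv : (2 ^ u ||| 2 ^ v).testBit v = true := by simp [Nat.testBit_or]
    have hb : ∀ y ∈ b, ¬((2 ^ u ||| 2 ^ v).testBit y = true ∨ y ∈ a) := fun y hy h => by
      have := (b2 y hy).2
      rw [a5 y h] at this
      exact absurd this (by simp)
    have ha : ∀ y ∈ a, ¬(2 ^ u ||| 2 ^ v).testBit y = true := fun y hy h => by
      have := (a2 y hy).2
      rw [h] at this
      exact absurd this (by simp)
    have := wfin_ok hs (kd := w % 16) (u := u) (v := v) (a := a) (b := b) hA hT ?_ ?_ a4 b4
    · convert this using 2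
      simp only [List.countP_append, List.countP_cons]
      cases P.qm.testBit u <;> cases P.qm.testBit v <;> simp <;> omega
    · intro y hy
      simp only [List.mem_append, List.mem_cons] at hy
      rcases hy with (rfl | hy) | rfl | hy
      exacts [hu, (a2 y hy).1, hv, (b2 y hy).1]
    · rw [List.nodup_append]
      refine ⟨List.nodup_cons.2 ⟨fun h => ha u h bu, a3⟩,
        List.nodup_cons.2 ⟨fun h => hb v h (Or.inl bv), b3⟩, ?_⟩
      intro y hy z hz e
      subst e
      rcases List.mem_cons.1 hy with rfl | hy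
      · rcases List.mem_cons.1 hz with h | hz
        · exact huv' h
        · exact hb _ hz (Or.inl bu)
      · rcases List.mem_cons.1 hz with rfl | hz
        · exact ha _ hy bv
        · exact hb _ hz (Or.inr hy)

theorem wits_ok {P : Par} {x : ℕ → V} {Q : Finset V} (hs : Sem G P x Q) {A : ℕ}
    (hA : AOK G P.n x A) (c : ℕ) : ∀ b T, TOK G P.n x T → TOK G P.n x (wits P A c b T) := by
  induction c with
  | zero => exact fun _ _ h => h
  | succ c ih =>
    intro b T h
    simp only [wits, frc_eq]
    exact ih _ _ (wit_ok hs hA h _)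

end Vale.Agent.P048
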