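import Vale.Agent.P048.ChkA
import Vale.Agent.P048.BallB

/-! Soundness of the checker. -/

namespace Vale.Agent.P048
open Finset
open scoped Classical

variable {V : Type} [Fintype V] {G : SimpleGraph V}

/-- The recorded balls are cliques. -/
def COK (G : SimpleGraph V) (n : ℕ) (x : ℕ → V) (C : ℕ) : Prop :=
  ∀ u < n, C.testBit u = true → Clq G (ball G (FF n x) (x u) 1)

/-- The recorded balls are not cliques. -/
def NOK (G : SimpleGraph V) (n : ℕ) (x : ℕ → V) (N : ℕ) : Prop :=
  ∀ u < n, N.testBit u = true → ¬Clq G (ball G (FF n x) (x u) 1)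

theorem allB_iff (p : ℕ → Bool) (m : ℕ) : allB p m = true ↔ ∀ i < m, p i = true := by
  induction m with
  | zero => simp [allB]
  | succ m ih =>
    simp only [allB, Bool.and_eq_true, ih, Nat.lt_succ_iff_lt_or_eq]
    exact ⟨fun h i hi => hi.elim (h.2 i) fun e => e ▸ h.1,
      fun h => ⟨h m (Or.inr rfl), fun i hi => h i (Or.inl hi)⟩⟩

theorem cnt_eq (p : ℕ → Bool) (m : ℕ) : cnt p m = #{i ∈ range m | p i = true} := by
  induction m with
  | zero => simp [cnt]
  | succ m ih =>
    rw [cnt, range_add_one, filter_insert]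
    cases h : p m with
    | false => simpa using ih
    | true => simp [ih]

omit [Fintype V] in
theorem farB_ok {n : ℕ} {x : ℕ → V} {T u v r : ℕ} (hT : TOK G n x T) (hu : u < n) (hv : v < n)
    (h : farB T u v r = true) : Far G (FF n x) r (x u) (x v) := by
  simp only [farB, Bool.and_eq_true, Nat.blt_eq, Nat.beq_eq] at h
  intro d h1 h2
  refine hT u hu v hv d (by omega) ?_
  have h3 := congrArg (fun y => Nat.testBit y (d - 1)) h.2
  simp only [Nat.testBit_mod_two_pow, Nat.testBit_shiftRight, Nat.testBit_two_pow_sub_one] at h3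
  rw [decide_eq_true (show d - 1 < r by omega), Bool.true_and] at h3
  rwa [show 256 * u + 16 * v + 1 + (d - 1) = 256 * u + 16 * v + d by omega] at h3

omit [Fintype V] in
theorem out_zero {F : Finset V} {u v : V} (h : G.Adj u v) : Out G F 0 u v :=
  ⟨[], rfl, by simp, by simp, by simpa using h⟩

omit [Fintype V] in
theorem adj_of_out_zero {F : Finset V} {u v : V} (h : Out G F 0 u v) : G.Adj u v := by
  obtain ⟨D, h1, -, -, h2⟩ := h
  obtain rfl := List.length_eq_zero_iff.1 h1
  simpa using h2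

theorem kap_le {P : Par} {x : ℕ → V} {Q : Finset V} (hs : Sem G P x Q) {T u : ℕ}
    (hT : TOK G P.n x T) (hu : u < P.n) : kap P T u ≤ #(ball G (FF P.n x) (x u) 1) := by
  have h := ball_deg hs.ctx (F := FF P.n x) (u := x u)
    (({i ∈ range P.n | (!Nat.beq i u && !T.testBit (256 * u + 16 * i)) = true} : Finset ℕ).image x) ?_
  · have := card_image_le (f := x)
      (s := {i ∈ range P.n | (!Nat.beq i u && !T.testBit (256 * u + 16 * i)) = true})
    rw [kap, cnt_eq]
    omega
  · intro v hv ha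
    obtain ⟨i, hi, rfl⟩ := of_mem_FF hv
    refine mem_image_of_mem _ (mem_filter.2 ⟨mem_range.2 hi, ?_⟩)
    rw [Bool.and_eq_true, Bool.not_eq_true', Bool.not_eq_true']
    refine ⟨?_, ?_⟩
    · by_contra h
      rw [Bool.not_eq_false, Nat.beq_eq] at h
      exact G.loopless.irrefl _ (h ▸ ha)
    · by_contra h
      rw [Bool.not_eq_false] at h
      exact hT u hu i hi 0 (by omega) h (out_zero ha)

omit [Fintype V] in
theorem nf_set {n : ℕ} {x : ℕ → V} {T u : ℕ} (r : ℕ) (hT : TOK G n x T) (hu : u < n) :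
    ∃ A : Finset V, #A ≤ cnt (fun v => !Nat.beq v u && !farB T u v r) n ∧
      ∀ v ∈ FF n x, v ≠ x u → v ∉ A → Far G (FF n x) r (x u) v := by
  refine ⟨({i ∈ range n | (!Nat.beq i u && !farB T u i r) = true} : Finset ℕ).image x, ?_, ?_⟩
  · rw [cnt_eq]
    exact card_image_le
  · intro v hv h1 h2
    obtain ⟨i, hi, rfl⟩ := of_mem_FF hv
    refine farB_ok hT hu hi ?_
    by_contra h
    refine h2 (mem_image_of_mem _ (mem_filter.2 ⟨mem_range.2 hi, ?_⟩))
    rw [Bool.and_eq_true, Bool.not_eq_true', Bool.not_eq_true']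
    refine ⟨?_, by simpa using h⟩
    by_contra h'
    rw [Bool.not_eq_false, Nat.beq_eq] at h'
    exact h1 (h' ▸ rfl)

theorem ne_ball {P : Par} {x : ℕ → V} {Q : Finset V} (hs : Sem G P x Q) {u : ℕ} (hu : u < P.n) :
    (ball G (FF P.n x) (x u) 1).Nonempty :=
  ball_ne hs.ctx (mem_FF hu) (card_image_le.trans (by simpa using hs.nk))

theorem colB_ok {P : Par} {x : ℕ → V} {Q : Finset V} (hs : Sem G P x Q) {T u c : ℕ}
    (hT : TOK G P.n x T) (hu : u < P.n) (h : colB P T u c = true) :
    Wt G (FF P.n x) (x u) 2 2 := by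
  refine wt2 hs.ctx (ne_ball hs hu) (P.k - P.t) ?_ (by have := hs.tk; omega)
  intro S hS h1 h2
  simp only [colB, frc_eq, allB_iff, Bool.or_eq_true, Bool.and_eq_true, Nat.blt_eq,
    Bool.not_eq_true'] at h
  have hb : ∀ i < P.n, x i ∈ S → ¬T.testBit (256 * u + 16 * i + 1) = true := fun i hi hx hb =>
    hT u hu i hi 1 (by omega) hb (h1 _ hx)
  have key : ∀ i < P.n, ∀ j < i, x i ∈ S → x j ∈ S →
      (c >>> (4 * i)) % 16 ≠ (c >>> (4 * j)) % 16 := by
    intro i hi j hj xi xj e
    rcases ((h i hi).resolve_left (hb i hi xi)).2 j hj with h3 | h3 | h3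
    · exact hb j (by omega) xj h3
    · exact Nat.ne_of_beq_eq_false h3 e
    · exact hT i hi j (by omega) 1 (by omega) h3 (h2 _ xi _ xj)
  calc #S ≤ #(({i ∈ range P.n | x i ∈ S} : Finset ℕ).image x) := by
        refine card_le_card fun v hv => ?_
        obtain ⟨i, hi, rfl⟩ := of_mem_FF (hS hv)
        exact mem_image_of_mem _ (mem_filter.2 ⟨mem_range.2 hi, hv⟩)
    _ ≤ #{i ∈ range P.n | x i ∈ S} := card_image_le
    _ ≤ #(range (P.k - P.t)) := by
        refine card_le_card_of_injOn (fun i => (c >>> (4 * i)) % 16) ?_ ?_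
        · intro i hi
          obtain ⟨h3, h4⟩ := mem_filter.1 (mem_coe.1 hi)
          have := ((h i (mem_range.1 h3)).resolve_left (hb i (mem_range.1 h3) h4)).1
          simp only [coe_range, Set.mem_Iio]
          omega
        · intro i hi j hj e
          obtain ⟨h3, h4⟩ := mem_filter.1 (mem_coe.1 hi)
          obtain ⟨h5, h6⟩ := mem_filter.1 (mem_coe.1 hj)
          rcases lt_trichotomy i j with h7 | h7 | h7
          · exact absurd e.symm (key j (mem_range.1 h5) i h7 h6 h4)
          · exact h7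
          · exact absurd e (key i (mem_range.1 h3) j h7 h4 h6)
    _ = P.k - P.t := card_range _

theorem wt2B_ok {P : Par} {x : ℕ → V} {Q : Finset V} (hs : Sem G P x Q) {T N u r c : ℕ}
    (hT : TOK G P.n x T) (hN : NOK G P.n x N) (hu : u < P.n) (h : wt2B P T N u r c = true) :
    Wt G (FF P.n x) (x u) r 2 := by
  simp only [wt2B, Bool.or_eq_true, Bool.and_eq_true, Nat.ble_eq] at h
  rcases h with ⟨h1, h2⟩ | ⟨h1, h2⟩ | ⟨h1, h2⟩
  · refine Wt.mono (wt_nclq (r := 1) ?_) le_rfl h1
    rcases h2 with h2 | h2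
    · exact hN u hu h2
    · intro hq
      have := ball_clq_lt hs.ctx (mem_FF hu) hq
      have := kap_le hs hT hu
      omega
  · obtain ⟨A, a1, a2⟩ := nf_set 2 hT hu
    refine Wt.mono (wt2' hs.ctx (mem_FF hu) (ne_ball hs hu) A a2 ?_) (by omega) h1
    unfold nf at h2
    omega
  · exact Wt.mono (colB_ok hs hT hu h2) (by omega) h1

theorem wtB_ok {P : Par} {x : ℕ → V} {Q : Finset V} (hs : Sem G P x Q) {T N y : ℕ}
    (hT : TOK G P.n x T) (hN : NOK G P.n x N) (h : wtB P T N y = true) :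
    y % 16 < P.n ∧ Wt G (FF P.n x) (x (y % 16)) (y / 16 % 16) (y / 256 % 16) := by
  simp only [wtB, frc_eq, Bool.or_eq_true, Bool.and_eq_true, Nat.ble_eq, Nat.blt_eq,
    Nat.beq_eq] at h
  generalize y % 16 = u at *
  generalize y / 16 % 16 = r at *
  generalize y / 256 % 16 = w at *
  obtain ⟨hu, h⟩ := h
  refine ⟨hu, ?_⟩
  rcases h with rfl | ⟨rfl, h⟩ | ⟨rfl, h1, h2, h3⟩
  · rcases Nat.eq_zero_or_pos r with rfl | hr
    · exact wt0 _ _
    · exact Wt.mono (wt1 (ne_ball hs hu)) le_rfl hr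
  · exact wt2B_ok hs hT hN hu h
  · obtain ⟨A, a1, a2⟩ := nf_set (r - 1) hT hu
    have := wt3 hs.ctx hs.k5 hs.kt (by omega) (wt2B_ok hs hT hN hu h3) A a2
      (by unfold nf at h2; omega)
    rwa [show r - 1 + 1 = r by omega] at this

theorem pairB_pairwise (T : ℕ) : ∀ l : List ℕ, pairB T l = true →
    l.Pairwise fun y z => compat T y z = true
  | [], _ => List.Pairwise.nil
  | y :: l, h => by
    simp only [pairB, Bool.and_eq_true, List.all_eq_true] at h
    exact List.Pairwise.cons h.1 (pairB_pairwise T l h.2)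

theorem leafB_ok {P : Par} {x : ℕ → V} {Q : Finset V} (hs : Sem G P x Q) {T N : ℕ} {l : List ℕ}
    (hT : TOK G P.n x T) (hN : NOK G P.n x N) (h : leafB P T N l = true) : False := by
  simp only [leafB, Bool.and_eq_true, List.all_eq_true, Nat.blt_eq] at h
  obtain ⟨h1, h2, h3⟩ := h
  have hw := fun y hy => wtB_ok hs hT hN (h1 y hy)
  have hp : l.Pairwise fun y z => x (y % 16) ≠ x (z % 16) ∧
      Far G (FF P.n x) (y / 16 % 16 + z / 16 % 16) (x (y % 16)) (x (z % 16)) ∧
      (y / 16 % 16 = 0 → z / 16 % 16 = 0 → ¬G.Adj (x (y % 16)) (x (z % 16))) := by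
    refine (List.Pairwise.and_mem.1 (pairB_pairwise T l h2)).imp ?_
    rintro y z ⟨hy, hz, hc⟩
    simp only [compat, frc_eq, Bool.and_eq_true, Bool.or_eq_true, Bool.not_eq_true'] at hc
    obtain ⟨c1, c2, c3⟩ := hc
    refine ⟨fun e => Nat.ne_of_beq_eq_false c1 (hs.inj _ (hw y hy).1 _ (hw z hz).1 e),
      farB_ok hT (hw y hy).1 (hw z hz).1 c2, fun e1 e2 ha => ?_⟩
    rcases c3 with c3 | c3
    · exact Nat.ne_of_beq_eq_false c3 (by omega)
    · exact hT _ (hw y hy).1 _ (hw z hz).1 0 (by omega) c3 (out_zero ha)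
  have hnd : l.Nodup := hp.imp fun {a b} h (e : a = b) => h.1 (e ▸ rfl)
  have := pack hs.ctx (FF P.n x) l.toFinset (fun y => x (y % 16)) (fun y => y / 16 % 16)
    (fun y => y / 256 % 16) (fun y hy => mem_FF (hw y (List.mem_toFinset.1 hy)).1)
    (fun y hy => (hw y (List.mem_toFinset.1 hy)).2) ?_
  · rw [List.sum_toFinset _ hnd] at this
    omega
  · intro y hy z hz hne
    refine List.Pairwise.forall_of_forall_of_flip (fun _ _ h => absurd rfl h)
      (hp.imp fun {a b} h (_ : a ≠ b) => h) (hp.imp fun {a b} h (_ : b ≠ a) => ?_)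
      (List.mem_toFinset.1 hy) (List.mem_toFinset.1 hz) hne
    exact ⟨h.1.symm, add_comm (a / 16 % 16) _ ▸ h.2.1.symm, fun e1 e2 ha => h.2.2 e2 e1 ha.symm⟩

theorem extB_ok {P : Par} {x : ℕ → V} {Q : Finset V} (hs : Sem G P x Q) {T C u v r : ℕ}
    (hT : TOK G P.n x T) (hC : COK G P.n x C) (h : extB P T C u v r = true) :
    TOK G P.n x (addF T u v 1 r) := by
  simp only [extB, frc_eq, Bool.and_eq_true, Nat.blt_eq, allB_iff] at h
  obtain ⟨hu, hv, hr, hc, h⟩ := h
  have hf : Far G (FF P.n x) r (x u) (x v) := by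
    refine far_ext (hC u hu hc) (kap_le hs hT hu) fun d h1 h2 => ?_
    have h3 := h (d - 1) (by omega)
    rw [Bool.not_eq_true', ← Bool.not_eq_true, allB_iff] at h3
    push Not at h3
    obtain ⟨j, h4, h5⟩ := h3
    simp only [ne_eq, Bool.not_eq_true', Bool.not_eq_false, Bool.and_eq_true, Nat.blt_eq] at h5
    exact ⟨d - 1 + 1 + j, by omega, by omega, hT u hu v hv _ h5.1 h5.2⟩
  refine hT.add (by have := hs.nk; have := hs.k15; omega) hu hv fun d h1 h2 => ⟨by omega, ?_⟩
  exact hf d h1 (by omega)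

theorem chk_ok {P : Par} {x : ℕ → V} {Q : Finset V} (hs : Sem G P x Q) (c : Cert) :
    ∀ A T C N, AOK G P.n x A → TOK G P.n x T → COK G P.n x C → NOK G P.n x N →
      chk P c A T C N = true → False := by
  have hn : P.n ≤ 16 := by have := hs.nk; have := hs.k15; omega
  induction c with
  | leaf c b => exact fun A T C N _ hT _ hN h => leafB_ok hs hT hN h
  | wit c b r ih =>
    intro A T C N hA hT hC hN h
    simp only [chk, frc_eq] at h
    exact ih _ _ _ _ hA (wits_ok hs hA c b T hT) hC hN h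
  | ext u v r c ih =>
    intro A T C N hA hT hC hN h
    simp only [chk, frc_eq] at h
    refine ih _ _ _ _ hA ?_ hC hN h
    cases he : extB P T C u v r with
    | false => exact hT
    | true => exact extB_ok hs hT hC he
  | brE u v c1 c2 ih1 ih2 =>
    intro A T C N hA hT hC hN h
    simp only [chk, frc_eq, Bool.and_eq_true, Nat.blt_eq] at h
    obtain ⟨hu, hv, h1, h2⟩ := h
    by_cases ha : G.Adj (x u) (x v)
    · refine ih1 _ _ _ _ ?_ hT hC hN h1
      intro a ha' b hb' hb
      simp only [Nat.testBit_or, Nat.testBit_two_pow, Bool.or_eq_true, decide_eq_true_eq] at hb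
      rcases hb with (hb | hb) | hb
      · exact hA a ha' b hb' hb
      · obtain ⟨rfl, rfl⟩ : u = a ∧ v = b := by omega
        exact ha
      · obtain ⟨rfl, rfl⟩ : v = a ∧ u = b := by omega
        exact ha.symm
    · refine ih2 _ _ _ _ hA (hT.add hn hu hv fun d _ h4 => ⟨by omega, ?_⟩) hC hN h2
      obtain rfl : d = 0 := by omega
      exact fun h => ha (adj_of_out_zero h)
  | brT u c1 c2 ih1 ih2 =>
    intro A T C N hA hT hC hN h
    simp only [chk, frc_eq, Bool.and_eq_true] at h
    by_cases hq : Clq G (ball G (FF P.n x) (x u) 1)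
    · refine ih1 _ _ _ _ hA hT ?_ hN h.1
      intro a ha hb
      simp only [Nat.testBit_or, Nat.testBit_two_pow, Bool.or_eq_true, decide_eq_true_eq] at hb
      rcases hb with hb | rfl
      exacts [hC a ha hb, hq]
    · refine ih2 _ _ _ _ hA hT hC ?_ h.2
      intro a ha hb
      simp only [Nat.testBit_or, Nat.testBit_two_pow, Bool.or_eq_true, decide_eq_true_eq] at hb
      rcases hb with hb | rfl
      exacts [hN a ha hb, hq]

end Vale.Agent.P048
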