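import Vale.Agent.P048.Defs

/-! A certificate checker on labelled configurations. -/

namespace Vale.Agent.P048

/-- Evaluate `w` before passing it on. -/
def frc {β : Type} (w : ℕ) (f : ℕ → β) : β :=
  match w with
  | 0 => f 0
  | m + 1 => f (m + 1)

theorem frc_eq {β : Type} (w : ℕ) (f : ℕ → β) : frc w f = f w := by cases w <;> rfl

/-- The numerical parameters. -/
structure Par where
  k : ℕ
  t : ℕ
  n : ℕ
  L : ℕ
  e : ℕ
  qm : ℕ

/-- Record an interval of forbidden lengths. -/
def addF (T u v lo cnt : ℕ) : ℕ :=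
  T ||| ((2 ^ cnt - 1) <<< (256 * u + 16 * v + lo)) ||| ((2 ^ cnt - 1) <<< (256 * v + 16 * u + lo))

/-- Follow a path given by base sixteen digits. -/
def scan (A qm n z : ℕ) (K : ℕ → ℕ → ℕ → ℕ → ℕ) : ℕ → ℕ → ℕ → ℕ → ℕ → ℕ
  | 0, w, p, mk, cq => K w p mk cq
  | m + 1, w, p, mk, cq => frc (w % 16) fun a =>
      bif Nat.blt a n && (!mk.testBit a && A.testBit (16 * p + a)) then
        frc (w / 16) fun w' => frc (mk ||| 2 ^ a) fun mk' =>
          frc (bif qm.testBit a then cq + 1 else cq) fun cq' => scan A qm n z K m w' a mk' cq'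
      else z

/-- The conclusion drawn from a checked pair of paths. -/
def wfin (P : Par) (A T kd u v s p p' e0 : ℕ) : ℕ :=
  bif Nat.beq kd 0 then
    bif P.qm.testBit p && P.qm.testBit p' then
      frc (bif Nat.blt e0 P.e && Nat.ble (s - e0) P.L then P.L - (s - e0) else P.L + 1 - (s - e0))
        fun lo => addF T u v lo (P.k + 2 - s - lo)
    else T
  else bif A.testBit (16 * p + p') && Nat.ble s (P.k + 1) then addF T u v (P.k + 1 - s) 1 else T

/-- Use one witness. -/
def wit (P : Par) (A T w : ℕ) : ℕ :=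
  frc (w / 16 % 16) fun u => frc (w / 256 % 16) fun v => frc (w / 4096 % 16) fun la =>
    frc (w / 65536 % 16) fun lb =>
      bif Nat.blt u P.n && (Nat.blt v P.n && !Nat.beq u v) then
        scan A P.qm P.n T (fun w' p mk cq => scan A P.qm P.n T
          (fun _ p' _ cq' => wfin P A T (w % 16) u v (la + lb + 2) p p' cq') lb w' v mk cq)
          la (w / 1048576) u (2 ^ u ||| 2 ^ v)
          ((bif P.qm.testBit u then 1 else 0) + (bif P.qm.testBit v then 1 else 0))
      else T

/-- Use a packed list of witnesses. -/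
def wits (P : Par) (A : ℕ) : ℕ → ℕ → ℕ → ℕ
  | 0, _, T => T
  | c + 1, b, T => frc (b % 4722366482869645213696) fun w => frc (wit P A T w) fun T' =>
      frc (b / 4722366482869645213696) fun b' => wits P A c b' T'

/-- Unpack a list of words. -/
def unp : ℕ → ℕ → List ℕ
  | 0, _ => []
  | c + 1, b => frc (b % 4722366482869645213696) fun w =>
      frc (b / 4722366482869645213696) fun b' => w :: unp c b'

/-- All lengths from one to `r` are recorded. -/
def farB (T u v r : ℕ) : Bool :=
  Nat.blt r 16 && Nat.beq ((T >>> (256 * u + 16 * v + 1)) % 2 ^ r) (2 ^ r - 1)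

/-- Counting below a bound. -/
def cnt (p : ℕ → Bool) : ℕ → ℕ
  | 0 => 0
  | m + 1 => bif p m then cnt p m + 1 else cnt p m

/-- A bounded universal quantifier. -/
def allB (p : ℕ → Bool) : ℕ → Bool
  | 0 => true
  | m + 1 => p m && allB p m

/-- A lower bound for the number of outside neighbours. -/
def kap (P : Par) (T u : ℕ) : ℕ :=
  P.k - cnt (fun v => !Nat.beq v u && !T.testBit (256 * u + 16 * v)) P.n

/-- The number of labels not known to be far. -/
def nf (P : Par) (T u r : ℕ) : ℕ := cnt (fun v => !Nat.beq v u && !farB T u v r) P.n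

/-- A colouring bound. -/
def colB (P : Par) (T u c : ℕ) : Bool :=
  allB (fun a => T.testBit (256 * u + 16 * a + 1) || frc ((c >>> (4 * a)) % 16) fun ca =>
    Nat.blt (P.t + ca) P.k && allB (fun b => T.testBit (256 * u + 16 * b + 1) ||
      (!Nat.beq ca ((c >>> (4 * b)) % 16) || T.testBit (256 * a + 16 * b + 1))) a) P.n

/-- Rules for weight two. -/
def wt2B (P : Par) (T N u r c : ℕ) : Bool :=
  (Nat.ble 1 r && (N.testBit u || Nat.ble P.t (kap P T u))) ||
    ((Nat.ble 3 r && Nat.ble (P.t + nf P T u 2) P.k) || (Nat.ble 2 r && colB P T u c))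

/-- Rules for the weight of a node. -/
def wtB (P : Par) (T N y : ℕ) : Bool :=
  frc (y % 16) fun u => frc (y / 16 % 16) fun r => frc (y / 256 % 16) fun w =>
    Nat.blt u P.n && (Nat.beq w 1 || ((Nat.beq w 2 && wt2B P T N u r (y / 4096)) ||
      (Nat.beq w 3 && (Nat.ble 2 r && (Nat.ble (2 * P.t + 4 + nf P T u (r - 1)) (2 * P.k) &&
        wt2B P T N u (r - 1) (y / 4096))))))

/-- Two nodes are compatible. -/
def compat (T y z : ℕ) : Bool :=
  frc (y % 16) fun u => frc (z % 16) fun v => frc (y / 16 % 16 + z / 16 % 16) fun s =>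
    !Nat.beq u v && (farB T u v s && (!Nat.beq s 0 || T.testBit (256 * u + 16 * v)))

/-- Pairwise compatibility. -/
def pairB (T : ℕ) : List ℕ → Bool
  | [] => true
  | y :: l => l.all (compat T y) && pairB T l

/-- A packing of total weight above `k`. -/
def leafB (P : Par) (T N : ℕ) (l : List ℕ) : Bool :=
  l.all (wtB P T N) && (pairB T l && Nat.blt P.k (l.map fun y => y / 256 % 16).sum)

/-- The extension rule. -/
def extB (P : Par) (T C u v r : ℕ) : Bool :=
  Nat.blt u P.n && (Nat.blt v P.n && (Nat.blt r 16 && (C.testBit u && frc (kap P T u) fun κ =>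
    allB (fun i => !allB (fun j => !(Nat.blt (i + 1 + j) 16 &&
      T.testBit (256 * u + 16 * v + (i + 1 + j)))) κ) r)))

/-- Certificates. -/
inductive Cert
  | leaf (c b : ℕ)
  | wit (c b : ℕ) (r : Cert)
  | ext (u v r : ℕ) (c : Cert)
  | brE (u v : ℕ) (c1 c2 : Cert)
  | brT (u : ℕ) (c1 c2 : Cert)

/-- The checker. -/
def chk (P : Par) : Cert → ℕ → ℕ → ℕ → ℕ → Bool
  | .leaf c b, _, T, _, N => leafB P T N (unp c b)
  | .wit c b r, A, T, C, N => frc (wits P A c b T) fun T' => chk P r A T' C N
  | .ext u v r c, A, T, C, N =>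
      frc (bif extB P T C u v r then addF T u v 1 r else T) fun T' => chk P c A T' C N
  | .brE u v c1 c2, A, T, C, N => Nat.blt u P.n && (Nat.blt v P.n &&
      (frc (A ||| 2 ^ (16 * u + v) ||| 2 ^ (16 * v + u)) (fun A' => chk P c1 A' T C N) &&
        frc (addF T u v 0 1) fun T' => chk P c2 A T' C N))
  | .brT u c1 c2, A, T, C, N =>
      frc (C ||| 2 ^ u) (fun C' => chk P c1 A T C' N) &&
        frc (N ||| 2 ^ u) fun N' => chk P c2 A T C N'

/-- The number whose bits are given by `p`. -/
def mkB (p : ℕ → Bool) : ℕ → ℕ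
  | 0 => 0
  | m + 1 => frc (mkB p m) fun r => bif p m then r ||| 2 ^ m else r

/-- The initially known edges. -/
def adj0 (qm u v : ℕ) : Bool :=
  Nat.beq (u + 1) v || (Nat.beq (v + 1) u || (!Nat.beq u v && (qm.testBit u && qm.testBit v)))

/-- Check a certificate for a list of amounts. -/
def chkP (k t : ℕ) (y : List ℕ × Cert) : Bool :=
  frc y.1.sum fun L => frc (eOf y.1) fun e =>
    frc (mkB (fun i => (qpat y.1).getD i false) 16) fun qm => frc (t + L) fun n =>
      frc (mkB (fun i => adj0 qm (i / 16) (i % 16)) 256) fun A => chk ⟨k, t, n, L, e, qm⟩ y.2 A 0 0 0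

/-- All lists of given length with bounded sum. -/
def enum : ℕ → ℕ → List (List ℕ)
  | 0, _ => [[]]
  | m + 1, s => (List.range (s + 1)).flatMap fun a => (enum m (s - a)).map (a :: ·)

/-- A test implied by normality. -/
def normalB (l : List ℕ) : Bool :=
  frc (phi l) fun p => allB (fun j => !Nat.beq (l.getD j 0) 0 ||
    allB (fun i => !Nat.beq (l.getD i 0) 0 || Nat.ble (phi (revAt l i j)) p) j) (l.length + 1)

/-- The normal lists of amounts. -/
def pats (k t : ℕ) : List (List ℕ) := ((enum (t - 1) (k - t)).map (0 :: ·)).filter normalB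

end Vale.Agent.P048
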