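import Mathlib

/-! Notions for the cycle versus clique Ramsey numbers. -/

namespace Vale.Agent.P048
open Finset
open scoped Classical

variable {V : Type} (G : SimpleGraph V)

/-- A path, as a list of vertices. -/
def Path (l : List V) : Prop := l.Nodup ∧ l.IsChain G.Adj

/-- There is a cycle on `n` vertices. -/
def Cyc (n : ℕ) : Prop :=
  ∃ (a : V) (l : List V), (a :: l).Nodup ∧ l.length + 1 = n ∧ List.IsChain G.Adj (a :: l ++ [a])

/-- An independent set. -/
def Indep (I : Finset V) : Prop := ∀ a ∈ I, ∀ b ∈ I, ¬G.Adj a b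

/-- A clique. -/
def Clq (S : Finset V) : Prop := ∀ a ∈ S, ∀ b ∈ S, a ≠ b → G.Adj a b

/-- The closed neighbourhood. -/
noncomputable def nb [Fintype V] (I : Finset V) : Finset V := {v | v ∈ I ∨ ∃ u ∈ I, G.Adj u v}

/-- The restriction of `G` to the vertex set `H`. -/
def res (H : Finset V) : SimpleGraph V where
  Adj u v := G.Adj u v ∧ u ∈ H ∧ v ∈ H
  symm := ⟨fun _ _ h => ⟨h.1.symm, h.2.2, h.2.1⟩⟩
  loopless := ⟨fun _ h => G.loopless.irrefl _ h.1⟩

/-- The vertices at distance `i` from `v`. -/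
noncomputable def lev [Fintype V] (v : V) (i : ℕ) : Finset V := {u | G.edist v u = i}

/-- The properties of a minimal counterexample with clique number `t`. -/
structure Ctx [Fintype V] (k t : ℕ) : Prop where
  exp : ∀ I, I.Nonempty → Indep G I → k * #I + 1 ≤ #(nb G I)
  ind : ∀ I, Indep G I → #I ≤ k
  cyc : ¬Cyc G (k + 1)
  clq : ∀ S, Clq G S → #S ≤ t
  has : ∃ Q, Clq G Q ∧ #Q = t
  pos : 1 ≤ t
  card : Fintype.card V ≤ k * k + 1

/-- A path from `u` to `v` with `d` inner vertices, all outside `F`. -/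
def Out (F : Finset V) (d : ℕ) (u v : V) : Prop :=
  ∃ D : List V, D.length = d ∧ D.Nodup ∧ (∀ z ∈ D, z ∉ F) ∧ List.IsChain G.Adj (u :: D ++ [v])

/-- No outside path with between one and `r` inner vertices. -/
def Far (F : Finset V) (r : ℕ) (u v : V) : Prop := ∀ d, 1 ≤ d → d ≤ r → ¬Out G F d u v

/-- Balls around `u` grown outside `F`. -/
noncomputable def ball [Fintype V] (F : Finset V) (u : V) : ℕ → Finset V
  | 0 => {u}
  | 1 => {z | z ∉ F ∧ G.Adj u z}
  | r + 2 => ball F u (r + 1) ∪ ({z | z ∉ F ∧ ∃ y ∈ ball F u (r + 1), G.Adj y z} : Finset V)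

/-- The ball contains `w` independent vertices. -/
def Wt [Fintype V] (F : Finset V) (u : V) (r w : ℕ) : Prop :=
  ∃ I ⊆ ball G F u r, Indep G I ∧ #I = w

/-- A path with both ends in `Q`. -/
def PSys (Q : Finset V) (p : List V) : Prop :=
  Path G p ∧ (∀ a ∈ p.head?, a ∈ Q) ∧ ∀ a ∈ p.getLast?, a ∈ Q

/-- The number of vertices in `Q`. -/
noncomputable def nQ (Q : Finset V) (p : List V) : ℕ := p.countP fun a => a ∈ Q

/-- The number of vertices outside `Q`. -/
noncomputable def nY (Q : Finset V) (p : List V) : ℕ := p.countP fun a => a ∉ Q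

/-- Optimality of the pair `(L, e)`. -/
structure Opt (Q : Finset V) (k L e : ℕ) : Prop where
  gt : ∀ p, PSys G Q p → L < nY Q p → k + 1 < nY Q p + nQ Q p
  eq : ∀ p, PSys G Q p → nY Q p = L → e ≤ nQ Q p

/-- An ordering `q` of the clique `Q` with outside paths `Y m` from `q (m - 1)` to `q m`. -/
structure BSys (Q : Finset V) (t : ℕ) where
  q : ℕ → V
  Y : ℕ → List V
  mem : ∀ m < t, q m ∈ Q
  inj : ∀ m < t, ∀ m' < t, q m = q m' → m = m'
  zero : Y 0 = []
  top : ∀ m, t ≤ m → Y m = []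
  ch : ∀ m, Y (m + 1) ≠ [] → List.IsChain G.Adj (q m :: Y (m + 1) ++ [q (m + 1)])
  out : ∀ m, ∀ z ∈ Y m, z ∉ Q
  nd : ∀ m, (Y m).Nodup
  dj : ∀ m m', m ≠ m' → ∀ z ∈ Y m, z ∉ Y m'

namespace BSys
variable {G} {Q : Finset V} {t : ℕ} (S : BSys G Q t)

/-- The amounts. -/
def a (m : ℕ) : ℕ := (S.Y m).length

/-- The number of outside vertices. -/
def L : ℕ := ∑ m ∈ range t, S.a m

/-- The number of clique vertices at an outside path. -/
def e : ℕ := #{m ∈ range t | S.a m ≠ 0 ∨ S.a (m + 1) ≠ 0}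

/-- All vertices of the system. -/
noncomputable def F : Finset V := Q ∪ (range t).biUnion fun m => (S.Y m).toFinset

/-- The first vertex of block `m`. -/
def rep (m : ℕ) : V := (S.Y m).headD (S.q m)

/-- The list of amounts. -/
def am : List ℕ := (List.range t).map S.a

/-- Blocks in `U` of amount `n` that are followed by a nonempty block. -/
def cx (U : Finset ℕ) (n : ℕ) : ℕ := #{m ∈ U | S.a m = n ∧ S.a (m + 1) ≠ 0}

/-- Blocks in `U` of amount `n` that are followed by an empty block. -/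
def cz (U : Finset ℕ) (n : ℕ) : ℕ := #{m ∈ U | S.a m = n ∧ S.a (m + 1) = 0}

/-- Blocks of amount at least four that are followed by a nonempty block. -/
def cx4 : ℕ := #{m ∈ range t | 4 ≤ S.a m ∧ S.a (m + 1) ≠ 0}

/-- Blocks of amount at least four that are followed by an empty block. -/
def cz4 : ℕ := #{m ∈ range t | 4 ≤ S.a m ∧ S.a (m + 1) = 0}

end BSys

/-- The count `e` computed from the list of amounts. -/
def eOf : List ℕ → ℕ
  | [] => 0
  | x :: l => (if x ≠ 0 ∨ l.headD 0 ≠ 0 then 1 else 0) + eOf l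

/-- A potential. -/
def phi (l : List ℕ) : ℕ := l.foldl (fun acc x => 8 * acc + x) 0

/-- Reversal of the entries strictly between positions `i` and `j`. -/
def revAt (l : List ℕ) (i j : ℕ) : List ℕ :=
  l.take (i + 1) ++ ((l.take j).drop (i + 1)).reverse ++ l.drop j

/-- No reversal between two zero entries increases the potential. -/
def Normal (l : List ℕ) : Prop :=
  ∀ i j, i < j → j ≤ l.length → l.getD i 0 = 0 → l.getD j 0 = 0 → phi (revAt l i j) ≤ phi l

/-- The positions of the clique vertices. -/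
def qpat (l : List ℕ) : List Bool := l.flatMap fun a => List.replicate a false ++ [true]

/-- The number of right ends used in the first stage. -/
def sav1 (μ Δ z1 z2 z3 : ℕ) : ℕ :=
  z1 + (if 2 ≤ μ ∨ Δ = 0 then z2 else 0) + (if 3 ≤ μ ∨ (2 ≤ μ ∧ Δ = 0) then z3 else 0)

/-- The reach of the second stage. -/
def reach (μ Δ s x1 x2 x3 z1 z2 z3 : ℕ) : ℕ :=
  μ + x1 + (if 2 ≤ μ + s then 2 * x2 else 0) + (if 3 ≤ μ + s then 3 * x3 else 0) + 2 * z1 +
    (if 2 ≤ μ + s ∨ Δ ≤ s then 3 * z2 else 0) +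
    (if 3 ≤ μ + s ∨ (2 ≤ μ + s ∧ Δ ≤ s) then 4 * z3 else 0)

/-- The global constraints on the class counts. -/
structure Glob (t f R L x1 x2 x3 x4 z1 z2 z3 z4 : ℕ) : Prop where
  ht : 9 ≤ t
  he : t = f + (x1 + x2 + x3 + x4) + 2 * (z1 + z2 + z3 + z4)
  hL : x1 + 2 * x2 + 3 * x3 + 4 * x4 + z1 + 2 * z2 + 3 * z3 + 4 * z4 ≤ L
  hk : L + R ≤ t + f
  hR : f + 1 ≤ R
  hz : z1 + z2 + z3 + z4 = 0 → x1 + x2 + x3 + x4 = 0

/-- The class counts after removing a pair. -/
structure Loc (f R x1 x2 x3 z1 z2 z3 μ Δ y1 y2 y3 w1 w2 w3 : ℕ) : Prop where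
  hΔ : Δ ≤ f
  hΔ2 : Δ ≤ 2
  hμ : μ + Δ = R
  h1 : y1 ≤ x1
  h2 : y2 ≤ x2
  h3 : y3 ≤ x3
  h4 : w1 ≤ z1
  h5 : w2 ≤ z2
  h6 : w3 ≤ z3
  hs : x1 + x2 + x3 + z1 + z2 + z3 + Δ ≤ y1 + y2 + y3 + w1 + w2 + w3 + 2

/-- The exceptional mode. -/
def ModeB (f R x1 z1 z2 : ℕ) : Prop :=
  R = f + 1 ∧ ((f = 1 ∧ z1 ≤ 1) ∨ (f = 2 ∧ z1 = 0) ∨ (f = 2 ∧ z1 = 1 ∧ z2 = 0 ∧ x1 ≤ 1))

end Vale.Agent.P048
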