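import Vale.Agent.P048.LayerC

/-! Paths with differently coloured ends in an expanding graph. -/

namespace Vale.Agent.P048
open Finset
open scoped Classical

variable {V : Type} [Fintype V] {G : SimpleGraph V}

theorem exists_fork {C : Type} (H : Finset V) (δ : ℕ) (hδ : 3 ≤ δ)
    (hin : ∀ u v, G.Adj u v → u ∈ H) (hconn : ∀ u ∈ H, ∀ v ∈ H, G.Reachable u v)
    (hexp : ∀ I ⊆ H, I.Nonempty → Indep G I → δ * #I < #(nb G I))
    (col : V → C) (hcol : ∃ u ∈ H, ∃ v ∈ H, col u ≠ col v) :
    ∃ a b c, G.Adj a c ∧ G.Adj b c ∧ col a ≠ col b := by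
  by_contra hne
  push Not at hne
  obtain ⟨u, v, huv, hc⟩ : ∃ u v, G.Adj u v ∧ col u ≠ col v := by
    by_contra h
    push Not at h
    obtain ⟨u, hu, v, hv, hc⟩ := hcol
    have h1 := (SimpleGraph.reachable_iff_reflTransGen u v).1 (hconn u hu v hv)
    refine hc ?_
    clear hc hv
    induction h1 with
    | refl => rfl
    | tail _ h2 ih => exact ih.trans (h _ _ h2)
  have hu := hin u v huv
  have key : ∀ w ∈ H, (col w = col u ∧ ∀ y, G.Adj w y → col y = col v) ∨
      (col w = col v ∧ ∀ y, G.Adj w y → col y = col u) := by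
    intro w hw
    have h1 := (SimpleGraph.reachable_iff_reflTransGen u w).1 (hconn u hu w hw)
    clear hw
    induction h1 with
    | refl => exact Or.inl ⟨rfl, fun y hy => hne y v u hy.symm huv.symm⟩
    | tail _ h2 ih =>
      rcases ih with ⟨h3, h4⟩ | ⟨h3, h4⟩
      · exact Or.inr ⟨h4 _ h2, fun y hy => (hne y _ _ hy.symm h2).trans h3⟩
      · exact Or.inl ⟨h4 _ h2, fun y hy => (hne y _ _ hy.symm h2).trans h3⟩
  have hnb : ∀ I ⊆ H, #(nb G I) ≤ #H := by
    intro I hI
    refine card_le_card fun w hw => ?_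
    rcases (mem_filter.1 hw).2 with h | ⟨x, -, h⟩
    · exact hI h
    · exact hin _ _ h.symm
  have hA := hexp {w ∈ H | col w = col u} (filter_subset _ _) ⟨u, mem_filter.2 ⟨hu, rfl⟩⟩ (by
    intro x hx y hy hxy
    rw [mem_filter] at hx hy
    rcases key x hx.1 with ⟨-, h⟩ | ⟨h, -⟩
    · exact hc (hy.2.symm.trans (h y hxy))
    · exact hc (hx.2.symm.trans h))
  have hB := hexp {w ∈ H | ¬col w = col u} (filter_subset _ _)
    ⟨v, mem_filter.2 ⟨hin v u huv.symm, fun h => hc h.symm⟩⟩ (by
    intro x hx y hy hxy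
    rw [mem_filter] at hx hy
    rcases key x hx.1 with ⟨h, -⟩ | ⟨-, h⟩
    · exact hx.2 h
    · exact hy.2 (h y hxy))
  have h1 := hnb _ (filter_subset (fun w => col w = col u) H)
  have h2 := hnb _ (filter_subset (fun w => ¬col w = col u) H)
  have h3 := card_filter_add_card_filter_not (s := H) (fun w => col w = col u)
  have h4 := Nat.mul_le_mul_right #{w ∈ H | col w = col u} hδ
  have h5 := Nat.mul_le_mul_right #{w ∈ H | ¬col w = col u} hδ
  omega

theorem layer {C : Type} (H : Finset V) (δ n : ℕ) (hδ : 3 ≤ δ)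
    (hin : ∀ u v, G.Adj u v → u ∈ H) (hconn : ∀ u ∈ H, ∀ v ∈ H, G.Reachable u v)
    (hexp : ∀ I ⊆ H, I.Nonempty → Indep G I → δ * #I < #(nb G I))
    (hclq : ∀ S, Clq G S → #S ≤ δ) (col : V → C) (hcol : ∃ u ∈ H, ∃ v ∈ H, col u ≠ col v)
    (hn : n + 3 ≤ 2 * δ) :
    ∃ (a b : V) (l : List V), Path G (a :: l ++ [b]) ∧ l.length = n ∧ col a ≠ col b := by
  by_contra hno
  push Not at hno
  obtain ⟨a0, b0, c0, ha0, hb0, hc0⟩ := exists_fork H δ hδ hin hconn hexp col hcol
  have hex : ∃ s, ∃ (a b : V) (P : List V), Path G (a :: P) ∧ Path G (b :: P) ∧ col a ≠ col b ∧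
      1 ≤ P.length ∧ Fintype.card V ≤ P.length + s :=
    ⟨Fintype.card V, a0, b0, [c0], ⟨by simpa using ha0.ne, by simpa using ha0⟩,
      ⟨by simpa using hb0.ne, by simpa using hb0⟩, hc0, le_rfl, by omega⟩
  obtain ⟨a, b, P, ha, hb, hab, hP1, hPs⟩ := Nat.find_spec hex
  have hsub : ∀ (I S : Finset V), I ⊆ S → (∀ u ∈ I, ∀ y, G.Adj u y → y ∈ S) → #(nb G I) ≤ #S := by
    intro I S h1 h2
    refine card_le_card fun w hw => ?_
    rcases (mem_filter.1 hw).2 with h | ⟨x, hx, h⟩
    · exact h1 h
    · exact h2 x hx w h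
  have hc : Lay.LC G col δ n P.length := by
    refine ⟨hδ, ?_, ?_, hclq, hno, hn, hP1, ?_⟩
    · intro u x hx S hu hS
      have h1 := hexp {u} (singleton_subset_iff.2 (hin u x hx)) (singleton_nonempty u) (by
        intro y hy z hz
        rw [mem_singleton.1 hy, mem_singleton.1 hz]
        exact G.loopless.irrefl _)
      have h2 := hsub {u} S (singleton_subset_iff.2 hu) (by simpa using hS)
      rw [card_singleton] at h1
      omega
    · intro u x v y hx hy huv hn' S hu hv hSu hSv
      have h1 := hexp {u, v} (insert_subset (hin u x hx) (singleton_subset_iff.2 (hin v y hy)))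
        (insert_nonempty _ _) (by
        intro y hy z hz
        simp only [mem_insert, mem_singleton] at hy hz
        rcases hy with rfl | rfl <;> rcases hz with rfl | rfl
        · exact G.loopless.irrefl _
        · exact hn'
        · exact fun h => hn' h.symm
        · exact G.loopless.irrefl _)
      have h2 := hsub {u, v} S (insert_subset hu (singleton_subset_iff.2 hv)) (by
        intro w hw
        simp only [mem_insert, mem_singleton] at hw
        rcases hw with rfl | rfl
        · exact hSu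
        · exact hSv)
      rw [card_pair huv] at h1
      omega
    · intro a' b' P' ha' hb' hab'
      by_contra hlt
      have h3 := ha'.1.length_le_card
      rw [List.length_cons] at h3
      exact Nat.find_min hex (m := Nat.find hex - 1) (by omega)
        ⟨a', b', P', ha', hb', hab', by omega, by omega⟩
  exact Lay.MB.false hc (W := (a :: b :: P).toFinset) ⟨ha, hb, hab, rfl, fun w => by simp⟩

end Vale.Agent.P048
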