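import Vale.Agent.P048.Defs

/-! Brooms in an expanding graph: basic tools. -/

namespace Vale.Agent.P048.Lay
open Finset
open scoped Classical

variable {V : Type} {G : SimpleGraph V} {C : Type}

/-- A walk from `u` to `v` with inner vertices `l`. -/
def Wk (G : SimpleGraph V) (u : V) (l : List V) (v : V) : Prop :=
  List.IsChain G.Adj (u :: l ++ [v])

theorem chain_rev {l : List V} (h : l.IsChain G.Adj) : l.reverse.IsChain G.Adj :=
  List.isChain_reverse.2 (h.imp fun _ _ h => h.symm)

theorem Wk.one {u v : V} (h : G.Adj u v) : Wk G u [] v := by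
  simpa [Wk] using h

theorem Wk.trans {u v w : V} {l l' : List V} (h : Wk G u l v) (h' : Wk G v l' w) :
    Wk G u (l ++ v :: l') w := by
  have : u :: (l ++ v :: l') ++ [w] = (u :: l) ++ v :: (l' ++ [w]) := by simp
  rw [Wk, this, List.isChain_split]
  exact ⟨h, h'⟩

theorem Wk.symm {u v : V} {l : List V} (h : Wk G u l v) : Wk G v l.reverse u := by
  have := chain_rev h
  simpa [Wk] using this

theorem Wk.cons {a u v : V} {l : List V} (h0 : G.Adj a u) (h : Wk G u l v) :
    Wk G a (u :: l) v := (Wk.one h0).trans h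

theorem Wk.snoc {u v b : V} {l : List V} (h : Wk G u l v) (h0 : G.Adj v b) :
    Wk G u (l ++ [v]) b := h.trans (Wk.one h0)

theorem nodup_of_subperm {l l' : List V} (h : l.Subperm l') (h' : l'.Nodup) : l.Nodup := by
  obtain ⟨l0, h1, h2⟩ := h
  exact h1.nodup_iff.1 (h'.sublist h2)

theorem exists_nbr {a : V} {P : List V} (hP : P ≠ []) (h : (a :: P).IsChain G.Adj) :
    ∀ w ∈ a :: P, ∃ x, G.Adj w x := by
  induction P generalizing a with
  | nil => exact absurd rfl hP
  | cons b P ih =>
    rw [List.isChain_cons_cons] at h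
    intro w hw
    rcases List.mem_cons.1 hw with rfl | hw
    · exact ⟨b, h.1⟩
    · by_cases hP' : P = []
      · subst hP'
        rw [List.mem_singleton.1 hw]
        exact ⟨a, h.1.symm⟩
      · exact ih hP' h.2 w hw

/-- The standing assumptions. -/
structure LC (G : SimpleGraph V) (col : V → C) (d n m : ℕ) : Prop where
  d3 : 3 ≤ d
  deg : ∀ u x, G.Adj u x → ∀ S : Finset V, u ∈ S → (∀ y, G.Adj u y → y ∈ S) → d + 1 ≤ #S
  deg2 : ∀ u x v y, G.Adj u x → G.Adj v y → u ≠ v → ¬G.Adj u v → ∀ S : Finset V, u ∈ S → v ∈ S →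
    (∀ y, G.Adj u y → y ∈ S) → (∀ y, G.Adj v y → y ∈ S) → 2 * d + 1 ≤ #S
  clq : ∀ S, Clq G S → #S ≤ d
  no : ∀ a b l, Path G (a :: l ++ [b]) → l.length = n → col a = col b
  hn : n + 3 ≤ 2 * d
  m1 : 1 ≤ m
  mx : ∀ a b P, Path G (a :: P) → Path G (b :: P) → col a ≠ col b → P.length ≤ m

/-- A broom of maximal length with vertex set `W`. -/
structure MB (G : SimpleGraph V) (col : V → C) (m : ℕ) (W : Finset V) (a b : V) (P : List V) :
    Prop where
  pa : Path G (a :: P)
  pb : Path G (b :: P)
  ne : col a ≠ col b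
  len : P.length = m
  mem : ∀ w, w ∈ W ↔ w = a ∨ w = b ∨ w ∈ P

/-- Vertices of `W` with all neighbours in `W`. -/
def InC (G : SimpleGraph V) (W : Finset V) (w : V) : Prop := w ∈ W ∧ ∀ y, G.Adj w y → y ∈ W

variable {col : V → C} {d n m : ℕ} {W : Finset V} {a b : V} {P : List V}

theorem LC.full (hc : LC G col d n m) {u x : V} (hx : G.Adj u x) (S : Finset V) (hu : u ∈ S)
    (hS : ∀ y, G.Adj u y → y ∈ S) (hcard : #S ≤ d + 1) : ∀ y ∈ S, y ≠ u → G.Adj u y := by
  intro y hy hyu
  by_contra h
  have := hc.deg u x hx (S.erase y) (mem_erase.2 ⟨hyu.symm, hu⟩)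
    (fun z hz => mem_erase.2 ⟨fun h' => h (h' ▸ hz), hS z hz⟩)
  rw [card_erase_of_mem hy] at this
  have := card_pos.2 ⟨y, hy⟩
  omega

theorem LC.f1 (hc : LC G col d n m) (K : Finset V) (τ : V) (hK : Clq G K) (hne : K.Nonempty)
    (hx : ∀ u ∈ K, ∃ x, G.Adj u x) (h : ∀ u ∈ K, ∀ y, G.Adj u y → y ∈ insert τ K) : False := by
  have h1 := hc.clq K hK
  have h2 := card_insert_le τ K
  have h3 : ∀ u ∈ K, ∀ y ∈ insert τ K, y ≠ u → G.Adj u y := fun u hu => by
    obtain ⟨x, hx⟩ := hx u hu
    exact hc.full hx _ (mem_insert_of_mem hu) (h u hu) (by omega)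
  have h4 : Clq G (insert τ K) := by
    intro u hu v hv huv
    rcases mem_insert.1 hu with rfl | hu
    · rcases mem_insert.1 hv with rfl | hv
      · exact absurd rfl huv
      · exact (h3 v hv _ (mem_insert_self _ _) huv).symm
    · exact h3 u hu v hv huv.symm
  obtain ⟨u, hu⟩ := hne
  obtain ⟨x, hx⟩ := hx u hu
  have := hc.deg u x hx _ (mem_insert_of_mem hu) (h u hu)
  have := hc.clq _ h4
  omega

theorem MB.swap (h : MB G col m W a b P) : MB G col m W b a P :=
  ⟨h.pb, h.pa, h.ne.symm, h.len, fun w => by rw [h.mem]; tauto⟩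

theorem MB.nodup (h : MB G col m W a b P) : (a :: b :: P).Nodup := by
  have h1 := List.nodup_cons.1 h.pa.1
  refine List.nodup_cons.2 ⟨?_, h.pb.1⟩
  rw [List.mem_cons, not_or]
  exact ⟨fun e => h.ne (by rw [e]), h1.1⟩

theorem MB.mem' (h : MB G col m W a b P) (w : V) : w ∈ W ↔ w ∈ a :: b :: P := by
  rw [h.mem]; simp

theorem MB.card (h : MB G col m W a b P) : #W = m + 2 := by
  have : W = (a :: b :: P).toFinset := by
    ext w; rw [h.mem', List.mem_toFinset]
  rw [this, List.toFinset_card_of_nodup h.nodup]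
  simp [h.len]

theorem MB.ne_nil (hc : LC G col d n m) (h : MB G col m W a b P) : P ≠ [] := by
  rintro rfl
  have h1 := h.len
  have := hc.m1
  rw [List.length_nil] at h1
  omega

theorem MB.nbr (hc : LC G col d n m) (h : MB G col m W a b P) : ∀ w ∈ W, ∃ x, G.Adj w x := by
  intro w hw
  rcases (h.mem w).1 hw with rfl | rfl | hw
  · exact exists_nbr (h.ne_nil hc) h.pa.2 _ List.mem_cons_self
  · exact exists_nbr (h.ne_nil hc) h.pb.2 _ List.mem_cons_self
  · exact exists_nbr (h.ne_nil hc) h.pa.2 _ (List.mem_cons_of_mem _ hw)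

theorem path_take {l : List V} (h : Path G l) (k : ℕ) : Path G (l.take k) :=
  ⟨h.1.sublist (List.take_sublist _ _), h.2.take k⟩

theorem MB.m_le (hc : LC G col d n m) (h : MB G col m W a b P) : m ≤ n := by
  by_contra hlt
  have hl : (P.take (n + 1)).length = n + 1 := by
    rw [List.length_take, h.len]; omega
  rcases List.eq_nil_or_concat (P.take (n + 1)) with h0 | ⟨l, z, h0⟩
  · rw [h0] at hl; simp at hl
  · rw [List.concat_eq_append] at h0
    have hl' : l.length = n := by rw [h0] at hl; simpa using hl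
    have h1 := path_take h.pa (n + 2)
    have h2 := path_take h.pb (n + 2)
    rw [List.take_succ_cons, h0] at h1 h2
    exact h.ne ((hc.no a z l h1 hl').trans (hc.no b z l h2 hl').symm)

theorem MB.clq (hc : LC G col d n m) (h : MB G col m W a b P) {u v : V} (hu : InC G W u)
    (hv : InC G W v) (huv : u ≠ v) : G.Adj u v := by
  by_contra hn
  obtain ⟨x, hx⟩ := h.nbr hc u hu.1
  obtain ⟨y, hy⟩ := h.nbr hc v hv.1
  have := hc.deg2 u x v y hx hy huv hn W hu.1 hv.1 hu.2 hv.2
  have := h.card
  have := h.m_le hc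
  have := hc.hn
  omega

theorem MB.wk (hc : LC G col d n m) (h : MB G col m W a b P) {u v : V} {l K : List V}
    (hK : ∀ y ∈ K, InC G W y) (hn : K.Nodup) (hl : (u :: l ++ [v]).Subperm K) : Wk G u l v := by
  refine List.Pairwise.isChain ?_
  have h1 : (u :: l ++ [v]).Nodup := nodup_of_subperm hl hn
  refine List.Pairwise.imp_of_mem ?_ h1
  intro x y hx hy hxy
  exact h.clq hc (hK x (hl.subset hx)) (hK y (hl.subset hy)) hxy

theorem path_snoc {l : List V} {z y : V} (h : Path G (l ++ [z])) (hy : y ∉ l ++ [z])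
    (hzy : G.Adj z y) : Path G (l ++ [z] ++ [y]) := by
  refine ⟨?_, ?_⟩
  · rw [List.nodup_append]
    refine ⟨h.1, List.nodup_singleton _, ?_⟩
    intro x hx y' hy' e
    rw [List.mem_singleton.1 hy'] at e
    exact hy (e ▸ hx)
  · rw [List.append_assoc]
    exact List.isChain_split.2 ⟨h.2, by simpa using hzy⟩

theorem MB.end_mem (hc : LC G col d n m) {Q : List V} {z : V}
    (h : MB G col m W a b (Q ++ [z])) : InC G W z := by
  refine ⟨(h.mem z).2 (by simp), fun y hy => ?_⟩
  by_contra hyW
  rw [h.mem, not_or, not_or] at hyW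
  have h1 := path_snoc (l := a :: Q) h.pa (by
    rw [List.cons_append, List.mem_cons, not_or]; exact ⟨hyW.1, hyW.2.2⟩) hy
  have h2 := path_snoc (l := b :: Q) h.pb (by
    rw [List.cons_append, List.mem_cons, not_or]; exact ⟨hyW.2.1, hyW.2.2⟩) hy
  have := hc.mx a b (Q ++ [z] ++ [y]) h1 h2 h.ne
  have h3 := h.len
  simp only [List.length_append, List.length_singleton] at this h3
  omega

theorem MB.perm (h : MB G col m W a b P) {P' : List V} (hp : P'.Perm P)
    (ha : (a :: P').IsChain G.Adj) (hb : (b :: P').IsChain G.Adj) : MB G col m W a b P' :=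
  ⟨⟨(hp.cons a).nodup_iff.2 h.pa.1, ha⟩, ⟨(hp.cons b).nodup_iff.2 h.pb.1, hb⟩, h.ne,
    hp.length_eq.trans h.len, fun w => by rw [h.mem, hp.mem_iff]⟩

theorem chain_rot {X Y : List V} {v z : V} (h : (X ++ v :: (Y ++ [z])).IsChain G.Adj)
    (hv : G.Adj v z) : (X ++ v :: z :: Y.reverse).IsChain G.Adj := by
  rw [List.isChain_split] at h ⊢
  refine ⟨h.1, List.isChain_cons_cons.2 ⟨hv, ?_⟩⟩
  have := chain_rev h.2.tail
  simpa using this

theorem MB.rot (hc : LC G col d n m) {X Y : List V} {v y z : V}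
    (h : MB G col m W a b (X ++ v :: y :: (Y ++ [z]))) (hv : G.Adj v z) : InC G W y := by
  have h1 : MB G col m W a b (X ++ v :: z :: (y :: Y).reverse) := by
    refine h.perm ?_ (chain_rot (X := a :: X) (Y := y :: Y) h.pa.2 hv)
      (chain_rot (X := b :: X) (Y := y :: Y) h.pb.2 hv)
    refine List.perm_iff_count.2 fun w => ?_
    simp only [List.count_cons, List.count_append, List.count_reverse, List.count_nil]
    omega
  have h2 : X ++ v :: z :: (y :: Y).reverse = (X ++ v :: z :: Y.reverse) ++ [y] := by simp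
  rw [h2] at h1
  exact h1.end_mem hc

theorem MB.next (hc : LC G col d n m) {X Y : List V} {v : V}
    (h : MB G col m W a b (X ++ v :: Y)) (hv : InC G W v) : ∀ y ∈ Y, InC G W y := by
  induction Y generalizing X v with
  | nil => simp
  | cons y Y ih =>
    have hy : InC G W y := by
      rcases List.eq_nil_or_concat Y with rfl | ⟨Y', z, rfl⟩
      · have : X ++ [v, y] = (X ++ [v]) ++ [y] := by simp
        rw [this] at h
        exact h.end_mem hc
      · rw [List.concat_eq_append] at h
        refine h.rot hc (h.clq hc hv ?_ ?_)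
        · have : X ++ v :: y :: (Y' ++ [z]) = (X ++ v :: y :: Y') ++ [z] := by simp
          rw [this] at h
          exact h.end_mem hc
        · rintro rfl
          have := List.nodup_iff_count_le_one.1 h.nodup v
          simp only [List.count_cons, List.count_append, List.count_nil, beq_self_eq_true,
            if_true] at this
          omega
    intro y' hy'
    rcases List.mem_cons.1 hy' with rfl | hy'
    · exact hy
    · have : X ++ v :: y :: Y = (X ++ [v]) ++ y :: Y := by simp
      rw [this] at h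
      exact ih h hy y' hy'

theorem MB.outside [Fintype V] (hc : LC G col d n m) (h : MB G col m W a b P) {w : V}
    (hw : w ∈ W) (hwC : ¬InC G W w) :
    ∃ Y : List V, Path G (w :: Y) ∧ (∀ y ∈ Y, y ∉ W) ∧ 2 * d ≤ Y.length + m + 1 := by
  obtain ⟨y0, hy0, hy0W⟩ : ∃ y, G.Adj w y ∧ y ∉ W := by
    by_contra hne
    push Not at hne
    exact hwC ⟨hw, hne⟩
  have hex : ∃ s, ∃ Y : List V, Path G (w :: Y) ∧ (∀ y ∈ Y, y ∉ W) ∧ Y ≠ [] ∧
      Fintype.card V ≤ Y.length + s := by
    refine ⟨Fintype.card V, [y0], ⟨by simpa using hy0.ne, by simpa using hy0⟩, by simpa using hy0W,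
      by simp, by omega⟩
  obtain ⟨Y, hY, hYW, hY0, hYs⟩ := Nat.find_spec hex
  refine ⟨Y, hY, hYW, ?_⟩
  rcases List.eq_nil_or_concat Y with rfl | ⟨Y', y, rfl⟩
  · exact absurd rfl hY0
  rw [List.concat_eq_append] at *
  rcases List.eq_nil_or_concat P with rfl | ⟨Q, z, rfl⟩
  · exact absurd rfl (h.ne_nil hc)
  rw [List.concat_eq_append] at h
  have hz := h.end_mem hc
  have hyW : y ∉ W := hYW y (by simp)
  obtain ⟨x, hx⟩ := exists_nbr hY0 hY.2 y (by simp)
  obtain ⟨x', hx'⟩ := h.nbr hc z hz.1
  have h1 := hc.deg2 y x z x' hx hx' (fun e => hyW (e ▸ hz.1)) (fun e => hyW (hz.2 y e.symm))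
    (W ∪ (Y' ++ [y]).toFinset) (by simp) (mem_union_left _ hz.1) ?_
    (fun u hu => mem_union_left _ (hz.2 u hu))
  · have h2 := card_union_le W (Y' ++ [y]).toFinset
    have h3 := List.toFinset_card_le (Y' ++ [y])
    have := h.card
    omega
  · intro u hu
    by_contra hne
    rw [mem_union, not_or, List.mem_toFinset] at hne
    have h2 := path_snoc (l := w :: Y') hY (by
      rw [List.cons_append, List.mem_cons, not_or]
      exact ⟨fun e => hne.1 (e ▸ hw), hne.2⟩) hu
    have h3 := h2.1.length_le_card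
    have h4 : ¬ _ := Nat.find_min hex (m := Nat.find hex - 1) (by
      simp only [List.length_append, List.length_cons, List.length_nil] at h3 hYs
      omega)
    refine h4 ⟨Y' ++ [y] ++ [u], h2, ?_, by simp, ?_⟩
    · intro v hv
      rcases List.mem_append.1 hv with hv | hv
      · exact hYW v hv
      · rw [List.mem_singleton.1 hv]; exact hne.1
    · simp only [List.length_append, List.length_cons, List.length_nil] at h3 hYs ⊢
      omega

theorem MB.tt [Fintype V] (hc : LC G col d n m) (h : MB G col m W a b P) {a1 a2 w : V}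
    {T1 T2 : List V} (h1 : Wk G a1 T1 w) (h2 : Wk G a2 T2 w)
    (s1 : (a1 :: T1 ++ [w]).Subperm (a :: b :: P)) (s2 : (a2 :: T2 ++ [w]).Subperm (a :: b :: P))
    (hl : T1.length = T2.length) (hm : m ≤ T1.length + 2) (hw : ¬InC G W w) :
    col a1 = col a2 := by
  have hwW : w ∈ W := (h.mem' w).2 (s1.subset (by simp))
  obtain ⟨Y, hY, hYW, hYl⟩ := h.outside hc hwW hw
  have hq := s1.length_le
  have hml := h.m_le hc
  have hn := hc.hn
  simp only [List.length_append, List.length_cons, List.length_nil, h.len] at hq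
  have hY' := path_take hY (n - T1.length + 1)
  rw [List.take_succ_cons] at hY'
  have hlen : (w :: Y.take (n - T1.length)).length = n - T1.length + 1 := by
    rw [List.length_cons, List.length_take]; omega
  have key : ∀ (a' : V) (T : List V), Wk G a' T w → (a' :: T ++ [w]).Subperm (a :: b :: P) →
      Path G (a' :: T ++ w :: Y.take (n - T1.length)) := by
    intro a' T hw' hs
    refine ⟨?_, List.isChain_split.2 ⟨hw', hY'.2⟩⟩
    have e : a' :: T ++ w :: Y.take (n - T1.length) = (a' :: T ++ [w]) ++ Y.take (n - T1.length) := by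
      simp
    rw [e, List.nodup_append]
    refine ⟨nodup_of_subperm hs h.nodup, (List.nodup_cons.1 hY'.1).2, ?_⟩
    intro x hx y hy e
    exact hYW y (List.mem_of_mem_take hy) (e ▸ (h.mem' x).2 (hs.subset hx))
  rcases List.eq_nil_or_concat (w :: Y.take (n - T1.length)) with h0 | ⟨Z, e, h0⟩
  · simp at h0
  · rw [List.concat_eq_append] at h0
    have k1 := key a1 T1 h1 s1
    have k2 := key a2 T2 h2 s2
    rw [h0] at k1 k2 hlen
    simp only [List.length_append, List.length_singleton] at hlen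
    have e1 := hc.no a1 e (T1 ++ Z) (by simpa using k1) (by rw [List.length_append]; omega)
    have e2 := hc.no a2 e (T2 ++ Z) (by simpa using k2) (by rw [List.length_append]; omega)
    rw [e1, e2]

end Vale.Agent.P048.Lay
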