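import Vale.Agent.P048.LayerA

/-! Brooms in an expanding graph: the decomposition and the clique case. -/

namespace Vale.Agent.P048.Lay
open Finset
open scoped Classical

variable {V : Type} {G : SimpleGraph V} {C : Type}
variable {col : V → C} {d n m : ℕ} {W : Finset V} {a b : V} {P : List V}

theorem MB.pen (hc : LC G col d n m) {Q : List V} {v z : V}
    (h : MB G col m W a b (Q ++ [v, z])) : InC G W v := by
  have hz : InC G W z := by
    have : Q ++ [v, z] = (Q ++ [v]) ++ [z] := by simp
    rw [this] at h
    exact h.end_mem hc
  have hnd := List.nodup_iff_count_le_one.1 h.nodup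
  by_cases hu : ∃ u ∈ Q, G.Adj u z
  · obtain ⟨u, hu, huz⟩ := hu
    obtain ⟨Q1, Q2, rfl⟩ := List.append_of_mem hu
    obtain ⟨y, Y, hy⟩ : ∃ y Y, Q2 ++ [v] = y :: Y := by
      cases Q2 with
      | nil => exact ⟨_, _, rfl⟩
      | cons y Y => exact ⟨_, _, rfl⟩
    have e : Q1 ++ u :: Q2 ++ [v, z] = Q1 ++ u :: y :: (Y ++ [z]) := by
      rw [← List.cons_append (a := y), ← hy]; simp
    rw [e] at h
    have h1 := h.rot hc huz
    have e2 : Q1 ++ u :: y :: (Y ++ [z]) = (Q1 ++ [u]) ++ y :: (Y ++ [z]) := by simp
    rw [e2] at h
    have h2 := h.next hc h1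
    have h3 : v ∈ y :: Y := by rw [← hy]; simp
    rcases List.mem_cons.1 h3 with rfl | h3
    · exact h1
    · exact h2 v (List.mem_append_left _ h3)
  · push Not at hu
    obtain ⟨x, hx⟩ := h.nbr hc z hz.1
    have hfull := hc.full hx {z, a, b, v} (by simp) (by
      intro y hy
      have := (h.mem y).1 (hz.2 y hy)
      simp only [List.mem_append, List.mem_cons, List.not_mem_nil, or_false, mem_insert,
        mem_singleton] at this ⊢
      rcases this with h1 | h1 | h1 | h1 | h1
      · tauto
      · tauto
      · exact absurd hy.symm (hu y h1)
      · tauto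
      · tauto) (card_le_four.trans (by have := hc.d3; omega))
    have hza : G.Adj z a := hfull a (by simp) (by
      rintro rfl
      have := hnd a
      simp only [List.count_cons, List.count_append, List.count_nil, beq_self_eq_true,
        if_true] at this
      omega)
    have hzb : G.Adj z b := hfull b (by simp) (by
      rintro rfl
      have := hnd b
      simp only [List.count_cons, List.count_append, List.count_nil, beq_self_eq_true,
        if_true] at this
      omega)
    have hr : (z :: v :: Q.reverse).IsChain G.Adj := by
      simpa using chain_rev h.pa.2.tail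
    have h1 : MB G col m W a b (z :: v :: Q.reverse) := by
      refine h.perm ?_ (List.isChain_cons_cons.2 ⟨hza.symm, hr⟩)
        (List.isChain_cons_cons.2 ⟨hzb.symm, hr⟩)
      refine List.perm_iff_count.2 fun w => ?_
      simp only [List.count_cons, List.count_append, List.count_reverse, List.count_nil]
      omega
    cases Q with
    | nil => exact MB.end_mem hc (Q := [z]) h1
    | cons c Q =>
      have e : z :: v :: (c :: Q).reverse = (z :: v :: Q.reverse) ++ [c] := by simp
      rw [e] at h1
      refine absurd (h.clq hc (h1.end_mem hc) hz ?_) (hu c List.mem_cons_self)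
      rintro rfl
      have := hnd c
      simp only [List.count_cons, List.count_append, List.count_nil, beq_self_eq_true,
        if_true] at this
      omega

theorem MB.decomp (hc : LC G col d n m) (h : MB G col m W a b P) :
    ∃ X K, P = X ++ K ∧ (∀ x ∈ X, ¬InC G W x) ∧ (∀ y ∈ K, InC G W y) ∧ 2 ≤ K.length := by
  rcases List.eq_nil_or_concat P with rfl | ⟨P', z, rfl⟩
  · exact absurd rfl (h.ne_nil hc)
  rw [List.concat_eq_append] at h ⊢
  have hz := h.end_mem hc
  rcases List.eq_nil_or_concat P' with rfl | ⟨Q, v, rfl⟩
  · obtain ⟨x, hx⟩ := h.nbr hc z hz.1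
    have h1 := hc.deg z x hx W hz.1 hz.2
    have h2 := h.card
    have h3 := h.len
    have := hc.d3
    simp only [List.nil_append, List.length_singleton] at h3
    omega
  rw [List.concat_eq_append] at h ⊢
  have hv : InC G W v := MB.pen hc (Q := Q) (z := z) (by simpa using h)
  have e := List.takeWhile_append_dropWhile (p := fun x => decide (¬InC G W x)) (l := Q)
  have hX : ∀ x ∈ Q.takeWhile (fun x => decide (¬InC G W x)), ¬InC G W x := fun x hx => by
    simpa using List.mem_takeWhile_imp hx
  refine ⟨Q.takeWhile (fun x => decide (¬InC G W x)),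
    Q.dropWhile (fun x => decide (¬InC G W x)) ++ [v] ++ [z], ?_, hX, ?_, by simp⟩
  · rw [← List.append_assoc, ← List.append_assoc, e]
  · have hd := List.head?_dropWhile_not (fun x => decide (¬InC G W x)) Q
    generalize Q.dropWhile (fun x => decide (¬InC G W x)) = D at e hd
    generalize Q.takeWhile (fun x => decide (¬InC G W x)) = X at e
    subst e
    cases D with
    | nil =>
      intro y hy
      simp only [List.nil_append, List.mem_append, List.mem_singleton] at hy
      rcases hy with rfl | rfl
      · exact hv
      · exact hz
    | cons u D =>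
      have hu : InC G W u := by simpa using hd
      have e2 : X ++ u :: D ++ [v] ++ [z] = X ++ u :: (D ++ [v] ++ [z]) := by simp
      rw [e2] at h
      intro y hy
      rcases List.mem_cons.1 hy with rfl | hy
      · exact hu
      · exact h.next hc hu y hy

theorem MB.head_adj {c : V} (h : MB G col m W a b (c :: P)) : G.Adj a c :=
  (List.isChain_cons_cons.1 h.pa.2).1

theorem MB.clqK (hc : LC G col d n m) (h : MB G col m W a b P) {K : Finset V}
    (hK : ∀ y ∈ K, InC G W y) : Clq G K :=
  fun u hu v hv huv => h.clq hc (hK u hu) (hK v hv) huv

theorem MB.notC (hc : LC G col d n m) (h : MB G col m W a b P) (hP : ∀ y ∈ P, InC G W y) :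
    ¬InC G W a := by
  intro ha
  have hK : ∀ y ∈ (a :: P).toFinset, InC G W y := by
    intro y hy
    rcases List.mem_cons.1 (List.mem_toFinset.1 hy) with rfl | hy
    · exact ha
    · exact hP y hy
  refine hc.f1 (a :: P).toFinset b (h.clqK hc hK) ⟨a, by simp⟩
    (fun u hu => h.nbr hc u (hK u hu).1) fun u hu y hy => ?_
  have := (h.mem y).1 ((hK u hu).2 y hy)
  simp only [mem_insert, List.mem_toFinset, List.mem_cons]
  tauto

theorem MB.case4a [Fintype V] (hc : LC G col d n m) {c u : V} {M : List V}
    (h : MB G col m W a b (c :: u :: M)) (hP : ∀ y ∈ c :: u :: M, InC G W y) (hua : G.Adj u a) :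
    False := by
  have ha := h.notC hc hP
  have hb := h.swap.notC hc hP
  have hac := h.head_adj
  have hbc := h.swap.head_adj
  have hK : (c :: u :: M).Nodup := (List.nodup_cons.1 h.pa.1).2
  have hl := h.len
  have wk : ∀ {x y : V} {l : List V}, (x :: l ++ [y]).Subperm (c :: u :: M) → Wk G x l y :=
    fun hs => h.wk hc hP hK hs
  simp only [List.length_cons] at hl
  cases M with
  | nil =>
    have hu := hP u (by simp)
    have hcu : G.Adj c u := (List.isChain_cons_cons.1 h.pa.2.tail).1
    have hub : G.Adj u b := by
      refine hc.full hua W hu.1 hu.2 (by have := h.card; have := hc.d3; simp at hl; omega) b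
        ((h.mem b).2 (by simp)) ?_
      rintro rfl
      exact hb hu
    have e1 : col a = col u := h.tt hc (T1 := [u, c]) (T2 := [a, c]) (w := b)
      (.cons hua.symm (.cons hcu.symm (.one hbc.symm))) (.cons hua (.cons hac (.one hbc.symm)))
      (List.subperm_iff_count.2 fun v => by
        simp only [List.count_cons, List.count_append, List.count_nil]; omega)
      (List.subperm_iff_count.2 fun v => by
        simp only [List.count_cons, List.count_append, List.count_nil]; omega)
      rfl (by simp at hl ⊢; omega) hb
    have e2 : col b = col u := h.tt hc (T1 := [u, c]) (T2 := [b, c]) (w := a)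
      (.cons hub.symm (.cons hcu.symm (.one hac.symm))) (.cons hub (.cons hbc (.one hac.symm)))
      (List.subperm_iff_count.2 fun v => by
        simp only [List.count_cons, List.count_append, List.count_nil]; omega)
      (List.subperm_iff_count.2 fun v => by
        simp only [List.count_cons, List.count_append, List.count_nil]; omega)
      rfl (by simp at hl ⊢; omega) ha
    exact h.ne (e1.trans e2.symm)
  | cons x M =>
    have w1 : Wk G u (x :: M) c := wk (List.subperm_iff_count.2 fun v => by
        simp only [List.count_cons, List.count_append, List.count_nil]; omega)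
    have w2 : Wk G u M c := wk (List.subperm_iff_count.2 fun v => by
        simp only [List.count_cons, List.count_append, List.count_nil]; omega)
    have w3 : Wk G c M u := wk (List.subperm_iff_count.2 fun v => by
        simp only [List.count_cons, List.count_append, List.count_nil]; omega)
    have e1 : col u = col a := h.tt hc (w := b)
      (w1.snoc hbc.symm) ((w2.snoc hbc.symm).cons hua.symm)
      (List.subperm_iff_count.2 fun v => by
        simp only [List.count_cons, List.count_append, List.count_nil]; omega)
      (List.subperm_iff_count.2 fun v => by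
        simp only [List.count_cons, List.count_append, List.count_nil]; omega)
      (by simp) (by simp at hl ⊢; omega) hb
    have e2 : col u = col b := h.tt hc (w := a)
      (w1.snoc hac.symm) ((w3.snoc hua).cons hbc)
      (List.subperm_iff_count.2 fun v => by
        simp only [List.count_cons, List.count_append, List.count_nil]; omega)
      (List.subperm_iff_count.2 fun v => by
        simp only [List.count_cons, List.count_append, List.count_nil]; omega)
      (by simp) (by simp at hl ⊢; omega) ha
    exact h.ne (e1.symm.trans e2)

theorem MB.case4 [Fintype V] (hc : LC G col d n m) (h : MB G col m W a b P)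
    (hP : ∀ y ∈ P, InC G W y) (h2 : 2 ≤ P.length) : False := by
  obtain ⟨c, u, M, rfl⟩ : ∃ c u M, P = c :: u :: M := by
    rcases P with _ | ⟨c, _ | ⟨u, M⟩⟩
    · simp at h2
    · simp at h2
    · exact ⟨_, _, _, rfl⟩
  by_cases hua : G.Adj u a
  · exact h.case4a hc hP hua
  by_cases hub : G.Adj u b
  · exact h.swap.case4a hc hP hub
  have hu := hP u (by simp)
  obtain ⟨x, hx⟩ := h.nbr hc u hu.1
  have h3 := hc.deg u x hx (c :: u :: M).toFinset (by simp) (by
    intro y hy
    rcases (h.mem y).1 (hu.2 y hy) with rfl | rfl | h4
    · exact absurd hy hua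
    · exact absurd hy hub
    · exact List.mem_toFinset.2 h4)
  have h4 := hc.clq _ (h.clqK hc (K := (c :: u :: M).toFinset)
    fun y hy => hP y (List.mem_toFinset.1 hy))
  omega

end Vale.Agent.P048.Lay
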