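import Vale.Agent.P048.LayerB

/-! Brooms in an expanding graph: the case with a proper initial segment. -/

namespace Vale.Agent.P048.Lay
open Finset
open scoped Classical

variable {V : Type} {G : SimpleGraph V} {C : Type}

/-- The setting of the last case. -/
structure C5 (G : SimpleGraph V) (col : V → C) (m : ℕ) (W : Finset V) (a b c x : V)
    (X X0 K : List V) : Prop where
  h : MB G col m W a b (c :: X ++ K)
  hX : ∀ v ∈ c :: X, ¬InC G W v
  hK : ∀ y ∈ K, InC G W y
  e : c :: X = X0 ++ [x]
  two : 2 ≤ K.length

/-- Possible ends of a maximal broom. -/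
def St (G : SimpleGraph V) (x : V) (K : List V) (z : V) : Prop :=
  z ∈ K ∧ ∃ y ∈ K, y ≠ z ∧ G.Adj x y

variable {col : V → C} {d n m : ℕ} {W : Finset V} {a b c x : V} {X X0 K : List V}

theorem C5.swap (h : C5 G col m W a b c x X X0 K) : C5 G col m W b a c x X X0 K :=
  ⟨h.h.swap, h.hX, h.hK, h.e, h.two⟩

theorem C5.xmem (h : C5 G col m W a b c x X X0 K) : x ∈ c :: X := by
  rw [h.e]; simp

theorem C5.wkX (h : C5 G col m W a b c x X X0 K) {y : V} (hy : G.Adj x y) : Wk G c X y := by
  have h1 : (c :: X).IsChain G.Adj := h.h.pa.2.tail.left_of_append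
  rw [Wk, h.e, List.append_assoc]
  rw [h.e] at h1
  exact List.isChain_split.2 ⟨h1, by simpa using hy⟩

theorem C5.ndK (h : C5 G col m W a b c x X X0 K) : K.Nodup :=
  (List.nodup_append.1 (List.nodup_cons.1 h.h.pa.1).2).2.1

theorem C5.ex (h : C5 G col m W a b c x X X0 K) : ∃ z, St G x K z := by
  have h2 := h.two
  have hn := h.ndK
  have h1 := h.h.pa.2.tail
  rcases K with _ | ⟨y, _ | ⟨z, M⟩⟩
  · simp at h2
  · simp at h2
  · refine ⟨z, by simp, y, by simp, ?_, ?_⟩
    · rintro rfl
      simp at hn
    · rw [List.tail_cons, h.e, List.append_assoc] at h1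
      exact (List.isChain_cons_cons.1 (List.isChain_split.1 h1).2).1

theorem St.perm {z : V} (h : St G x K z) :
    ∃ y M, K.Perm (y :: M ++ [z]) ∧ G.Adj x y := by
  obtain ⟨hz, y, hy, hyz, hxy⟩ := h
  refine ⟨y, (K.erase y).erase z, ?_, hxy⟩
  refine (List.perm_cons_erase hy).trans (List.Perm.cons _ ?_)
  refine (List.perm_cons_erase ((List.mem_erase_of_ne hyz.symm).2 hz)).trans ?_
  exact (List.perm_append_singleton _ _).symm

theorem St.all {z : V} (h : St G x K z) (hx : G.Adj x z) : ∀ z' ∈ K, St G x K z' := by
  obtain ⟨hz, y, hy, hyz, hxy⟩ := h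
  intro z' hz'
  by_cases e : y = z'
  · exact ⟨hz', z, hz, e ▸ hyz.symm, hx⟩
  · exact ⟨hz', y, hy, e, hxy⟩

theorem C5.wkK (hc : LC G col d n m) (h : C5 G col m W a b c x X X0 K) {u v : V} {l : List V}
    (hl : (u :: l ++ [v]).Subperm K) : Wk G u l v := h.h.wk hc h.hK h.ndK hl

theorem C5.nb (hc : LC G col d n m) (h : C5 G col m W a b c x X X0 K) {z : V} (hz : St G x K z)
    {v : V} (hv : G.Adj z v) : v = a ∨ v = b ∨ v = x ∨ v ∈ K := by
  obtain ⟨y, M, hp, hxy⟩ := hz.perm
  have w1 := (h.wkX hxy).trans (h.wkK hc hp.symm.subperm)
  have h1 : MB G col m W a b (c :: (X ++ y :: M) ++ [z]) := by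
    refine h.h.perm ?_ (List.isChain_cons_cons.2 ⟨h.h.head_adj, w1⟩)
      (List.isChain_cons_cons.2 ⟨h.h.swap.head_adj, w1⟩)
    refine List.perm_iff_count.2 fun w => ?_
    have := List.perm_iff_count.1 hp w
    simp only [List.count_cons, List.count_append, List.count_nil] at this ⊢
    omega
  rcases (h.h.mem v).1 ((h.hK z hz.1).2 v hv) with h2 | h2 | h2
  · tauto
  · tauto
  rcases List.mem_append.1 h2 with h2 | h2
  swap
  · tauto
  rw [h.e] at h2
  rcases List.mem_append.1 h2 with h2 | h2
  swap
  · simp at h2; tauto
  exfalso
  obtain ⟨X1, X2, rfl⟩ := List.append_of_mem h2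
  obtain ⟨v', X3, h3⟩ : ∃ v' X3, X2 ++ [x] = v' :: X3 := by
    cases X2 with
    | nil => exact ⟨_, _, rfl⟩
    | cons y Y => exact ⟨_, _, rfl⟩
  have e1 : c :: X = X1 ++ v :: v' :: X3 := by rw [h.e, ← h3]; simp
  have e2 : c :: (X ++ y :: M) ++ [z] = X1 ++ v :: v' :: ((X3 ++ y :: M) ++ [z]) := by
    rw [← List.cons_append, e1]; simp
  rw [e2] at h1
  exact h.hX v' (by rw [e1]; simp) (h1.rot hc hv.symm)

theorem C5.walk (hc : LC G col d n m) (h : C5 G col m W a b c x X X0 K) {z : V}
    (hz : St G x K z) : ∃ T, Wk G z T c ∧ (z :: T ++ [c]).Perm (c :: X ++ K) ∧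
      T.length + 2 = m := by
  obtain ⟨y, M, hp, hxy⟩ := hz.perm
  have w1 := ((h.wkX hxy).trans (h.wkK hc hp.symm.subperm)).symm
  have hp' : (z :: (X ++ y :: M).reverse ++ [c]).Perm (c :: X ++ K) := by
    refine List.perm_iff_count.2 fun w => ?_
    have := List.perm_iff_count.1 hp w
    simp only [List.count_cons, List.count_append, List.count_nil, List.count_reverse] at this ⊢
    omega
  refine ⟨_, w1, hp', ?_⟩
  have h1 := hp'.length_eq
  rw [h.h.len] at h1
  simp only [List.length_cons, List.length_append, List.length_nil] at h1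
  omega

variable [Fintype V]

theorem C5.colour (hc : LC G col d n m) (h : C5 G col m W a b c x X X0 K) {z z' : V}
    (hz : St G x K z) (hz' : St G x K z') : col z = col z' := by
  obtain ⟨T, w, p, l⟩ := h.walk hc hz
  obtain ⟨T', w', p', l'⟩ := h.walk hc hz'
  exact h.h.tt hc w w' (p.subperm.trans ((List.sublist_cons_self _ _).trans
    (List.sublist_cons_self _ _)).subperm) (p'.subperm.trans ((List.sublist_cons_self _ _).trans
    (List.sublist_cons_self _ _)).subperm) (by omega) (by omega) (h.hX c List.mem_cons_self)

theorem C5.notb (hc : LC G col d n m) (h : C5 G col m W a b c x X X0 K) {z : V}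
    (hz : St G x K z) (hg : col z ≠ col b) : ¬G.Adj z b := by
  intro hzb
  obtain ⟨T, w, p, l⟩ := h.walk hc hz
  have sT : (z :: T ++ [c]).Subperm (a :: b :: (c :: X ++ K)) :=
    p.subperm.trans ((List.sublist_cons_self _ _).trans (List.sublist_cons_self _ _)).subperm
  obtain ⟨y, M, hp, hxy⟩ := hz.perm
  have hl := h.h.len
  have hl2 := hp.length_eq
  have hcC := h.hX c List.mem_cons_self
  have hp' := List.perm_iff_count.1 hp
  simp only [List.length_cons, List.length_append, List.length_nil] at hl hl2
  cases M with
  | nil =>
    by_cases hxz : G.Adj x z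
    · refine hg (h.h.tt hc w ((h.wkX hxz).symm.cons hzb.symm) sT
        (List.subperm_iff_count.2 fun v => ?_) (by simp at hl2 ⊢; omega) (by omega) hcC)
      have := hp' v
      simp only [List.count_cons, List.count_append, List.count_nil, List.count_reverse] at this ⊢
      omega
    · have hza : G.Adj z a := by
        refine hc.full hzb {z, y, a, b} (by simp) ?_
          (card_le_four.trans (by have := hc.d3; omega)) a (by simp) ?_
        · intro v hv
          rcases h.nb hc hz hv with rfl | rfl | rfl | h1
          · simp
          · simp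
          · exact absurd hv.symm hxz
          · have := hp.mem_iff.1 h1
            simp only [List.cons_append, List.nil_append, List.mem_cons, List.not_mem_nil,
              or_false] at this
            rcases this with rfl | rfl <;> simp
        · rintro rfl
          have h1 := List.nodup_iff_count_le_one.1 h.h.nodup a
          have h2 := hp' a
          simp only [List.count_cons, List.count_append, List.count_nil, beq_self_eq_true,
            if_true] at h1 h2
          omega
      have w1 : Wk G z (y :: X.reverse) c :=
        (h.wkK hc (l := []) (List.subperm_iff_count.2 fun v => by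
          have := hp' v
          simp only [List.count_cons, List.count_append, List.count_nil] at this ⊢
          omega)).trans (h.wkX hxy).symm
      refine h.h.ne (h.h.tt hc (w1.cons hza.symm) (w1.cons hzb.symm)
        (List.subperm_iff_count.2 fun v => ?_) (List.subperm_iff_count.2 fun v => ?_) rfl
        (by simp at hl2 ⊢; omega) hcC)
      all_goals
        have := hp' v
        simp only [List.count_cons, List.count_append, List.count_nil, List.count_reverse] at this ⊢
        omega
  | cons u M =>
    have w1 : Wk G z (M ++ y :: X.reverse) c :=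
      (h.wkK hc (l := M) (List.subperm_iff_count.2 fun v => by
        have := hp' v
        simp only [List.count_cons, List.count_append, List.count_nil] at this ⊢
        omega)).trans (h.wkX hxy).symm
    refine hg (h.h.tt hc w (w1.cons hzb.symm) sT
      (List.subperm_iff_count.2 fun v => ?_) (by simp at hl2 ⊢; omega) (by omega) hcC)
    have := hp' v
    simp only [List.count_cons, List.count_append, List.count_nil, List.count_reverse] at this ⊢
    omega

theorem C5.inC (hc : LC G col d n m) (h : C5 G col m W a b c x X X0 K)
    (hg : ∀ z, St G x K z → col z ≠ col b) (ha : InC G W a) : False := by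
  have hnd := List.nodup_iff_count_le_one.1 h.h.nodup
  have haK : ∀ y ∈ a :: K, InC G W y := by
    intro y hy
    rcases List.mem_cons.1 hy with rfl | hy
    · exact ha
    · exact h.hK y hy
  have hn1 : (a :: K).Nodup := List.nodup_iff_count_le_one.2 fun v => by
    have := hnd v
    simp only [List.count_cons, List.count_append] at this ⊢
    omega
  have hq : Clq G (a :: K).toFinset := h.h.clqK hc fun y hy => haK y (List.mem_toFinset.1 hy)
  have h1 := hc.clq _ hq
  have h2 := card_insert_le x (a :: K).toFinset
  have hsub : ∀ z, St G x K z → ∀ v, G.Adj z v → v ∈ insert x (a :: K).toFinset := by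
    intro z hz v hv
    rcases h.nb hc hz hv with rfl | rfl | rfl | h3
    · simp
    · exact absurd hv (h.notb hc hz (hg z hz))
    · simp
    · simp [h3]
  have hzx : ∀ z, St G x K z → G.Adj x z := by
    intro z hz
    obtain ⟨u, hu⟩ := h.h.nbr hc z (h.hK z hz.1).1
    refine (hc.full hu _ (by simp [hz.1]) (hsub z hz) (by omega) x (by simp) ?_).symm
    rintro rfl
    exact h.hX x h.xmem (h.hK x hz.1)
  obtain ⟨z, hz⟩ := h.ex
  have hall : ∀ y ∈ K, G.Adj x y := fun y hy => hzx y (hz.all (hzx z hz) y hy)
  have h3 := hc.deg z x (hzx z hz).symm _ (by simp [hz.1]) (hsub z hz)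
  have h4 := List.toFinset_card_of_nodup hn1
  have hl := h.h.len
  cases X with
  | nil =>
    have e : c = x := (List.mem_singleton.1 h.xmem).symm
    subst e
    have hcq : Clq G (insert c (a :: K).toFinset) := by
      have h5 : ∀ v ∈ (a :: K).toFinset, G.Adj c v := by
        intro v hv
        rcases List.mem_cons.1 (List.mem_toFinset.1 hv) with rfl | hv
        · exact h.h.head_adj.symm
        · exact hall v hv
      intro u hu v hv huv
      rcases mem_insert.1 hu with rfl | hu'
      · rcases mem_insert.1 hv with rfl | hv'
        · exact absurd rfl huv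
        · exact h5 v hv'
      · rcases mem_insert.1 hv with rfl | hv'
        · exact (h5 u hu').symm
        · exact hq u hu' v hv' huv
    have := hc.clq _ hcq
    omega
  | cons x1 X =>
    have h6 := h.h.m_le hc
    have h7 := hc.hn
    have h8 := h.two
    rcases K with _ | ⟨k1, _ | ⟨k2, _ | ⟨k3, K⟩⟩⟩
    · simp at h8
    · simp at h8
    · simp only [List.length_cons, List.length_append, List.length_nil] at hl h4
      omega
    · have w0 : Wk G x1 X k3 := (h.wkX (hall k3 (by simp))).tail
      have w1 : Wk G a (k1 :: k2 :: K) k3 := h.h.wk hc haK hn1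
        (List.subperm_iff_count.2 fun v => by
          simp only [List.count_cons, List.count_append, List.count_nil]; omega)
      have w2 : Wk G a K k3 := h.h.wk hc haK hn1
        (List.subperm_iff_count.2 fun v => by
          simp only [List.count_cons, List.count_append, List.count_nil]; omega)
      refine h.h.ne (h.h.tt hc (w1.trans w0.symm)
        (((w2.trans w0.symm).cons h.h.head_adj.symm).cons h.h.swap.head_adj)
        (List.subperm_iff_count.2 fun v => ?_) (List.subperm_iff_count.2 fun v => ?_)
        (by simp) (by simp at hl ⊢; omega) (h.hX x1 (by simp)))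
      all_goals
        simp only [List.count_cons, List.count_append, List.count_nil, List.count_reverse]
        omega

theorem C5.notInC (hc : LC G col d n m) (h : C5 G col m W a b c x X X0 K)
    (hg : ∀ z, St G x K z → col z ≠ col b) (ha : ¬InC G W a) : False := by
  have hq : Clq G K.toFinset := h.h.clqK hc fun y hy => h.hK y (List.mem_toFinset.1 hy)
  obtain ⟨z, hz, hza⟩ : ∃ z, St G x K z ∧ G.Adj z a := by
    by_contra hne
    push Not at hne
    have h1 := hc.clq _ hq
    have h2 := card_insert_le x K.toFinset
    have hsub : ∀ z, St G x K z → ∀ v, G.Adj z v → v ∈ insert x K.toFinset := by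
      intro z hz v hv
      rcases h.nb hc hz hv with rfl | rfl | rfl | h3
      · exact absurd hv (hne z hz)
      · exact absurd hv (h.notb hc hz (hg z hz))
      · simp
      · simp [h3]
    obtain ⟨z, hz⟩ := h.ex
    obtain ⟨u, hu⟩ := h.h.nbr hc z (h.hK z hz.1).1
    have hxz : G.Adj x z := by
      refine (hc.full hu _ (by simp [hz.1]) (hsub z hz) (by omega) x (by simp) ?_).symm
      rintro rfl
      exact h.hX x h.xmem (h.hK x hz.1)
    exact hc.f1 K.toFinset x hq ⟨z, List.mem_toFinset.2 hz.1⟩
      (fun u hu => h.h.nbr hc u (h.hK u (List.mem_toFinset.1 hu)).1)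
      (fun u hu => hsub u (hz.all hxz u (List.mem_toFinset.1 hu)))
  obtain ⟨T, w, p, l⟩ := h.walk hc hz
  have p' := List.perm_iff_count.1 p
  have sT : (z :: (T ++ [c]) ++ [a]).Subperm (a :: b :: (c :: X ++ K)) :=
    List.subperm_iff_count.2 fun v => by
      have := p' v
      simp only [List.count_cons, List.count_append, List.count_nil] at this ⊢
      omega
  obtain ⟨y, M, hp, hxy⟩ := hz.perm
  have hl := h.h.len
  have hl2 := hp.length_eq
  have hp' := List.perm_iff_count.1 hp
  simp only [List.length_cons, List.length_append, List.length_nil] at hl hl2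
  cases M with
  | nil =>
    have hzx : G.Adj z x := by
      refine hc.full hza {z, y, x, a} (by simp) ?_
        (card_le_four.trans (by have := hc.d3; omega)) x (by simp) ?_
      · intro v hv
        rcases h.nb hc hz hv with rfl | rfl | rfl | h1
        · simp
        · exact absurd hv (h.notb hc hz (hg z hz))
        · simp
        · have := hp.mem_iff.1 h1
          simp only [List.cons_append, List.nil_append, List.mem_cons, List.not_mem_nil,
            or_false] at this
          rcases this with rfl | rfl <;> simp
      · rintro rfl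
        exact h.hX x h.xmem (h.hK x hz.1)
    refine hg z hz (h.h.tt hc (w.snoc h.h.head_adj.symm)
      (((h.wkX hzx.symm).snoc hza).cons h.h.swap.head_adj) sT
      (List.subperm_iff_count.2 fun v => ?_) (by simp at hl2 ⊢; omega) (by simp; omega) ha)
    have := hp' v
    simp only [List.count_cons, List.count_append, List.count_nil] at this ⊢
    omega
  | cons u M =>
    have w1 : Wk G y M z := h.wkK hc (List.subperm_iff_count.2 fun v => by
      have := hp' v
      simp only [List.count_cons, List.count_append, List.count_nil] at this ⊢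
      omega)
    refine hg z hz (h.h.tt hc (w.snoc h.h.head_adj.symm)
      ((((h.wkX hxy).trans w1).snoc hza).cons h.h.swap.head_adj) sT
      (List.subperm_iff_count.2 fun v => ?_) (by simp at hl2 ⊢; omega) (by simp; omega) ha)
    have := hp' v
    simp only [List.count_cons, List.count_append, List.count_nil] at this ⊢
    omega

theorem C5.false (hc : LC G col d n m) (h : C5 G col m W a b c x X X0 K) : False := by
  obtain ⟨z, hz⟩ := h.ex
  by_cases hb : col z = col b
  · have hg : ∀ z', St G x K z' → col z' ≠ col a := fun z' hz' e =>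
      h.h.ne (e.symm.trans ((h.colour hc hz' hz).trans hb))
    by_cases hC : InC G W b
    · exact h.swap.inC hc hg hC
    · exact h.swap.notInC hc hg hC
  · have hg : ∀ z', St G x K z' → col z' ≠ col b := fun z' hz' e =>
      hb ((h.colour hc hz hz').trans e)
    by_cases hC : InC G W a
    · exact h.inC hc hg hC
    · exact h.notInC hc hg hC

theorem MB.false {P : List V} (hc : LC G col d n m) (h : MB G col m W a b P) : False := by
  obtain ⟨X, K, rfl, hX, hK, h2⟩ := h.decomp hc
  cases X with
  | nil => exact h.case4 hc hK h2
  | cons c X =>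
    rcases List.eq_nil_or_concat (c :: X) with h0 | ⟨X0, x, h0⟩
    · simp at h0
    · rw [List.concat_eq_append] at h0
      exact C5.false hc ⟨h, hX, hK, h0, h2⟩

end Vale.Agent.P048.Lay
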