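import Vale.Agent.P048.Defs

/-! Expanding pieces and long paths. -/

namespace Vale.Agent.P048
open Finset
open scoped Classical

variable {V : Type} [Fintype V] {G : SimpleGraph V}

theorem ratio_mem_nb {I : Finset V} {v : V} : v ∈ nb G I ↔ v ∈ I ∨ ∃ u ∈ I, G.Adj u v := by
  simp [nb]

omit [Fintype V] in
theorem ratio_res_adj {H : Finset V} {u v : V} :
    (res G H).Adj u v ↔ G.Adj u v ∧ u ∈ H ∧ v ∈ H := Iff.rfl

theorem ratio_reach {X : Finset V} {x y : V} (h : (res G X).Reachable x y) :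
    (res G (X.filter fun z => (res G X).Reachable x z)).Reachable x y := by
  rw [SimpleGraph.reachable_iff_reflTransGen] at h
  induction h with
  | refl => rfl
  | @tail b c hb hbc ih =>
    have hb' : (res G X).Reachable x b := (SimpleGraph.reachable_iff_reflTransGen _ _).2 hb
    refine ih.trans (SimpleGraph.Adj.reachable ?_)
    exact ⟨hbc.1, mem_filter.2 ⟨hbc.2.1, hb'⟩, mem_filter.2 ⟨hbc.2.2, hb'.trans hbc.reachable⟩⟩

theorem ratio (c d : ℕ) (X : Finset V) :
    (∃ I ⊆ X, Indep G I ∧ c * #X ≤ d * #I) ∨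
    ∃ H ⊆ X, H.Nonempty ∧ (∀ u ∈ H, ∀ v ∈ H, (res G H).Reachable u v) ∧
      ∀ I ⊆ H, I.Nonempty → Indep G I → d * #I < c * #(nb (res G H) I) := by
  induction X using Finset.strongInduction with
  | H X ih =>
    by_cases hJ : ∃ J ⊆ X, J.Nonempty ∧ Indep G J ∧ c * #(nb (res G X) J) ≤ d * #J
    · obtain ⟨J, hJX, hJne, hJi, hJc⟩ := hJ
      have hNX : nb (res G X) J ⊆ X := by
        intro v hv
        rcases ratio_mem_nb.1 hv with hv | ⟨u, _, hadj⟩
        · exact hJX hv
        · exact hadj.2.2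
      have hJN : J ⊆ nb (res G X) J := fun v hv => ratio_mem_nb.2 (Or.inl hv)
      have hss : X \ nb (res G X) J ⊂ X := sdiff_ssubset hNX (hJne.mono hJN)
      rcases ih _ hss with ⟨I, hI1, hI2, hI3⟩ | ⟨H, hH1, hH2⟩
      · left
        have hcross : ∀ a ∈ J, ∀ b ∈ I, ¬G.Adj a b := by
          intro a ha b hb hab
          have hb' := mem_sdiff.1 (hI1 hb)
          exact hb'.2 (ratio_mem_nb.2 (Or.inr ⟨a, ha, hab, hJX ha, hb'.1⟩))
        have hdis : Disjoint J I := disjoint_left.2 fun a ha hb => (mem_sdiff.1 (hI1 hb)).2 (hJN ha)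
        refine ⟨J ∪ I, union_subset hJX (hI1.trans sdiff_subset), ?_, ?_⟩
        · intro a ha b hb
          rcases mem_union.1 ha with ha | ha <;> rcases mem_union.1 hb with hb | hb
          · exact hJi a ha b hb
          · exact hcross a ha b hb
          · exact fun h => hcross b hb a ha h.symm
          · exact hI2 a ha b hb
        · rw [card_union_of_disjoint hdis, ← card_sdiff_add_card_eq_card hNX, mul_add, mul_add]
          omega
      · exact Or.inr ⟨H, hH1.trans sdiff_subset, hH2⟩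
    · rcases X.eq_empty_or_nonempty with rfl | ⟨x, hx⟩
      · exact Or.inl ⟨∅, Subset.refl _, fun a ha => absurd ha (notMem_empty a), by simp⟩
      · right
        refine ⟨X.filter fun z => (res G X).Reachable x z, filter_subset _ _,
          ⟨x, mem_filter.2 ⟨hx, SimpleGraph.Reachable.refl x⟩⟩, ?_, ?_⟩
        · intro u hu v hv
          exact (ratio_reach (mem_filter.1 hu).2).symm.trans (ratio_reach (mem_filter.1 hv).2)
        · intro I hI hne hi
          have h1 : d * #I < c * #(nb (res G X) I) := by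
            by_contra hle
            exact hJ ⟨I, hI.trans (filter_subset _ _), hne, hi, by omega⟩
          refine h1.trans_le (Nat.mul_le_mul_left _ (card_le_card ?_))
          intro v hv
          rcases ratio_mem_nb.1 hv with hv | ⟨u, hu, hadj⟩
          · exact ratio_mem_nb.2 (Or.inl hv)
          · exact ratio_mem_nb.2 (Or.inr ⟨u, hu, hadj.1, hI hu,
              mem_filter.2 ⟨hadj.2.2, (mem_filter.1 (hI hu)).2.trans hadj.reachable⟩⟩)

omit [Fintype V] in
theorem ratio_cross {l : List V} {a w : V} (h : G.Reachable a w) (ha : a ∈ l) (hw : w ∉ l) :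
    ∃ p ∈ l, ∃ q, q ∉ l ∧ G.Adj p q := by
  rw [SimpleGraph.reachable_iff_reflTransGen] at h
  induction h with
  | refl => exact absurd ha hw
  | @tail b c _ hbc ih =>
    by_cases hb : b ∈ l
    · exact ⟨b, hb, c, hw, hbc⟩
    · exact ih hb

theorem ratio_ext (H : Finset V) (k : ℕ) (hin : ∀ u v, G.Adj u v → u ∈ H)
    (hconn : ∀ u ∈ H, ∀ v ∈ H, G.Reachable u v) (hnc : ¬Clq G H)
    (hexp : ∀ u ∈ H, ∀ v ∈ H, u ≠ v → ¬G.Adj u v → k ≤ #(nb G {u, v}))
    (a : V) (m : List V) (hp : Path G (a :: m)) (hH : ∀ z ∈ a :: m, z ∈ H)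
    (hk : (a :: m).length < k) :
    ∃ l : List V, Path G l ∧ l.length = (a :: m).length + 1 ∧ ∀ z ∈ l, z ∈ H := by
  by_cases h1 : ∃ w, w ∉ a :: m ∧ G.Adj a w
  · obtain ⟨w, hw, hadj⟩ := h1
    refine ⟨w :: a :: m, ⟨List.nodup_cons.2 ⟨hw, hp.1⟩, ?_⟩, rfl, ?_⟩
    · exact List.isChain_cons_cons.2 ⟨hadj.symm, hp.2⟩
    · intro z hz
      rcases List.mem_cons.1 hz with rfl | hz
      · exact hin _ _ hadj.symm
      · exact hH z hz
  have hsmall : ∀ S : Finset V, (∀ v ∈ S, v ∈ a :: m) → #S < k := by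
    intro S hS
    have h2 : S ⊆ (a :: m).toFinset := fun v hv => List.mem_toFinset.2 (hS v hv)
    exact ((card_le_card h2).trans (List.toFinset_card_le _)).trans_lt hk
  have hout : ∃ w ∈ H, w ∉ a :: m := by
    by_contra hno
    push Not at hno
    unfold Clq at hnc
    push Not at hnc
    obtain ⟨u, hu, v, hv, huv, hadj⟩ := hnc
    have h3 := hexp u hu v hv huv hadj
    have h4 := hsmall (nb G {u, v}) (by
      intro x hx
      apply hno
      rcases ratio_mem_nb.1 hx with hx | ⟨y, _, hy⟩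
      · rcases mem_insert.1 hx with rfl | hx
        · exact hu
        · rw [mem_singleton.1 hx]; exact hv
      · exact hin _ _ hy.symm)
    omega
  obtain ⟨w, hwH, hw⟩ := hout
  obtain ⟨p, hpl, q, hq, hpq⟩ := ratio_cross (hconn a (hH a (by simp)) w hwH) (by simp) hw
  have hpa : p ≠ a := by
    rintro rfl
    exact h1 ⟨q, hq, hpq⟩
  rcases List.eq_nil_or_concat m with rfl | ⟨M, z, rfl⟩
  · exact absurd (List.mem_singleton.1 hpl) hpa
  rw [List.concat_eq_append] at *
  by_cases h2 : ∃ w, w ∉ a :: (M ++ [z]) ∧ G.Adj z w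
  · obtain ⟨w, hw, hadj⟩ := h2
    refine ⟨(a :: M) ++ z :: [w], ⟨?_, ?_⟩, by simp, ?_⟩
    · have e : (a :: M) ++ z :: [w] = (a :: (M ++ [z])) ++ [w] := by simp
      rw [e, List.nodup_append]
      refine ⟨hp.1, by simp, ?_⟩
      intro x hx y hy hxy
      rw [List.mem_singleton.1 hy] at hxy
      exact hw (hxy ▸ hx)
    · rw [List.isChain_split]
      exact ⟨hp.2, by simpa using hadj⟩
    · intro x hx
      have e : (a :: M) ++ z :: [w] = (a :: (M ++ [z])) ++ [w] := by simp
      rw [e] at hx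
      rcases List.mem_append.1 hx with hx | hx
      · exact hH x hx
      · rw [List.mem_singleton.1 hx]; exact hin _ _ hadj.symm
  have haz : a ≠ z := by
    rintro rfl
    exact (List.nodup_cons.1 hp.1).1 (by simp)
  have hadj : G.Adj a z := by
    by_contra hna
    have h3 := hexp a (hH a (by simp)) z (hH z (by simp)) haz hna
    have h4 := hsmall (nb G {a, z}) (by
      intro x hx
      rcases ratio_mem_nb.1 hx with hx | ⟨y, hy, hyx⟩
      · rcases mem_insert.1 hx with rfl | hx
        · simp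
        · rw [mem_singleton.1 hx]; simp
      · by_contra hxl
        rcases mem_insert.1 hy with rfl | hy
        · exact h1 ⟨x, hxl, hyx⟩
        · rw [mem_singleton.1 hy] at hyx
          exact h2 ⟨x, hxl, hyx⟩)
    omega
  have hpz : p ≠ z := by
    rintro rfl
    exact h2 ⟨q, hq, hpq⟩
  have hpM : p ∈ M := by
    simp only [List.mem_cons, List.mem_append, List.not_mem_nil, or_false] at hpl
    tauto
  obtain ⟨A, B, rfl⟩ := List.append_of_mem hpM
  have hperm : (B ++ z :: a :: (A ++ p :: [q])).Perm (q :: a :: (A ++ p :: B ++ [z])) := by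
    rw [List.perm_iff_count]
    intro x
    simp only [List.count_append, List.count_cons, List.count_nil]
    omega
  have hch := hp.2
  have e : a :: (A ++ p :: B ++ [z]) = (a :: A) ++ p :: (B ++ [z]) := by simp
  rw [e, List.isChain_split] at hch
  refine ⟨B ++ z :: a :: (A ++ p :: [q]), ⟨?_, ?_⟩, ?_, ?_⟩
  · exact hperm.nodup_iff.2 (List.nodup_cons.2 ⟨hq, hp.1⟩)
  · rw [List.isChain_split]
    refine ⟨hch.2.tail, List.isChain_cons_cons.2 ⟨hadj.symm, ?_⟩⟩
    rw [← List.cons_append, List.isChain_split]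
    exact ⟨hch.1, by simpa using hpq⟩
  · rw [hperm.length_eq]; rfl
  · intro x hx
    rcases List.mem_cons.1 (hperm.subset hx) with rfl | hx
    · exact hin _ _ hpq.symm
    · exact hH x hx

theorem longpath (H : Finset V) (k : ℕ) (hin : ∀ u v, G.Adj u v → u ∈ H)
    (hconn : ∀ u ∈ H, ∀ v ∈ H, G.Reachable u v) (hnc : ¬Clq G H)
    (hexp : ∀ u ∈ H, ∀ v ∈ H, u ≠ v → ¬G.Adj u v → k ≤ #(nb G {u, v})) :
    ∃ l : List V, Path G l ∧ l.length = k ∧ ∀ z ∈ l, z ∈ H := by
  have key : ∀ n, n ≤ k → ∃ l : List V, Path G l ∧ l.length = n ∧ ∀ z ∈ l, z ∈ H := by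
    intro n
    induction n with
    | zero => exact fun _ => ⟨[], ⟨List.nodup_nil, List.isChain_nil⟩, rfl, by simp⟩
    | succ n ih =>
      intro hn
      obtain ⟨l, hl1, hl2, hl3⟩ := ih (by omega)
      obtain _ | ⟨a, m⟩ := l
      · have hne : H.Nonempty := by
          by_contra he
          exact hnc fun a ha => absurd ⟨a, ha⟩ he
        obtain ⟨a, ha⟩ := hne
        refine ⟨[a], ⟨by simp, by simp⟩, by rw [← hl2]; rfl, by simpa using ha⟩
      · rw [← hl2]
        exact ratio_ext H k hin hconn hnc hexp a m hl1 hl3 (by omega)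
  exact key k le_rfl

end Vale.Agent.P048
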