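import Vale.Agent.P048.Layer
import Vale.Agent.P048.Ratio

/-! Large independent sets in the distance levels. -/

namespace Vale.Agent.P048
open Finset
open scoped Classical

variable {V : Type} [Fintype V] {G : SimpleGraph V}

omit [Fintype V] in
theorem Level_par (v u : V) :
    ∃ w, ∀ n : ℕ, G.edist v u = ((n + 1 : ℕ) : ℕ∞) → G.Adj u w ∧ G.edist v w = (n : ℕ∞) := by
  by_cases h : ∃ n : ℕ, G.edist v u = ((n + 1 : ℕ) : ℕ∞)
  · obtain ⟨n, hn⟩ := h
    obtain ⟨p, hp⟩ := SimpleGraph.exists_walk_of_edist_eq_coe hn
    have hq : p.reverse.length = n + 1 := by rw [SimpleGraph.Walk.length_reverse, hp]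
    generalize p.reverse = q at hq
    cases q with
    | nil => simp at hq
    | @cons _ w _ hadj q' =>
      refine ⟨w, fun m hm => ⟨hadj, ?_⟩⟩
      have hmn : m = n := by
        rw [hn] at hm
        have := Nat.cast_injective (R := ℕ∞) hm
        omega
      subst hmn
      have h1 : G.edist v w ≤ (m : ℕ∞) := by
        have := SimpleGraph.edist_le q'.reverse
        rw [SimpleGraph.Walk.length_reverse] at this
        have h2 : q'.length = m := by simpa using hq
        rwa [h2] at this
      have h2 : G.edist v u ≤ G.edist v w + 1 := by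
        have := SimpleGraph.edist_triangle (G := G) (u := v) (v := w) (w := u)
        rwa [SimpleGraph.edist_eq_one_iff_adj.2 hadj.symm] at this
      rw [hn] at h2
      generalize G.edist v w = x at h1 h2
      cases x with
      | top => simp at h1
      | coe x =>
        have h3 : x ≤ m := by exact_mod_cast h1
        have h4 : m + 1 ≤ x + 1 := by exact_mod_cast h2
        have : x = m := by omega
        rw [this]
  · exact ⟨u, fun n hn => absurd ⟨n, hn⟩ h⟩

/-- The list of proper ancestors, from the oldest one down. -/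
def Level_down (f : V → V) (u : V) : ℕ → List V
  | 0 => []
  | m + 1 => f^[m + 1] u :: Level_down f u m

omit [Fintype V] in
theorem Level_down_len (f : V → V) (u : V) (m : ℕ) : (Level_down f u m).length = m := by
  induction m with
  | zero => rfl
  | succ m ih => simp [Level_down, ih]

omit [Fintype V] in
theorem Level_down_mem (f : V → V) (u : V) (m : ℕ) (z : V) (hz : z ∈ Level_down f u m) :
    ∃ s, 1 ≤ s ∧ s ≤ m ∧ z = f^[s] u := by
  induction m with
  | zero => simp [Level_down] at hz
  | succ m ih =>
    rw [Level_down, List.mem_cons] at hz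
    rcases hz with h | h
    · exact ⟨m + 1, by omega, le_rfl, h⟩
    · obtain ⟨s, h1, h2, h3⟩ := ih h
      exact ⟨s, h1, by omega, h3⟩

omit [Fintype V] in
theorem Level_anc {v : V} {f : V → V}
    (hf : ∀ u, ∀ n : ℕ, G.edist v u = ((n + 1 : ℕ) : ℕ∞) →
      G.Adj u (f u) ∧ G.edist v (f u) = (n : ℕ∞))
    {u : V} {i : ℕ} (hu : G.edist v u = (i : ℕ∞)) (s : ℕ) (hs : s ≤ i) :
    G.edist v (f^[s] u) = ((i - s : ℕ) : ℕ∞) := by
  induction s with
  | zero => simpa using hu
  | succ s ih =>
    have h := ih (by omega)
    rw [show i - s = (i - (s + 1)) + 1 by omega] at h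
    rw [Function.iterate_succ_apply']
    exact (hf _ _ h).2

omit [Fintype V] in
theorem Level_anc_adj {v : V} {f : V → V}
    (hf : ∀ u, ∀ n : ℕ, G.edist v u = ((n + 1 : ℕ) : ℕ∞) →
      G.Adj u (f u) ∧ G.edist v (f u) = (n : ℕ∞))
    {u : V} {i : ℕ} (hu : G.edist v u = (i : ℕ∞)) (s : ℕ) (hs : s + 1 ≤ i) :
    G.Adj (f^[s + 1] u) (f^[s] u) := by
  have h := Level_anc hf hu s (by omega)
  rw [show i - s = (i - (s + 1)) + 1 by omega] at h
  rw [Function.iterate_succ_apply']
  exact (hf _ _ h).1.symm

omit [Fintype V] in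
theorem Level_down_chain {v : V} {f : V → V}
    (hf : ∀ u, ∀ n : ℕ, G.edist v u = ((n + 1 : ℕ) : ℕ∞) →
      G.Adj u (f u) ∧ G.edist v (f u) = (n : ℕ∞))
    {u : V} {i : ℕ} (hu : G.edist v u = (i : ℕ∞)) (m : ℕ) (hm : m ≤ i) :
    List.IsChain G.Adj (Level_down f u m ++ [u]) := by
  induction m with
  | zero => simp [Level_down]
  | succ m ih =>
    have h1 := ih (by omega)
    have h2 := Level_anc_adj hf hu m hm
    cases m with
    | zero =>
      simp only [Level_down, List.cons_append, List.nil_append, List.isChain_cons_cons]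
      exact ⟨h2, List.IsChain.singleton _⟩
    | succ m =>
      rw [Level_down] at h1
      rw [Level_down, Level_down]
      simp only [List.cons_append, List.isChain_cons_cons] at h1 ⊢
      exact ⟨h2, h1⟩

omit [Fintype V] in
theorem Level_lev_ne {v x y : V} {a b : ℕ} (hx : G.edist v x = (a : ℕ∞))
    (hy : G.edist v y = (b : ℕ∞)) (hab : a ≠ b) : x ≠ y := by
  rintro rfl
  rw [hx] at hy
  exact hab (Nat.cast_injective (R := ℕ∞) hy)

omit [Fintype V] in
theorem Level_down_nodup {v : V} {f : V → V}
    (hf : ∀ u, ∀ n : ℕ, G.edist v u = ((n + 1 : ℕ) : ℕ∞) →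
      G.Adj u (f u) ∧ G.edist v (f u) = (n : ℕ∞))
    {u : V} {i : ℕ} (hu : G.edist v u = (i : ℕ∞)) (m : ℕ) (hm : m ≤ i) :
    (Level_down f u m).Nodup := by
  induction m with
  | zero => simp [Level_down]
  | succ m ih =>
    rw [Level_down, List.nodup_cons]
    refine ⟨fun h => ?_, ih (by omega)⟩
    obtain ⟨s, h1, h2, h3⟩ := Level_down_mem _ _ _ _ h
    exact Level_lev_ne (Level_anc hf hu (m + 1) hm) (Level_anc hf hu s (by omega)) (by omega) h3

omit [Fintype V] in
theorem Level_res_mem (H : Finset V) (b : V) (l : List V) (a : V)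
    (h : List.IsChain (res G H).Adj (a :: l ++ [b])) : ∀ z ∈ a :: l ++ [b], z ∈ H := by
  induction l generalizing a with
  | nil =>
    simp only [List.cons_append, List.nil_append, List.isChain_cons_cons] at h
    intro z hz
    simp only [List.cons_append, List.nil_append, List.mem_cons, List.not_mem_nil, or_false] at hz
    rcases hz with rfl | rfl
    · exact h.1.2.1
    · exact h.1.2.2
  | cons c l ih =>
    simp only [List.cons_append, List.isChain_cons_cons] at h
    intro z hz
    rw [List.cons_append, List.mem_cons] at hz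
    rcases hz with rfl | hz
    · exact h.1.2.1
    · exact ih c h.2 z hz

omit [Fintype V] in
theorem Level_cone (c : V) (l : List V) (hl : List.IsChain G.Adj l) (h : ∀ z ∈ l, G.Adj c z)
    (hne : l ≠ []) : List.IsChain G.Adj (c :: l ++ [c]) := by
  have key : ∀ (l : List V) (a : V), List.IsChain G.Adj (a :: l) → (∀ z ∈ a :: l, G.Adj c z) →
      List.IsChain G.Adj (a :: l ++ [c]) := by
    intro l
    induction l with
    | nil =>
      intro a _ h
      simp only [List.cons_append, List.nil_append, List.isChain_cons_cons]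
      exact ⟨(h a (by simp)).symm, List.IsChain.singleton _⟩
    | cons b l ih =>
      intro a h1 h2
      rw [List.isChain_cons_cons] at h1
      have := ih b h1.2 fun z hz => h2 z (List.mem_cons_of_mem _ hz)
      simp only [List.cons_append, List.isChain_cons_cons] at this ⊢
      exact ⟨h1.1, this⟩
  cases l with
  | nil => exact absurd rfl hne
  | cons a l =>
    have := key l a hl h
    simp only [List.cons_append, List.isChain_cons_cons] at this ⊢
    exact ⟨h a (by simp), this⟩

theorem Level_core {k t : ℕ} (hc : Ctx G k t) (hk : 6 ≤ k) (ht : 2 * t ≤ k) (v : V) (i : ℕ)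
    (hi : 2 * i ≤ k) (H : Finset V) (hH : H ⊆ lev G v i)
    (hconn : ∀ u ∈ H, ∀ w ∈ H, (res G H).Reachable u w) (hnc : ¬Clq G H)
    (ha : ∀ u ∈ H, ∀ w ∈ H, u ≠ w → ¬G.Adj u w → k ≤ #(nb (res G H) {u, w}))
    (hb : 2 ≤ i → ∀ I ⊆ H, I.Nonempty → Indep G I → k / 2 * #I < #(nb (res G H) I)) : False := by
  choose f hf using Level_par (G := G) v
  have hL : ∀ u ∈ H, G.edist v u = (i : ℕ∞) := fun u hu => by
    simpa [lev] using hH hu
  have hex : ∃ j, ∀ u ∈ H, ∀ w ∈ H, f^[j] u = f^[j] w := by
    refine ⟨i, fun u hu w hw => ?_⟩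
    have h1 := Level_anc hf (hL u hu) i le_rfl
    have h2 := Level_anc hf (hL w hw) i le_rfl
    simp only [Nat.sub_self, Nat.cast_zero, SimpleGraph.edist_eq_zero_iff] at h1 h2
    rw [← h1, ← h2]
  have hji : Nat.find hex ≤ i := by
    apply Nat.find_min'
    intro u hu w hw
    have h1 := Level_anc hf (hL u hu) i le_rfl
    have h2 := Level_anc hf (hL w hw) i le_rfl
    simp only [Nat.sub_self, Nat.cast_zero, SimpleGraph.edist_eq_zero_iff] at h1 h2
    rw [← h1, ← h2]
  have hj := Nat.find_spec hex
  have hmin : ∀ m < Nat.find hex, ¬∀ u ∈ H, ∀ w ∈ H, f^[m] u = f^[m] w :=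
    fun m hm => Nat.find_min hex hm
  generalize Nat.find hex = j at hji hj hmin
  have hin : ∀ u w, (res G H).Adj u w → u ∈ H := fun u w h => h.2.1
  have hle : ∀ {a b : V}, (res G H).Adj a b → G.Adj a b := fun h => h.1
  match j, hji, hj, hmin with
  | 0, _, hj, _ =>
    exact hnc fun a ha b hb hab => absurd (hj a ha b hb) hab
  | 1, hji, hj, _ =>
    obtain ⟨l, hl, hlen, hlH⟩ := longpath (G := res G H) H k hin hconn
      (fun h => hnc fun a ha b hb hab => (h a ha b hb hab).1)
      (fun u hu w hw huw hn => ha u hu w hw huw fun h => hn ⟨h, hu, hw⟩)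
    have hne : l ≠ [] := by
      rintro rfl
      simp at hlen
      omega
    obtain ⟨u, hu⟩ := List.exists_mem_of_ne_nil l hne
    refine hc.cyc ⟨f^[1] u, l, ?_, by rw [hlen], ?_⟩
    · rw [List.nodup_cons]
      refine ⟨fun h => ?_, hl.1⟩
      exact Level_lev_ne (Level_anc hf (hL u (hlH u hu)) 1 hji) (hL _ (hlH _ h)) (by omega) rfl
    · refine Level_cone _ l (hl.2.imp fun _ _ h => hle h) (fun z hz => ?_) hne
      rw [hj u (hlH u hu) z (hlH z hz)]
      exact Level_anc_adj hf (hL z (hlH z hz)) 0 hji
  | j + 2, hji, hj, hmin =>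
    have hcol : ∃ u ∈ H, ∃ w ∈ H, f^[j + 1] u ≠ f^[j + 1] w := by
      have := hmin (j + 1) (by omega)
      by_contra hcon
      apply this
      intro u hu w hw
      by_contra h
      exact hcon ⟨u, hu, w, hw, h⟩
    obtain ⟨a, b, l, hP, hlen, hab⟩ := layer (G := res G H) H (k / 2) (k - 2 * (j + 2)) (by omega)
      hin hconn
      (fun I hI hne hind => hb (by omega) I hI hne fun x hx y hy h =>
        hind x hx y hy ⟨h, hI hx, hI hy⟩)
      (fun S hS => by
        have := hc.clq S fun x hx y hy hxy => (hS x hx y hy hxy).1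
        omega)
      (fun u => f^[j + 1] u) hcol (by omega)
    have hmem := Level_res_mem H b l a hP.2
    have haH : a ∈ H := hmem a (by simp)
    have hbH : b ∈ H := hmem b (by simp)
    have hch : List.IsChain G.Adj (a :: l ++ [b]) := hP.2.imp fun _ _ h => hle h
    have c1 := Level_down_chain hf (hL a haH) (j + 2) hji
    have c2 := Level_down_chain hf (hL b hbH) (j + 2) hji
    have c3 : List.IsChain G.Adj (Level_down f b (j + 2) ++ [b]).reverse := by
      rw [List.isChain_reverse]
      exact c2.imp fun _ _ h => h.symm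
    rw [Level_down, ← hj a haH b hbH] at c3
    rw [Level_down] at c1
    refine hc.cyc ⟨f^[j + 1 + 1] a,
      Level_down f a (j + 1) ++ ((a :: l ++ [b]) ++ (Level_down f b (j + 1)).reverse), ?_, ?_, ?_⟩
    · have hda : ∀ z ∈ Level_down f a (j + 1), ∃ s, 1 ≤ s ∧ s ≤ j + 1 ∧ z = f^[s] a :=
        Level_down_mem f a (j + 1)
      have hdb : ∀ z ∈ (Level_down f b (j + 1)).reverse, ∃ s, 1 ≤ s ∧ s ≤ j + 1 ∧ z = f^[s] b :=
        fun z hz => Level_down_mem f b (j + 1) z (List.mem_reverse.1 hz)
      have htop := Level_anc hf (hL a haH) (j + 1 + 1) hji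
      rw [List.nodup_cons, List.nodup_append, List.nodup_append]
      refine ⟨fun h => ?_, Level_down_nodup hf (hL a haH) _ (by omega),
        ⟨hP.1, List.nodup_reverse.2 (Level_down_nodup hf (hL b hbH) _ (by omega)), ?_⟩, ?_⟩
      · rw [List.mem_append, List.mem_append] at h
        rcases h with h | h | h
        · obtain ⟨s, h1, h2, h3⟩ := hda _ h
          exact Level_lev_ne htop (Level_anc hf (hL a haH) s (by omega)) (by omega) h3
        · exact Level_lev_ne htop (hL _ (hmem _ h)) (by omega) rfl
        · obtain ⟨s, h1, h2, h3⟩ := hdb _ h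
          exact Level_lev_ne htop (Level_anc hf (hL b hbH) s (by omega)) (by omega) h3
      · intro x hx y hy
        obtain ⟨s, h1, h2, rfl⟩ := hdb _ hy
        exact Level_lev_ne (hL _ (hmem _ hx)) (Level_anc hf (hL b hbH) s (by omega)) (by omega)
      · intro x hx y hy
        obtain ⟨s, h1, h2, rfl⟩ := hda _ hx
        rw [List.mem_append] at hy
        rcases hy with hy | hy
        · exact Level_lev_ne (Level_anc hf (hL a haH) s (by omega)) (hL _ (hmem _ hy)) (by omega)
        · obtain ⟨s', h1', h2', rfl⟩ := hdb _ hy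
          by_cases hss : s = s'
          · subst hss
            intro h
            apply hab
            show f^[j + 1] a = f^[j + 1] b
            rw [show j + 1 = (j + 1 - s) + s by omega, Function.iterate_add_apply,
              Function.iterate_add_apply, h]
          · exact Level_lev_ne (Level_anc hf (hL a haH) s (by omega))
              (Level_anc hf (hL b hbH) s' (by omega)) (by omega)
    · simp only [List.length_append, List.length_cons, List.length_reverse, Level_down_len, hlen,
        List.length_nil]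
      omega
    · have e : f^[j + 1 + 1] a :: (Level_down f a (j + 1) ++ ((a :: l ++ [b]) ++
          (Level_down f b (j + 1)).reverse)) ++ [f^[j + 1 + 1] a] =
          (f^[j + 1 + 1] a :: Level_down f a (j + 1)) ++ a :: (l ++ b ::
            ((Level_down f b (j + 1)).reverse ++ [f^[j + 1 + 1] a])) := by simp
      rw [e, List.isChain_split]
      refine ⟨c1, ?_⟩
      rw [← List.cons_append, List.isChain_split]
      refine ⟨hch, ?_⟩
      simpa using c3

theorem Level_nb_sub (H I : Finset V) (hI : I ⊆ H) : nb (res G H) I ⊆ H := by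
  intro z hz
  simp only [nb, mem_filter, mem_univ, true_and] at hz
  rcases hz with h | ⟨u, _, h⟩
  · exact hI h
  · exact h.2.2

omit [Fintype V] in
theorem Level_indep_pair {u w : V} (h : ¬G.Adj u w) : Indep G {u, w} := by
  intro a ha b hb
  simp only [mem_insert, mem_singleton] at ha hb
  rcases ha with rfl | rfl <;> rcases hb with rfl | rfl
  · exact G.loopless.irrefl _
  · exact h
  · exact fun h' => h h'.symm
  · exact G.loopless.irrefl _

omit [Fintype V] in
theorem Level_indep_one (u : V) : Indep G {u} := by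
  intro a ha b hb
  simp only [mem_singleton] at ha hb
  subst ha hb
  exact G.loopless.irrefl _

theorem level1 {k t : ℕ} (hc : Ctx G k t) (hk : 6 ≤ k) (ht : 2 * t ≤ k) (v : V) :
    ∃ I ⊆ lev G v 1, Indep G I ∧ 2 * #(lev G v 1) ≤ (k - 1) * #I := by
  rcases ratio (G := G) 2 (k - 1) (lev G v 1) with h | ⟨H, hH, ⟨u, hu⟩, hconn, hexp⟩
  · exact h
  exfalso
  refine Level_core hc hk ht v 1 (by omega) H hH hconn (fun hq => ?_) ?_ (fun h => by omega)
  · have hadj : ∀ z ∈ H, G.Adj v z := fun z hz => by
      have := hH hz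
      simp only [lev, mem_filter, mem_univ, true_and, Nat.cast_one] at this
      exact SimpleGraph.edist_eq_one_iff_adj.1 this
    have hv : v ∉ H := fun h => G.loopless.irrefl _ (hadj v h)
    have h1 : Clq G (insert v H) := by
      intro a ha b hb hab
      rw [mem_insert] at ha hb
      rcases ha with rfl | ha <;> rcases hb with rfl | hb
      · exact absurd rfl hab
      · exact hadj b hb
      · exact (hadj a ha).symm
      · exact hq a ha b hb hab
    have h2 := hc.clq _ h1
    rw [card_insert_of_notMem hv] at h2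
    have h3 := hexp {u} (by simpa using hu) (by simp) (Level_indep_one u)
    have h4 := card_le_card (Level_nb_sub (G := G) H {u} (by simpa using hu))
    rw [card_singleton] at h3
    omega
  · intro a ha b hb hab hn
    have h3 := hexp {a, b} (by
      intro z hz
      simp only [mem_insert, mem_singleton] at hz
      rcases hz with rfl | rfl <;> assumption) (by simp) (Level_indep_pair hn)
    rw [card_pair hab] at h3
    omega

theorem level {k t : ℕ} (hc : Ctx G k t) (hk : 6 ≤ k) (ht : 2 * t ≤ k) (v : V) (i : ℕ)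
    (h1 : 1 ≤ i) (hi : 2 * i ≤ k) :
    ∃ I ⊆ lev G v i, Indep G I ∧ #(lev G v i) ≤ k / 2 * #I := by
  have _h := h1
  rcases ratio (G := G) 1 (k / 2) (lev G v i) with h | ⟨H, hH, ⟨u, hu⟩, hconn, hexp⟩
  · simpa using h
  exfalso
  refine Level_core hc hk ht v i hi H hH hconn (fun hq => ?_) ?_ ?_
  · have h2 := hc.clq _ hq
    have h3 := hexp {u} (by simpa using hu) (by simp) (Level_indep_one u)
    have h4 := card_le_card (Level_nb_sub (G := G) H {u} (by simpa using hu))
    rw [card_singleton] at h3
    omega
  · intro a ha b hb hab hn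
    have h3 := hexp {a, b} (by
      intro z hz
      simp only [mem_insert, mem_singleton] at hz
      rcases hz with rfl | rfl <;> assumption) (by simp) (Level_indep_pair hn)
    rw [card_pair hab] at h3
    omega
  · intro _ I hI hne hind
    simpa using hexp I hI hne hind

end Vale.Agent.P048
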