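import Vale.Agent.P048.SysC
import Vale.Agent.P048.SysD
import Vale.Agent.P048.ChkB
import Vale.Agent.P048.CertAll

/-! The case of a clique with at most eight vertices. -/

namespace Vale.Agent.P048
open Finset
open scoped Classical

variable {V : Type} [Fintype V] {G : SimpleGraph V}

theorem testBit_mkB (p : ℕ → Bool) (m i : ℕ) :
    (mkB p m).testBit i = true ↔ i < m ∧ p i = true := by
  induction m with
  | zero => simp [mkB]
  | succ m ih =>
    rw [mkB, frc_eq, Nat.lt_succ_iff_lt_or_eq]
    cases h : p m with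
    | false =>
      rw [cond_false, ih]
      refine ⟨fun h => ⟨Or.inl h.1, h.2⟩, fun h' => ⟨h'.1.resolve_right fun e => ?_, h'.2⟩⟩
      rw [← e, h'.2] at h
      exact absurd h (by simp)
    | true =>
      rw [cond_true, Nat.testBit_or, Bool.or_eq_true, ih, Nat.testBit_two_pow, decide_eq_true_eq]
      refine ⟨fun h' => h'.elim (fun h => ⟨Or.inl h.1, h.2⟩) fun e => ⟨Or.inr e.symm, e ▸ h⟩,
        fun h' => h'.1.elim (fun h1 => Or.inl ⟨h1, h'.2⟩) fun e => Or.inr e.symm⟩

theorem mem_enum : ∀ (l : List ℕ) (s : ℕ), l.sum ≤ s → l ∈ enum l.length s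
  | [], _, _ => by simp [enum]
  | a :: l, s, h => by
    rw [List.sum_cons] at h
    simp only [List.length_cons, enum, List.mem_flatMap, List.mem_range, List.mem_map]
    exact ⟨a, by omega, l, mem_enum l (s - a) (by omega), rfl⟩

theorem normalB_of {l : List ℕ} (h : Normal l) : normalB l = true := by
  simp only [normalB, frc_eq, allB_iff, Bool.or_eq_true, Bool.not_eq_true', Nat.ble_eq]
  intro j hj
  by_cases h1 : l.getD j 0 = 0
  · refine Or.inr fun i hi => ?_
    by_cases h2 : l.getD i 0 = 0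
    · exact Or.inr (h i j hi (by omega) h2 h1)
    · exact Or.inl (Bool.eq_false_iff.2 fun h => h2 (Nat.eq_of_beq_eq_true h))
  · exact Or.inl (Bool.eq_false_iff.2 fun h => h1 (Nat.eq_of_beq_eq_true h))

theorem small {k t : ℕ} (hc : Ctx G k t) (h5 : 5 ≤ k) (ht : t ≤ 8) (hk : k + 1 ≤ 2 * t) :
    False := by
  obtain ⟨Q, S, hQ, hQt, ho, hL, hN⟩ := exists_opt hc (by omega)
  obtain ⟨D, hD, hP⟩ := all_cert h5 ht (by omega) hk
  have hm : S.am ∈ pats k t := by
    have h1 := S.am_length
    have h2 := S.am_sum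
    have h3 := S.am_head
    refine List.mem_filter.2 ⟨?_, normalB_of hN⟩
    generalize S.am = l at h1 h2 h3
    cases l with
    | nil => simp at h1; omega
    | cons a l =>
      obtain rfl : a = 0 := by simpa using h3
      refine List.mem_map.2 ⟨l, ?_, rfl⟩
      simp only [List.length_cons, List.sum_cons] at h1 h2
      rw [show t - 1 = l.length by omega]
      exact mem_enum l _ (by omega)
  rw [hP] at hm
  obtain ⟨y, hy, e⟩ := List.mem_map.1 hm
  have h := List.all_eq_true.1 hD y hy
  obtain ⟨x, x1, x2, x3, x4⟩ := S.flat_spec hQ hQt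
  simp only [chkP, frc_eq, e, S.am_sum, ← S.e_eq] at h
  have hq : ∀ i < t + S.L,
      (x i ∈ Q ↔ (mkB (fun i => (qpat S.am).getD i false) 16).testBit i = true) := by
    intro i hi
    rw [testBit_mkB, x3 i hi]
    exact ⟨fun h => ⟨by omega, h⟩, fun h => h.2⟩
  generalize mkB (fun i => (qpat S.am).getD i false) 16 = qm at h hq
  refine chk_ok (G := G) (P := ⟨k, t, t + S.L, S.L, S.e, qm⟩) (x := x) (Q := Q)
    ⟨hc, h5, by show k ≤ 15; omega, hk, by show t ≤ k; omega, by show t + S.L ≤ k; omega,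
      x1, hq, x4, ho⟩ _ _ _ _ _ ?_ ?_ ?_ ?_ h
  · intro u hu v hv hb
    change u < t + S.L at hu
    change v < t + S.L at hv
    rw [testBit_mkB, show (16 * u + v) / 16 = u by omega, show (16 * u + v) % 16 = v by omega] at hb
    have h2 := hb.2
    simp only [adj0, Bool.or_eq_true, Bool.and_eq_true, Nat.beq_eq, Bool.not_eq_true'] at h2
    rcases h2 with rfl | rfl | ⟨h3, h4, h6⟩
    · exact x2 u hv
    · exact (x2 v hu).symm
    · exact hQ _ ((hq u hu).2 h4) _ ((hq v hv).2 h6)
        fun e => Nat.ne_of_beq_eq_false h3 (x1 u hu v hv e)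
  · intro u _ v _ d _ h; simp at h
  · intro u _ h; simp at h
  · intro u _ h; simp at h

end Vale.Agent.P048
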