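import Vale.Agent.P048.TinyB

/-! The smallest cases by a checked search tree. -/

namespace Vale.Agent.P048
open Finset
open scoped Classical

variable {V : Type} [Fintype V] {G : SimpleGraph V}

theorem tiny {k t : ℕ} (hc : Ctx G k t) (h : k = 3 ∨ k = 4 ∨ (k = 5 ∧ t ≤ 2)) : False := by
  have hpos := hc.pos
  have hbig : ∀ S, Clq G S → #S ≤ k * k + 1 := fun S _ => (card_le_univ S).trans hc.card
  rcases h with rfl | rfl | ⟨rfl, h⟩
  · by_cases h4 : 4 ≤ t
    · exact TinyC.start hc hbig 4 h4 (by norm_num) (.cyc 0 [1, 2, 3]) (by decide +kernel)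
    · obtain rfl | rfl | rfl : t = 1 ∨ t = 2 ∨ t = 3 := by omega
      · exact TinyC.start hc hc.clq 1 le_rfl (by norm_num) _ TinyC.c31
      · exact TinyC.start hc hc.clq 2 le_rfl (by norm_num) _ TinyC.c32
      · exact TinyC.start hc hc.clq 3 le_rfl (by norm_num) _ TinyC.c33
  · by_cases h4 : 5 ≤ t
    · exact TinyC.start hc hbig 5 h4 (by norm_num) (.cyc 0 [1, 2, 3, 4]) (by decide +kernel)
    · obtain rfl | rfl | rfl | rfl : t = 1 ∨ t = 2 ∨ t = 3 ∨ t = 4 := by omega
      · exact TinyC.start hc hc.clq 1 le_rfl (by norm_num) _ TinyC.c41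
      · exact TinyC.start hc hc.clq 2 le_rfl (by norm_num) _ TinyC.c42
      · exact TinyC.start hc hc.clq 3 le_rfl (by norm_num) _ TinyC.c43
      · exact TinyC.start hc hc.clq 4 le_rfl (by norm_num) _ TinyC.c44
  · obtain rfl | rfl : t = 1 ∨ t = 2 := by omega
    · exact TinyC.start hc hc.clq 1 le_rfl (by norm_num) _ TinyC.c51
    · exact TinyC.start hc hc.clq 2 le_rfl (by norm_num) _ TinyC.c52

end Vale.Agent.P048
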