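import Vale.Agent.P048.RedB
import Vale.Agent.P048.Tiny
import Vale.Agent.P048.BFS
import Vale.Agent.P048.Big
import Vale.Agent.P048.Small

/-! The cycle versus clique Ramsey numbers. -/

namespace Vale.Agent.P048
open Finset
open scoped Classical

variable {V : Type} [Fintype V] {G : SimpleGraph V}

theorem not_ctx {k t : ℕ} (hk : 3 ≤ k) : ¬Ctx G k t := by
  intro hc
  by_cases h : k = 3 ∨ k = 4 ∨ (k = 5 ∧ t ≤ 2)
  · exact tiny hc h
  have h5 : 5 ≤ k := by omega
  have hkt : k + 1 ≤ 2 * t := by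
    by_cases h6 : 6 ≤ k
    · exact bfs hc h6
    · omega
  by_cases ht : t ≤ 8
  · exact small hc h5 ht hkt
  · exact big hc (by omega) hkt

theorem main (m n : ℕ) (hn : 3 ≤ n) (hmn : n ≤ m) (h : (m, n) ≠ (3, 3)) :
    IsLeast {N : ℕ | ∀ K : SimpleGraph (Fin N),
      (SimpleGraph.cycleGraph m).IsContained K ∨ (⊤ : SimpleGraph (Fin n)).IsContained Kᶜ}
      ((m - 1) * (n - 1) + 1) := by
  have hm : 4 ≤ m := by
    by_contra hm
    exact h (Prod.ext (by omega) (by omega))
  exact ramsey m n (by omega) (by omega) hmn fun W _ K t => not_ctx (by omega)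

end Vale.Agent.P048
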