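import Vale.Agent.P048.Defs

/-! Reduction to a minimal counterexample. -/

namespace Vale.Agent.P048
open Finset
open scoped Classical

theorem redA_cyc {V : Type} {G : SimpleGraph V} {X : Finset V} {n : ℕ}
    (h : Cyc (G.comap (Subtype.val : X → V)) n) : Cyc G n := by
  obtain ⟨a, l, h1, h2, h3⟩ := h
  refine ⟨a.1, l.map Subtype.val, ?_, by simpa using h2, ?_⟩
  · rw [← List.map_cons]
    exact h1.map Subtype.val_injective
  · have : (a.1 :: l.map Subtype.val ++ [a.1]) = (a :: l ++ [a]).map Subtype.val := by simp
    rw [this, List.isChain_map]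
    exact h3

theorem redA_ind {V : Type} {G : SimpleGraph V} {X : Finset V} {J : Finset X}
    (h : Indep (G.comap (Subtype.val : X → V)) J) :
    Indep G (J.map (Function.Embedding.subtype _)) := by
  intro a ha b hb
  obtain ⟨a', ha', rfl⟩ := mem_map.1 ha
  obtain ⟨b', hb', rfl⟩ := mem_map.1 hb
  exact h a' ha' b' hb'

theorem redA_aux (k : ℕ)
    (H : ∀ (W : Type) [Fintype W] (K : SimpleGraph W) (t : ℕ), ¬Ctx K k t) (a : ℕ) :
    a ≤ k → ∀ (V : Type) [Fintype V] (G : SimpleGraph V), k * a + 1 ≤ Fintype.card V →
      (∀ I, Indep G I → #I ≤ a) → Cyc G (k + 1) := by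
  induction a using Nat.strong_induction_on with
  | _ a ih =>
  intro ha V _ G hV hI
  obtain ⟨X, -, hX⟩ := Finset.exists_subset_card_eq (s := (univ : Finset V)) (n := k * a + 1)
    (by simpa using hV)
  refine redA_cyc (X := X) ?_
  set K := G.comap (Subtype.val : X → V) with hK
  have hW : Fintype.card X = k * a + 1 := by simpa using hX
  have hI' : ∀ I, Indep K I → #I ≤ a := fun I h => by
    simpa using hI _ (redA_ind h)
  clear_value K
  by_contra hc
  obtain ⟨Q, hQ, hmax⟩ := Finset.exists_max_image ((univ : Finset (Finset X)).filter (Clq K))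
    card ⟨∅, by simp [Clq]⟩
  have hclq : ∀ S, Clq K S → #S ≤ #Q := fun S hS => hmax S (by simpa using hS)
  refine H X K (#Q) ⟨?_, fun I h => (hI' I h).trans ha, hc, hclq, ⟨Q, by simpa using hQ, rfl⟩,
    ?_, ?_⟩
  · intro I hne hind
    by_contra hlt
    have hIa := hI' I hind
    have hpos := hne.card_pos
    apply hc
    refine redA_cyc (X := (nb K I)ᶜ) (ih (a - #I) (by omega) (by omega) _ _ ?_ ?_)
    · have h1 : Fintype.card ((nb K I)ᶜ : Finset X) = Fintype.card X - #(nb K I) := by
        rw [Fintype.card_coe, Finset.card_compl]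
      rw [h1, hW]
      have h2 : k * a = k * (a - #I) + k * #I := by
        rw [← Nat.mul_add]; congr 1; omega
      omega
    · intro J hJ
      have h1 := redA_ind hJ
      set J' := J.map (Function.Embedding.subtype _) with hJ'
      have hJc : #J' = #J := card_map _
      have hout : ∀ v ∈ J', v ∉ I ∧ ∀ u ∈ I, ¬K.Adj u v := by
        intro v hv
        obtain ⟨v', -, rfl⟩ := mem_map.1 hv
        have := mem_compl.1 v'.2
        simp only [nb, mem_filter, mem_univ, true_and, not_or, not_exists, not_and] at this
        exact this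
      have hdis : Disjoint J' I := Finset.disjoint_left.2 fun v hv => (hout v hv).1
      have h2 : Indep K (J' ∪ I) := by
        intro u hu v hv
        rcases mem_union.1 hu with hu | hu <;> rcases mem_union.1 hv with hv | hv
        · exact h1 u hu v hv
        · exact fun h => (hout u hu).2 v hv h.symm
        · exact (hout v hv).2 u hu
        · exact hind u hu v hv
      have h3 := hI' _ h2
      rw [card_union_of_disjoint hdis] at h3
      omega
  · have : Nonempty X := Fintype.card_pos_iff.1 (by omega)
    obtain ⟨x⟩ := this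
    have := hclq {x} (by simp [Clq])
    simpa using this
  · rw [hW]
    have := Nat.mul_le_mul_left k ha
    omega

variable {V : Type} [Fintype V] {G : SimpleGraph V}

theorem red (k : ℕ)
    (H : ∀ (W : Type) [Fintype W] (K : SimpleGraph W) (t : ℕ), ¬Ctx K k t) (a : ℕ) (ha : a ≤ k)
    (hV : k * a + 1 ≤ Fintype.card V) (hI : ∀ I, Indep G I → #I ≤ a) : Cyc G (k + 1) :=
  redA_aux k H a ha V G hV hI

end Vale.Agent.P048
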