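import Vale.Agent.P048.RedA

/-! From cycles in minimal counterexamples to the Ramsey number. -/

namespace Vale.Agent.P048
open Finset
open scoped Classical

variable {V : Type} {G : SimpleGraph V}

theorem redB_sub {n : ℕ} {u v : Fin n} (h : (v - u).val = 1) :
    v.val = u.val + 1 ∨ (u.val + 1 = n ∧ v.val = 0) := by
  have hu := u.2
  have hv := v.2
  rw [Fin.sub_def] at h
  simp only at h
  by_cases h1 : n - u.val + v.val < n
  · rw [Nat.mod_eq_of_lt h1] at h; omega
  · rw [Nat.mod_eq_sub_mod (by omega), Nat.mod_eq_of_lt (by omega)] at h; omega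

theorem Cyc.contains {n : ℕ} (hn : 3 ≤ n) (h : Cyc G n) :
    (SimpleGraph.cycleGraph n).IsContained G := by
  obtain ⟨a, l, h1, h2, h3⟩ := h
  have hlen : (a :: l).length = n := by simpa using h2
  let f : Fin n → V := fun i => (a :: l)[i.val]'(by rw [hlen]; exact i.2)
  rw [List.isChain_iff_getElem] at h3
  have hlen' : (a :: l ++ [a]).length = n + 1 := by simp; omega
  have key : ∀ u v : Fin n, (v - u).val = 1 → G.Adj (f u) (f v) := by
    intro u v huv
    have hu := u.2
    have hv := v.2
    have h4 := h3 u.val (by rw [hlen']; omega)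
    rw [List.getElem_append_left (by rw [hlen]; omega)] at h4
    rcases redB_sub huv with h5 | ⟨h5, h6⟩
    · rw [List.getElem_append_left (by rw [hlen]; omega)] at h4
      simpa only [f, h5] using h4
    · rw [List.getElem_append_right (by rw [hlen]; omega)] at h4
      simpa [f, h6] using h4
  refine ⟨⟨⟨f, ?_⟩, ?_⟩⟩
  · intro u v huv
    rcases SimpleGraph.cycleGraph_adj'.1 huv with h | h
    · exact (key v u h).symm
    · exact key u v h
  · intro u v huv
    exact Fin.ext ((List.Nodup.getElem_inj_iff h1).1 huv)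

theorem lower (m n N : ℕ) (hm : 3 ≤ m) (hn : 1 ≤ n) (hN : N ≤ (m - 1) * (n - 1)) :
    ∃ K : SimpleGraph (Fin N),
      ¬(SimpleGraph.cycleGraph m).IsContained K ∧ ¬(⊤ : SimpleGraph (Fin n)).IsContained Kᶜ := by
  obtain ⟨k, rfl⟩ : ∃ k, m = k + 1 := ⟨m - 1, by omega⟩
  simp only [Nat.add_sub_cancel] at hN
  have hk : 0 < k := by omega
  let K : SimpleGraph (Fin N) :=
    { Adj := fun x y => x ≠ y ∧ x.val / k = y.val / k
      symm := ⟨fun _ _ h => ⟨h.1.symm, h.2.symm⟩⟩
      loopless := ⟨fun _ h => h.1 rfl⟩ }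
  refine ⟨K, ?_, ?_⟩
  · rintro ⟨c⟩
    have hconst : ∀ u v : Fin (k + 1), (c.toHom u).val / k = (c.toHom v).val / k := by
      intro u v
      obtain ⟨p⟩ := SimpleGraph.cycleGraph_preconnected u v
      induction p with
      | nil => rfl
      | cons h _ ih => exact (c.toHom.map_adj h).2.trans ih
    let g : Fin (k + 1) → Fin k := fun u => ⟨(c.toHom u).val % k, Nat.mod_lt _ hk⟩
    have hg : Function.Injective g := by
      intro u v huv
      have h1 : (c.toHom u).val % k = (c.toHom v).val % k := congrArg Fin.val huv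
      apply c.injective'
      apply Fin.ext
      rw [← Nat.div_add_mod (c.toHom u).val k, ← Nat.div_add_mod (c.toHom v).val k, h1, hconst u v]
    have := Fintype.card_le_of_injective g hg
    simp at this
  · rintro ⟨c⟩
    let g : Fin n → Fin (n - 1) := fun u => ⟨(c.toHom u).val / k, by
      rw [Nat.div_lt_iff_lt_mul hk, Nat.mul_comm]
      exact lt_of_lt_of_le (c.toHom u).2 hN⟩
    have hg : Function.Injective g := by
      intro u v huv
      by_contra hne
      have h1 : (c.toHom u).val / k = (c.toHom v).val / k := congrArg Fin.val huv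
      have h2 := c.toHom.map_adj (show (⊤ : SimpleGraph (Fin n)).Adj u v from hne)
      rw [SimpleGraph.compl_adj] at h2
      exact h2.2 ⟨h2.1, h1⟩
    have := Fintype.card_le_of_injective g hg
    simp only [Fintype.card_fin] at this
    omega

theorem ramsey (m n : ℕ) (hm : 3 ≤ m) (hn : 1 ≤ n) (hmn : n ≤ m)
    (H : ∀ (W : Type) [Fintype W] (K : SimpleGraph W) (t : ℕ), ¬Ctx K (m - 1) t) :
    IsLeast {N : ℕ | ∀ K : SimpleGraph (Fin N),
      (SimpleGraph.cycleGraph m).IsContained K ∨ (⊤ : SimpleGraph (Fin n)).IsContained Kᶜ}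
      ((m - 1) * (n - 1) + 1) := by
  constructor
  · intro K
    by_cases hI : ∀ I, Indep K I → #I ≤ n - 1
    · left
      have h := red (G := K) (m - 1) H (n - 1) (by omega) (by simp) hI
      rw [show m - 1 + 1 = m by omega] at h
      exact h.contains hm
    · right
      push Not at hI
      obtain ⟨I, hI, hc⟩ := hI
      obtain ⟨J, hJ, hJc⟩ := Finset.exists_subset_card_eq (s := I) (n := n) (by omega)
      let e : Fin n ≃ J := (J.equivFinOfCardEq hJc).symm
      refine ⟨⟨⟨fun u => (e u).1, ?_⟩, ?_⟩⟩
      · intro u v huv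
        rw [SimpleGraph.compl_adj]
        refine ⟨fun h => huv (e.injective (Subtype.ext h)), hI _ (hJ (e u).2) _ (hJ (e v).2)⟩
      · intro u v h
        exact e.injective (Subtype.ext h)
  · intro N hN
    by_contra hlt
    obtain ⟨K, h1, h2⟩ := lower m n N hm hn (by omega)
    exact (hN K).elim h1 h2

end Vale.Agent.P048
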