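import Vale.Agent.P048.SysH

/-! Path systems on a clique. -/

namespace Vale.Agent.P048
open Finset
open scoped Classical

variable {V : Type} {G : SimpleGraph V}

theorem cyc_mk {a : V} {l : List V} (nd : (a :: l).Nodup) (ch : (a :: l).IsChain G.Adj)
    (h : ∀ x ∈ (a :: l).getLast?, G.Adj x a) : Cyc G (l.length + 1) := by
  refine ⟨a, l, nd, rfl, ?_⟩
  rw [List.isChain_append]
  refine ⟨ch, by simp, ?_⟩
  intro x hx y hy
  have hy' : y = a := by simpa using hy.symm
  rw [hy']
  exact h x hx

theorem clq_chain {S : Finset V} (hS : Clq G S) {l : List V} (nd : l.Nodup) (hl : ∀ v ∈ l, v ∈ S) :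
    l.IsChain G.Adj := by
  apply List.Pairwise.isChain
  exact List.Pairwise.imp_of_mem (fun {a b} ha hb hab => hS a (hl a ha) b (hl b hb) hab) nd

theorem last_ne_head {a : V} {l : List V} (nd : (a :: l).Nodup) (hl : l ≠ []) :
    ∀ x ∈ (a :: l).getLast?, x ∈ l ∧ x ≠ a := by
  intro x hx
  obtain ⟨b, l', rfl⟩ := List.exists_cons_of_ne_nil hl
  rw [List.getLast?_cons_cons] at hx
  have hm : x ∈ b :: l' := List.mem_of_getLast? hx
  refine ⟨hm, fun h => ?_⟩
  rw [List.nodup_cons] at nd
  exact nd.1 (h ▸ hm)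

theorem cyc_of_clq {S : Finset V} (hS : Clq G S) {n : ℕ} (h2 : 2 ≤ n) (hn : n ≤ #S) : Cyc G n := by
  obtain ⟨T, hT, hc⟩ := Finset.exists_subset_card_eq hn
  have hlen : T.toList.length = n := by rw [Finset.length_toList, hc]
  have hnd := T.nodup_toList
  have hmem : ∀ v ∈ T.toList, v ∈ S := fun v hv => hT (Finset.mem_toList.1 hv)
  generalize T.toList = p at hlen hnd hmem
  cases p with
  | nil => simp at hlen; omega
  | cons a l =>
    rw [List.length_cons] at hlen
    rw [← hlen]
    have hl : l ≠ [] := by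
      rintro rfl
      simp at hlen
      omega
    refine cyc_mk hnd (clq_chain hS hnd hmem) fun x hx => ?_
    obtain ⟨h1, h3⟩ := last_ne_head hnd hl x hx
    exact hS x (hmem x (List.mem_cons_of_mem _ h1)) a (hmem a (by simp)) h3

theorem nQ_le {Q : Finset V} {p : List V} (hp : PSys G Q p) : nQ Q p ≤ #Q := by
  rw [nQ_eq Q hp.1.1]
  exact Finset.card_filter_le _ _

theorem card_rest (Q : Finset V) {p : List V} (hp : p.Nodup) :
    #{v ∈ Q | v ∉ p} + nQ Q p = #Q := by
  rw [nQ_eq Q hp, add_comm]
  convert Finset.card_filter_add_card_filter_not (s := Q) (fun v => v ∈ p)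

theorem cyc_of_psys {Q : Finset V} (hQ : Clq G Q) {p : List V} (hp : PSys G Q p)
    (hY : 1 ≤ nY Q p) {n : ℕ} (h1 : nY Q p + nQ Q p ≤ n) (h2 : n ≤ nY Q p + #Q) : Cyc G n := by
  have hr := card_rest Q hp.1.1
  obtain ⟨R, hR, hc⟩ := Finset.exists_subset_card_eq
    (s := {v ∈ Q | v ∉ p}) (n := n - (nY Q p + nQ Q p)) (by omega)
  have hlen : R.toList.length + p.length = n := by
    rw [Finset.length_toList, hc, ← nY_add_nQ Q p]
    omega
  have hnd := R.nodup_toList
  have hmem : ∀ v ∈ R.toList, v ∈ Q ∧ v ∉ p := fun v hv =>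
    Finset.mem_filter.1 (hR (Finset.mem_toList.1 hv))
  generalize R.toList = r at hlen hnd hmem
  obtain ⟨⟨nd, ch⟩, hh, hl⟩ := hp
  cases p with
  | nil => simp [nY] at hY
  | cons a l =>
    have ha : a ∈ Q := hh a rfl
    have hl0 : l ≠ [] := by
      rintro rfl
      simp [nY, ha] at hY
    have nd' : (a :: (l ++ r)).Nodup := by
      rw [← List.cons_append, List.nodup_append]
      exact ⟨nd, hnd, fun x hx y hy hxy => (hmem y hy).2 (hxy ▸ hx)⟩
    have hn : n = (l ++ r).length + 1 := by
      rw [List.length_append, ← hlen, List.length_cons]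
      omega
    rw [hn]
    refine cyc_mk nd' ?_ fun x hx => ?_
    · rw [← List.cons_append, List.isChain_append]
      refine ⟨ch, clq_chain hQ hnd fun v hv => (hmem v hv).1, fun x hx y hy => ?_⟩
      have hy' := hmem y (List.mem_of_mem_head? hy)
      exact hQ x (hl x hx) y hy'.1 fun h => hy'.2 (h ▸ List.mem_of_getLast? hx)
    · have h3 := (last_ne_head nd' (by simp [hl0]) x hx).2
      refine hQ x ?_ a ha h3
      rw [← List.cons_append] at hx
      by_cases hr0 : r = []
      · rw [hr0, List.append_nil] at hx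
        exact hl x hx
      · rw [List.getLast?_append_of_ne_nil _ hr0] at hx
        exact (hmem x (List.mem_of_getLast? hx)).1

/-- Splitting a list at its vertices in `Q`. -/
theorem split_list (Q : Finset V) (v0 : V) (p : List V) :
    ∃ (n : ℕ) (q : ℕ → V) (Y : ℕ → List V) (W : List V),
      p = ((List.range n).flatMap fun m => Y m ++ [q m]) ++ W ∧ (∀ m < n, q m ∈ Q) ∧
      (∀ m, ∀ z ∈ Y m, z ∉ Q) ∧ (∀ z ∈ W, z ∉ Q) ∧ ∀ m, n ≤ m → Y m = [] := by
  induction p using List.reverseRecOn with
  | nil => exact ⟨0, fun _ => v0, fun _ => [], [], by simp, by simp, by simp, by simp, by simp⟩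
  | append_singleton p a ih =>
    obtain ⟨n, q, Y, W, hp, hq, hY, hW, ht⟩ := ih
    by_cases ha : a ∈ Q
    · refine ⟨n + 1, Function.update q n a, Function.update Y n W, [], ?_, ?_, ?_, by simp, ?_⟩
      · rw [List.range_succ, List.flatMap_append, hp]
        have : ((List.range n).flatMap fun m =>
            Function.update Y n W m ++ [Function.update q n a m]) =
            (List.range n).flatMap fun m => Y m ++ [q m] := by
          apply List.flatMap_congr
          intro m hm
          have hm' : m ≠ n := (List.mem_range.1 hm).ne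
          rw [Function.update_of_ne hm', Function.update_of_ne hm']
        rw [this]
        simp
      · intro m hm
        by_cases h : m = n
        · rw [h, Function.update_self]
          exact ha
        · rw [Function.update_of_ne h]
          exact hq m (by omega)
      · intro m
        by_cases h : m = n
        · rw [h, Function.update_self]
          exact hW
        · rw [Function.update_of_ne h]
          exact hY m
      · intro m hm
        rw [Function.update_of_ne (by omega)]
        exact ht m (by omega)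
    · refine ⟨n, q, Y, W ++ [a], by rw [hp, List.append_assoc], hq, hY, ?_, ht⟩
      intro z hz
      rcases List.mem_append.1 hz with h | h
      · exact hW z h
      · rw [List.mem_singleton.1 h]
        exact ha

theorem flat_count (Q : Finset V) (q : ℕ → V) (Y : ℕ → List V) (hY : ∀ m, ∀ z ∈ Y m, z ∉ Q)
    (n : ℕ) (hq : ∀ m < n, q m ∈ Q) :
    nQ Q ((List.range n).flatMap fun m => Y m ++ [q m]) = n ∧
      nY Q ((List.range n).flatMap fun m => Y m ++ [q m]) = ∑ m ∈ range n, (Y m).length := by
  induction n with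
  | zero => simp [nQ, nY]
  | succ n ih =>
    obtain ⟨i1, i2⟩ := ih fun m hm => hq m (by omega)
    unfold nQ at i1 ⊢
    unfold nY at i2 ⊢
    have h1 : (Y n).countP (fun a => decide (a ∈ Q)) = 0 := by
      rw [List.countP_eq_zero]
      intro a ha
      simpa using hY n a ha
    have h2 : (Y n).countP (fun a => decide (a ∉ Q)) = (Y n).length := by
      rw [List.countP_eq_length]
      intro a ha
      simpa using hY n a ha
    have h3 := hq n (by omega)
    rw [List.range_succ, List.flatMap_append, List.countP_append, List.countP_append, i1, i2,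
      Finset.sum_range_succ, List.flatMap_singleton, List.countP_append, List.countP_append, h1, h2]
    simp [h3]

theorem flat_part (q : ℕ → V) (Y : ℕ → List V) {m n : ℕ} (h : m + 1 < n) :
    (q m :: Y (m + 1) ++ [q (m + 1)]) <:+: (List.range n).flatMap fun m => Y m ++ [q m] := by
  obtain ⟨k, rfl⟩ : ∃ k, n = m + 2 + k := ⟨n - (m + 2), by omega⟩
  rw [List.range_add, List.flatMap_append, List.range_succ, List.range_succ, List.flatMap_append,
    List.flatMap_append]
  refine ⟨((List.range m).flatMap fun m => Y m ++ [q m]) ++ Y m,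
    (List.map (fun x => m + 2 + x) (List.range k)).flatMap fun m => Y m ++ [q m], ?_⟩
  simp

theorem chain_part {R : V → V → Prop} {l l₁ : List V} (h : l.IsChain R) (h' : l₁ <:+: l) :
    l₁.IsChain R := by
  obtain ⟨s, t, rfl⟩ := h'
  exact h.left_of_append.right_of_append

theorem chain_out {Q : Finset V} {R : V → V → Prop} {b : V} : ∀ (Y : List V) (a : V), Y ≠ [] →
    (∀ z ∈ Y, z ∉ Q) → List.IsChain (fun u v => R u v ∨ (u ∈ Q ∧ v ∈ Q)) (a :: Y ++ [b]) →
    List.IsChain R (a :: Y ++ [b]) := by
  intro Y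
  induction Y with
  | nil => intro a h; exact absurd rfl h
  | cons y Y ih =>
    intro a _ hY hc
    have hy := hY y (by simp)
    rw [List.cons_append, List.cons_append, List.isChain_cons_cons] at hc ⊢
    refine ⟨hc.1.resolve_right fun h => hy h.2, ?_⟩
    by_cases h0 : Y = []
    · subst h0
      have := hc.2
      rw [List.nil_append, List.isChain_cons_cons] at this ⊢
      exact ⟨this.1.resolve_right fun h => hy h.1, by simp⟩
    · exact ih y h0 (fun z hz => hY z (List.mem_cons_of_mem _ hz)) hc.2

namespace BSys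
variable {Q : Finset V} {t : ℕ}

theorem toP (hQ : Clq G Q) (S : BSys G Q t) :
    ∃ p, PSys G Q p ∧ nY Q p = S.L ∧ nQ Q p = S.e := by
  have h1 : ∀ m, S.Y (m + 1) ≠ [] → S.a m ≠ 0 ∨ S.a (m + 1) ≠ 0 :=
    fun m h => Or.inr ((S.a_ne _).2 h)
  refine ⟨S.fl (fun m => S.a m ≠ 0 ∨ S.a (m + 1) ≠ 0) t,
    ⟨⟨S.fl_nodup _ le_rfl, S.fl_chain hQ h1 le_rfl⟩, S.fl_head h1 le_rfl, ?_⟩,
    S.fl_nY (fun m h => Or.inl ((S.a_ne _).2 h)) le_rfl, ?_⟩
  · intro x hx
    obtain ⟨m, hm, rfl⟩ := S.fl_last _ t x hx
    exact S.mem m hm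
  · rw [S.fl_nQ _ le_rfl]
    unfold e
    congr

theorem ofP (ht : #Q = t) (h1 : 1 ≤ t) {p : List V} (hp : PSys G Q p) :
    ∃ S : BSys G Q t, S.L = nY Q p ∧ S.e ≤ nQ Q p := by
  obtain ⟨v0, hv0⟩ : Q.Nonempty := Finset.card_pos.1 (by omega)
  have hr := card_rest Q hp.1.1
  have hlen : ({v ∈ Q | v ∉ p} : Finset V).toList.length + nQ Q p = t := by
    rw [Finset.length_toList, hr, ht]
  have hnd := ({v ∈ Q | v ∉ p} : Finset V).nodup_toList
  have hmem : ∀ v ∈ ({v ∈ Q | v ∉ p} : Finset V).toList, v ∈ Q ∧ v ∉ p := fun v hv =>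
    Finset.mem_filter.1 (Finset.mem_toList.1 hv)
  generalize ({v ∈ Q | v ∉ p} : Finset V).toList = r at hlen hnd hmem
  obtain ⟨⟨nd, ch⟩, hh, hl⟩ := hp
  have nd' : (p ++ r).Nodup := by
    rw [List.nodup_append]
    exact ⟨nd, hnd, fun x hx y hy hxy => (hmem y hy).2 (hxy ▸ hx)⟩
  have ch' : (p ++ r).IsChain fun u v => (G.Adj u v ∧ u ∈ p ∧ v ∈ p) ∨ (u ∈ Q ∧ v ∈ Q) := by
    rw [List.isChain_append]
    refine ⟨ch.imp_of_mem_imp fun a b ha hb hab => Or.inl ⟨hab, ha, hb⟩, ?_, ?_⟩
    · apply List.Pairwise.isChain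
      exact List.pairwise_of_forall_mem_list fun a ha b hb => Or.inr ⟨(hmem a ha).1, (hmem b hb).1⟩
    · intro x hx y hy
      exact Or.inr ⟨hl x hx, (hmem y (List.mem_of_mem_head? hy)).1⟩
  have hh' : ∀ x ∈ (p ++ r).head?, x ∈ Q := by
    intro x hx
    by_cases h0 : p = []
    · rw [h0, List.nil_append] at hx
      exact (hmem x (List.mem_of_mem_head? hx)).1
    · rw [List.head?_append_of_ne_nil _ h0] at hx
      exact hh x hx
  have hl' : ∀ x ∈ (p ++ r).getLast?, x ∈ Q := by
    intro x hx
    by_cases h0 : r = []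
    · rw [h0, List.append_nil] at hx
      exact hl x hx
    · rw [List.getLast?_append_of_ne_nil _ h0] at hx
      exact (hmem x (List.mem_of_getLast? hx)).1
  have cQ : nQ Q (p ++ r) = t := by
    have : r.countP (fun a => decide (a ∈ Q)) = r.length := by
      rw [List.countP_eq_length]
      intro a ha
      simpa using (hmem a ha).1
    unfold nQ at hlen ⊢
    rw [List.countP_append, this]
    omega
  have cY : nY Q (p ++ r) = nY Q p := by
    have : r.countP (fun a => decide (a ∉ Q)) = 0 := by
      rw [List.countP_eq_zero]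
      intro a ha
      simpa using (hmem a ha).1
    unfold nY
    rw [List.countP_append, this, add_zero]
  obtain ⟨n, q, Y, W, hp, hq, hY, hW, htop⟩ := split_list Q v0 (p ++ r)
  have hW0 : W = [] := by
    by_contra h0
    have h2 : (p ++ r).getLast? = some (W.getLast h0) := by
      rw [hp, List.getLast?_append_of_ne_nil _ h0, List.getLast?_eq_some_getLast h0]
    exact hW _ (List.getLast_mem h0) (hl' _ h2)
  rw [hW0, List.append_nil] at hp
  obtain ⟨c1, c2⟩ := flat_count Q q Y hY n hq
  rw [← hp, cQ] at c1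
  rw [← hp, cY] at c2
  subst c1
  rw [hp] at nd' ch' hh'
  rw [List.nodup_flatMap] at nd'
  obtain ⟨n1, n2⟩ := nd'
  have n3 : ∀ m < t, ∀ m' < t, m ≠ m' → List.Disjoint (Y m ++ [q m]) (Y m' ++ [q m']) := by
    intro m hm m' hm' hne
    haveI : Std.Symm (Function.onFun List.Disjoint fun m => Y m ++ [q m]) :=
      ⟨fun _ _ h => List.Disjoint.symm h⟩
    exact n2.forall (List.mem_range.2 hm) (List.mem_range.2 hm') hne
  have hlt : ∀ m, Y m ≠ [] → m < t := fun m h => by
    by_contra hm
    exact h (htop m (by omega))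
  have hch : ∀ m, Y (m + 1) ≠ [] →
      List.IsChain (fun u v => G.Adj u v ∧ u ∈ p ∧ v ∈ p) (q m :: Y (m + 1) ++ [q (m + 1)]) :=
    fun m hm => chain_out (Q := Q) _ _ hm (hY _) (chain_part ch' (flat_part q Y (hlt _ hm)))
  have hz : Y 0 = [] := by
    by_contra h0
    obtain ⟨y, l, hy⟩ := List.exists_cons_of_ne_nil h0
    obtain ⟨k, hk⟩ : ∃ k, t = k + 1 := ⟨t - 1, by omega⟩
    refine hY 0 y (by rw [hy]; simp) (hh' y ?_)
    rw [hk, List.range_succ_eq_map, List.flatMap_cons, hy]
    rfl
  refine ⟨⟨q, Y, hq, ?_, hz, htop, fun m hm => (hch m hm).imp fun _ _ h => h.1, hY, ?_, ?_⟩,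
    c2.symm, ?_⟩
  · intro m hm m' hm' h
    by_contra hne
    exact n3 m hm m' hm' hne (a := q m) (by simp) (by simp [h])
  · intro m
    by_cases h0 : Y m = []
    · rw [h0]
      exact List.nodup_nil
    · exact (n1 m (List.mem_range.2 (hlt m h0))).of_append_left
  · intro m m' hne z hz hz'
    exact n3 m (hlt m (List.ne_nil_of_mem hz)) m' (hlt m' (List.ne_nil_of_mem hz')) hne
      (a := z) (by simp [hz]) (by simp [hz'])
  · rw [nQ_eq Q nd]
    unfold e a
    dsimp only
    apply Finset.card_le_card_of_injOn q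
    · intro m hm
      rw [Finset.mem_coe, Finset.mem_filter, Finset.mem_range] at hm
      rw [Finset.mem_coe, Finset.mem_filter]
      refine ⟨hq m hm.1, ?_⟩
      rcases hm.2 with h | h
      · have h' : Y m ≠ [] := by simpa using h
        cases m with
        | zero => exact absurd hz h'
        | succ m =>
          have := hch m h'
          rw [List.isChain_append] at this
          have h3 : ∃ x, (q m :: Y (m + 1)).getLast? = some x :=
            ⟨_, List.getLast?_eq_some_getLast (by simp)⟩
          obtain ⟨x, hx⟩ := h3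
          exact (this.2.2 x hx _ rfl).2.2
      · have h' : Y (m + 1) ≠ [] := by simpa using h
        have := hch m h'
        obtain ⟨y, l, hy⟩ := List.exists_cons_of_ne_nil h'
        rw [hy, List.cons_append, List.cons_append, List.isChain_cons_cons] at this
        exact this.1.2.1
    · intro m hm m' hm' h
      rw [Finset.mem_coe, Finset.mem_filter, Finset.mem_range] at hm hm'
      by_contra hne
      exact n3 m hm.1 m' hm'.1 hne (a := q m) (by simp) (by simp [h])

end BSys

end Vale.Agent.P048
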