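import Vale.Agent.P048.SysA
import Vale.Agent.P048.SysD

/-! Operations on block systems. -/

namespace Vale.Agent.P048
open Finset
open scoped Classical

variable {V : Type} {G : SimpleGraph V}

/-- Reflection of the interval from `i` to `j - 1`. -/
def sg (i j m : ℕ) : ℕ := if i ≤ m ∧ m < j then i + j - 1 - m else m

/-- Reflection of the interval strictly between `i` and `j`. -/
def tu (i j m : ℕ) : ℕ := if i < m ∧ m < j then i + j - m else m

theorem sg_sg (i j m : ℕ) : sg i j (sg i j m) = m := by
  unfold sg
  split_ifs <;> omega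

theorem tu_tu (i j m : ℕ) : tu i j (tu i j m) = m := by
  unfold tu
  split_ifs <;> omega

theorem sg_lt {i j m t : ℕ} (hj : j ≤ t) (hm : m < t) : sg i j m < t := by
  unfold sg
  split_ifs <;> omega

theorem tu_lt {i j m t : ℕ} (hj : j ≤ t) (hm : m < t) : tu i j m < t := by
  unfold tu
  split_ifs <;> omega

theorem touch_refl {f g : ℕ → ℕ} {i j : ℕ} (hij : i < j) (h0 : f i = 0) (h1 : f j = 0)
    (hg : ∀ m, g m = f (tu i j m)) (m : ℕ) :
    (g m ≠ 0 ∨ g (m + 1) ≠ 0) ↔ (f (sg i j m) ≠ 0 ∨ f (sg i j m + 1) ≠ 0) := by
  rw [hg, hg]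
  by_cases h : i ≤ m ∧ m < j
  · have e1 : f (tu i j m) = f (sg i j m + 1) := by
      by_cases hm : m = i
      · have a1 : tu i j m = i := by unfold tu; split_ifs <;> omega
        have a2 : sg i j m + 1 = j := by unfold sg; split_ifs <;> omega
        rw [a1, a2, h0, h1]
      · congr 1
        unfold tu sg
        split_ifs <;> omega
    have e2 : f (tu i j (m + 1)) = f (sg i j m) := by
      by_cases hm : m + 1 = j
      · have a1 : tu i j (m + 1) = j := by unfold tu; split_ifs <;> omega
        have a2 : sg i j m = i := by unfold sg; split_ifs <;> omega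
        rw [a1, a2, h0, h1]
      · congr 1
        unfold tu sg
        split_ifs <;> omega
    rw [e1, e2, or_comm]
  · have a1 : tu i j m = m := by unfold tu; split_ifs <;> omega
    have a2 : tu i j (m + 1) = m + 1 := by unfold tu; split_ifs <;> omega
    have a3 : sg i j m = m := by unfold sg; split_ifs <;> omega
    rw [a1, a2, a3]

theorem revAt_range (f : ℕ → ℕ) {i j t : ℕ} (hij : i < j) (hj : j ≤ t) :
    revAt ((List.range t).map f) i j = (List.range t).map fun m => f (tu i j m) := by
  apply List.ext_getElem
  · simp [revAt]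
    omega
  · intro n h1 h2
    simp only [revAt, List.getElem_append, List.getElem_map, List.getElem_range, List.getElem_take,
      List.getElem_drop, List.getElem_reverse, List.length_append, List.length_take,
      List.length_map, List.length_range, List.length_reverse, List.length_drop]
    unfold tu
    split_ifs <;> congr 1 <;> omega

theorem chain_rev {l : List V} (h : l.IsChain G.Adj) : l.reverse.IsChain G.Adj :=
  List.isChain_reverse.2 (h.imp fun _ _ h => h.symm)

namespace BSys
variable {Q : Finset V} {t : ℕ}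

theorem rev (S : BSys G Q t) {i j : ℕ} (hij : i < j) (hj : j ≤ t) (h0 : S.Y i = [])
    (h1 : S.Y j = []) :
    ∃ T : BSys G Q t, (∀ m, T.q m = if i ≤ m ∧ m < j then S.q (i + j - 1 - m) else S.q m) ∧
      (∀ m, T.Y m = if i < m ∧ m < j then (S.Y (i + j - m)).reverse else S.Y m) ∧
      T.L = S.L ∧ T.e = S.e ∧ T.am = revAt S.am i j := by
  set Y' : ℕ → List V := fun m => if i < m ∧ m < j then (S.Y (i + j - m)).reverse else S.Y m
    with hY'
  have hmem : ∀ m z, z ∈ Y' m ↔ z ∈ S.Y (tu i j m) := by
    intro m z
    simp only [hY', tu]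
    split_ifs <;> simp
  have hlen : ∀ m, (Y' m).length = S.a (tu i j m) := by
    intro m
    simp only [hY', tu, a]
    split_ifs <;> simp
  let T : BSys G Q t :=
    { q := fun m => S.q (sg i j m)
      Y := Y'
      mem := fun m hm => S.mem _ (sg_lt hj hm)
      inj := fun m hm m' hm' h => by
        have := S.inj _ (sg_lt hj hm) _ (sg_lt hj hm') h
        rw [← sg_sg i j m, this, sg_sg]
      zero := by
        simp only [hY']
        rw [if_neg (by omega)]
        exact S.zero
      top := fun m hm => by
        simp only [hY']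
        rw [if_neg (by omega)]
        exact S.top m hm
      ch := fun m hm => by
        simp only [hY'] at hm ⊢
        by_cases h : i < m + 1 ∧ m + 1 < j
        · rw [if_pos h] at hm ⊢
          have a1 : sg i j m = (i + j - 2 - m) + 1 := by unfold sg; split_ifs <;> omega
          have a2 : sg i j (m + 1) = i + j - 2 - m := by unfold sg; split_ifs <;> omega
          have a3 : i + j - (m + 1) = (i + j - 2 - m) + 1 := by omega
          rw [a3] at hm
          rw [a1, a2, a3]
          have := chain_rev (S.ch (i + j - 2 - m) (by simpa using hm))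
          simpa using this
        · rw [if_neg h] at hm ⊢
          have b1 : m + 1 ≠ i := fun h => hm (h ▸ h0)
          have b2 : m + 1 ≠ j := fun h => hm (h ▸ h1)
          have a1 : sg i j m = m := by unfold sg; split_ifs <;> omega
          have a2 : sg i j (m + 1) = m + 1 := by unfold sg; split_ifs <;> omega
          rw [a1, a2]
          exact S.ch m hm
      out := fun m z hz => S.out _ z ((hmem m z).1 hz)
      nd := fun m => by
        simp only [hY']
        split_ifs
        · exact List.nodup_reverse.2 (S.nd _)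
        · exact S.nd _
      dj := fun m m' hne z hz hz' => by
        refine S.dj _ _ ?_ z ((hmem m z).1 hz) ((hmem m' z).1 hz')
        intro h
        apply hne
        rw [← tu_tu i j m, h, tu_tu] }
  have ha : ∀ m, T.a m = S.a (tu i j m) := hlen
  refine ⟨T, fun m => ?_, fun m => rfl, ?_, ?_, ?_⟩
  · show S.q (sg i j m) = _
    unfold sg
    split_ifs <;> rfl
  · unfold L
    refine Finset.sum_nbij' (tu i j) (tu i j) ?_ ?_ (fun m _ => tu_tu i j m)
      (fun m _ => tu_tu i j m) fun m _ => ha m
    · intro m hm
      exact Finset.mem_range.2 (tu_lt hj (Finset.mem_range.1 hm))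
    · intro m hm
      exact Finset.mem_range.2 (tu_lt hj (Finset.mem_range.1 hm))
  · have ht := touch_refl hij ((S.a_eq i).2 h0) ((S.a_eq j).2 h1) ha
    unfold e
    refine Finset.card_nbij' (sg i j) (sg i j) ?_ ?_ (fun m _ => sg_sg i j m)
      (fun m _ => sg_sg i j m)
    · intro m hm
      rw [Finset.mem_coe, Finset.mem_filter, Finset.mem_range] at hm ⊢
      exact ⟨sg_lt hj hm.1, (ht m).1 hm.2⟩
    · intro m hm
      rw [Finset.mem_coe, Finset.mem_filter, Finset.mem_range] at hm ⊢
      refine ⟨sg_lt hj hm.1, (ht _).2 ?_⟩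
      rw [sg_sg]
      exact hm.2
  · unfold am
    rw [revAt_range S.a hij hj]
    exact List.map_congr_left fun m _ => ha m

theorem drop (S : BSys G Q t) (Del : Finset ℕ) :
    ∃ T : BSys G Q t, T.q = S.q ∧ ∀ m, T.Y m = if m ∈ Del then [] else S.Y m := by
  have hmem : ∀ m z, z ∈ (if m ∈ Del then [] else S.Y m) → z ∈ S.Y m := by
    intro m z hz
    split_ifs at hz
    · simp at hz
    · exact hz
  refine ⟨⟨S.q, fun m => if m ∈ Del then [] else S.Y m, S.mem, S.inj, ?_, ?_, ?_, ?_, ?_, ?_⟩,
    rfl, fun _ => rfl⟩
  · simp [S.zero]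
  · intro m hm
    simp [S.top m hm]
  · intro m hm
    by_cases h : m + 1 ∈ Del
    · simp [h] at hm
    · rw [if_neg h] at hm ⊢
      exact S.ch m hm
  · exact fun m z hz => S.out m z (hmem m z hz)
  · intro m
    split_ifs
    · exact List.nodup_nil
    · exact S.nd m
  · exact fun m m' h z hz hz' => S.dj m m' h z (hmem m z hz) (hmem m' z hz')

theorem fill (S : BSys G Q t) {j : ℕ} (hj : j + 1 < t) (W : List V)
    (hc : List.IsChain G.Adj (S.q j :: W ++ [S.q (j + 1)])) (ho : ∀ z ∈ W, z ∉ Q) (hn : W.Nodup)
    (hd : ∀ m, m ≠ j + 1 → ∀ z ∈ S.Y m, z ∉ W) :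
    ∃ T : BSys G Q t, T.L + S.a (j + 1) = S.L + W.length ∧ ∀ m, m ≠ j + 1 → T.a m = S.a m := by
  let T : BSys G Q t :=
    { q := S.q
      Y := fun m => if m = j + 1 then W else S.Y m
      mem := S.mem
      inj := S.inj
      zero := by
        rw [if_neg (by omega)]
        exact S.zero
      top := fun m hm => by
        rw [if_neg (by omega)]
        exact S.top m hm
      ch := fun m hm => by
        by_cases h : m + 1 = j + 1
        · rw [if_pos h]
          have : m = j := by omega
          rw [this]
          exact hc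
        · rw [if_neg h] at hm ⊢
          exact S.ch m hm
      out := fun m z hz => by
        split_ifs at hz
        · exact ho z hz
        · exact S.out m z hz
      nd := fun m => by
        split_ifs
        · exact hn
        · exact S.nd m
      dj := fun m m' hne z hz hz' => by
        split_ifs at hz hz' with h1 h2 h2
        · exact hne (h1.trans h2.symm)
        · exact hd m' h2 z hz' hz
        · exact hd m h1 z hz hz'
        · exact S.dj m m' hne z hz hz' }
  have ha : ∀ m, m ≠ j + 1 → T.a m = S.a m := fun m hm => by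
    show (if m = j + 1 then W else S.Y m).length = _
    rw [if_neg hm]
    rfl
  have hb : T.a (j + 1) = W.length := by
    show (if j + 1 = j + 1 then W else S.Y (j + 1)).length = _
    rw [if_pos rfl]
  refine ⟨T, ?_, ha⟩
  unfold L
  have hm := Finset.mem_range.2 hj
  rw [← Finset.add_sum_erase _ _ hm, ← Finset.add_sum_erase _ S.a hm, hb,
    Finset.sum_congr rfl fun m hm => ha m (Finset.ne_of_mem_erase hm)]
  ring

theorem blk (S : BSys G Q t) (m : ℕ) :
    ∃ A, S.Y m ++ [S.q m] = S.rep m :: A ∧ List.IsChain G.Adj (S.rep m :: A) := by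
  rcases S.rep_cases m with ⟨h0, h⟩ | ⟨l, h⟩
  · exact ⟨[], by rw [h0, h]; rfl, by simp⟩
  · have h0 : S.Y m ≠ [] := by rw [h]; simp
    obtain ⟨n, rfl⟩ := S.ne_zero_of_ne h0
    have hc := S.ch n h0
    rw [List.cons_append, List.isChain_cons] at hc
    refine ⟨l ++ [S.q (n + 1)], by rw [← List.cons_append, ← h], ?_⟩
    rw [← List.cons_append, ← h]
    exact hc.2

theorem twoopt (hQ : Clq G Q) (S : BSys G Q t) {i j : ℕ} (hij : i < j) (hj : j < t)
    (Del : Finset ℕ) (hi' : i ∉ Del) (hj' : j ∉ Del) {d : ℕ}
    (h : Out G S.F d (S.rep i) (S.rep j)) :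
    ∃ p, PSys G Q p ∧ nY Q p = d + ∑ m ∈ range t \ Del, S.a m ∧
      nQ Q p ≤ #(insert i (insert j {m ∈ range t |
        (S.a m ≠ 0 ∧ m ∉ insert i (insert j Del)) ∨
        (S.a (m + 1) ≠ 0 ∧ m + 1 ∉ insert i (insert j Del))})) := by
  obtain ⟨D, hD, nD, oD, cD⟩ := h
  obtain ⟨S1, q1, Y1⟩ := S.drop (insert i (insert j Del))
  have z1 : S1.Y i = [] := by rw [Y1, if_pos (by simp)]
  have z2 : S1.Y j = [] := by rw [Y1, if_pos (by simp)]
  have a1 : ∀ m, S1.a m = if m ∈ insert i (insert j Del) then 0 else S.a m := by
    intro m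
    unfold a
    rw [Y1]
    split_ifs <;> rfl
  obtain ⟨T, qT, YT, LT, -, -⟩ := S1.rev hij hj.le z1 z2
  have mT : ∀ m z, z ∈ T.Y m → z ∈ S1.Y (tu i j m) := by
    intro m z hz
    rw [YT] at hz
    unfold tu
    split_ifs at hz ⊢
    · exact List.mem_reverse.1 hz
    · exact hz
  have aT : ∀ m, T.a m = S1.a (tu i j m) := by
    intro m
    unfold a tu
    rw [YT]
    split_ifs <;> simp
  obtain ⟨j, rfl⟩ : ∃ j', j = j' + 1 := ⟨j - 1, by omega⟩
  have e1 : T.q j = S.q i := by
    rw [qT, if_pos (by omega), q1]
    congr 1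
    omega
  have e2 : T.q (j + 1) = S.q (j + 1) := by rw [qT, if_neg (by omega), q1]
  have oF : ∀ z ∈ D, z ∉ Q ∧ ∀ m, z ∉ S.Y m := fun z hz =>
    ⟨fun h => oD z hz ((S.mem_F z).2 (Or.inl h)), fun m h => oD z hz ((S.mem_F z).2 (Or.inr ⟨m, h⟩))⟩
  obtain ⟨U, LU, aU⟩ := T.fill hj ((S.Y i).reverse ++ D ++ S.Y (j + 1)) (by
      obtain ⟨A, hA, cA⟩ := S.blk i
      obtain ⟨B, hB, cB⟩ := S.blk (j + 1)
      have : T.q j :: ((S.Y i).reverse ++ D ++ S.Y (j + 1)) ++ [T.q (j + 1)] =
          (S.Y i ++ [S.q i]).reverse ++ D ++ (S.Y (j + 1) ++ [S.q (j + 1)]) := by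
        rw [e1, e2]
        simp
      rw [this, hA, hB, List.reverse_cons, List.isChain_split, List.append_assoc,
        List.append_assoc, List.singleton_append, List.isChain_split, ← List.reverse_cons,
        ← List.cons_append]
      exact ⟨⟨chain_rev cA, cD⟩, cB⟩) (by
      intro z hz
      simp only [List.mem_append, List.mem_reverse] at hz
      rcases hz with (hz | hz) | hz
      · exact S.out _ z hz
      · exact (oF z hz).1
      · exact S.out _ z hz) (by
      rw [List.nodup_append, List.nodup_append]
      refine ⟨⟨List.nodup_reverse.2 (S.nd i), nD, ?_⟩, S.nd _, ?_⟩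
      · rintro x hx y hy rfl
        exact (oF x hy).2 i (List.mem_reverse.1 hx)
      · rintro x hx y hy rfl
        rcases List.mem_append.1 hx with hx | hx
        · exact S.dj i (j + 1) (by omega) x (List.mem_reverse.1 hx) hy
        · exact (oF x hx).2 _ hy) (by
      intro m _ z hz hz'
      have h1 := mT m z hz
      rw [Y1] at h1
      split_ifs at h1 with h2
      · simp at h1
      · simp only [List.mem_append, List.mem_reverse] at hz'
        simp only [Finset.mem_insert, not_or] at h2
        rcases hz' with (hz' | hz') | hz'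
        · exact S.dj _ _ h2.1 z h1 hz'
        · exact (oF z hz').2 _ h1
        · exact S.dj _ _ h2.2.1 z h1 hz')
  obtain ⟨p, hp, pY, pQ⟩ := U.toP hQ
  refine ⟨p, hp, ?_, ?_⟩
  · have b1 : T.a (j + 1) = 0 := by
      rw [aT, a1, if_pos]
      have : tu i (j + 1) (j + 1) = j + 1 := by unfold tu; split_ifs <;> omega
      simp [this]
    have b2 : S1.L = ∑ m ∈ range t \ insert i (insert (j + 1) Del), S.a m := by
      unfold L
      rw [Finset.sum_congr rfl fun m _ => a1 m, Finset.sum_ite, Finset.sum_const_zero, zero_add]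
      congr 1
      ext m
      simp only [Finset.mem_filter, Finset.mem_sdiff]
    have b3 : range t \ Del = insert i (insert (j + 1) (range t \ insert i (insert (j + 1) Del))) := by
      ext m
      simp only [Finset.mem_insert, Finset.mem_sdiff, Finset.mem_range, not_or]
      constructor
      · intro h
        by_cases c1 : m = i
        · exact Or.inl c1
        · by_cases c2 : m = j + 1
          · exact Or.inr (Or.inl c2)
          · exact Or.inr (Or.inr ⟨h.1, c1, c2, h.2⟩)
      · rintro (rfl | rfl | h)
        · exact ⟨by omega, hi'⟩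
        · exact ⟨hj, hj'⟩
        · exact ⟨h.1, h.2.2.2⟩
    rw [pY, b3, Finset.sum_insert (by simp; omega), Finset.sum_insert (by simp), ← b2, ← LT]
    rw [b1] at LU
    simp only [List.length_append, List.length_reverse, hD] at LU
    unfold a
    omega
  · rw [pQ]
    have ht := touch_refl hij ((S1.a_eq i).2 z1) ((S1.a_eq _).2 z2) aT
    unfold e
    apply Finset.card_le_card_of_injOn (sg i (j + 1))
    · intro m hm
      rw [Finset.mem_coe, Finset.mem_filter, Finset.mem_range] at hm
      rw [Finset.mem_coe, Finset.mem_insert, Finset.mem_insert, Finset.mem_filter,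
        Finset.mem_range]
      by_cases c1 : m = j
      · left
        unfold sg
        split_ifs <;> omega
      · by_cases c2 : m = j + 1
        · right; left
          unfold sg
          split_ifs <;> omega
        · right; right
          refine ⟨sg_lt hj.le hm.1, ?_⟩
          have h2 := hm.2
          rw [aU m c2, aU (m + 1) (by omega), ht, a1, a1] at h2
          rcases h2 with h2 | h2
          · left
            split_ifs at h2 with h3
            · exact absurd rfl h2
            · exact ⟨h2, h3⟩
          · right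
            split_ifs at h2 with h3
            · exact absurd rfl h2
            · exact ⟨h2, h3⟩
    · intro m _ m' _ h
      rw [← sg_sg i (j + 1) m, h, sg_sg]

theorem insertion (hQ : Clq G Q) (S : BSys G Q t) {k : ℕ} (ho : Opt G Q k S.L S.e)
    (hk : S.L + t ≤ k) {m : ℕ} (hm : S.Y m ≠ []) :
    ¬Out G S.F 1 ((S.Y m).getLast hm) (S.q m) := by
  rintro ⟨D, hD, -, oD, cD⟩
  obtain ⟨z, rfl⟩ := List.length_eq_one_iff.1 hD
  have hz : z ∉ S.F := oD z (by simp)
  rw [mem_F, not_or, not_exists] at hz
  have hlt := S.lt_of_ne hm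
  obtain ⟨j, rfl⟩ := S.ne_zero_of_ne hm
  simp only [List.cons_append, List.nil_append, List.isChain_cons_cons] at cD
  obtain ⟨U, LU, -⟩ := S.fill hlt (S.Y (j + 1) ++ [z]) (by
      have hc := (S.ch j hm).left_of_append
      have : S.q j :: (S.Y (j + 1) ++ [z]) ++ [S.q (j + 1)] =
          (S.q j :: S.Y (j + 1)) ++ [z, S.q (j + 1)] := by simp
      rw [this, List.isChain_append]
      refine ⟨hc, by simpa using cD.2.1, ?_⟩
      intro x hx y hy
      rw [List.getLast?_cons_of_ne_nil hm, List.getLast?_eq_some_getLast hm] at hx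
      have hx' : x = (S.Y (j + 1)).getLast hm := (Option.some.inj hx).symm
      have hy' : y = z := by simpa using hy.symm
      rw [hx', hy']
      exact cD.1) (by
      intro y hy
      rcases List.mem_append.1 hy with hy | hy
      · exact S.out _ y hy
      · rw [List.mem_singleton.1 hy]
        exact hz.1) (by
      rw [List.nodup_append]
      refine ⟨S.nd _, by simp, ?_⟩
      rintro x hx y hy rfl
      rw [List.mem_singleton.1 hy] at hx
      exact hz.2 _ hx) (by
      intro n hn y hy hy'
      rcases List.mem_append.1 hy' with hy' | hy'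
      · exact S.dj _ _ hn y hy hy'
      · rw [List.mem_singleton.1 hy'] at hy
        exact hz.2 _ hy)
  obtain ⟨p, hp, pY, pQ⟩ := U.toP hQ
  have hL : U.L = S.L + 1 := by
    rw [List.length_append, List.length_singleton] at LU
    unfold a at LU
    omega
  have he : U.e ≤ t := by
    unfold e
    exact (Finset.card_filter_le _ _).trans (Finset.card_range t).le
  have := ho.gt p hp (by omega)
  omega

end BSys

end Vale.Agent.P048
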