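import Vale.Agent.P048.SysB

/-! Existence of an optimal normal block system. -/

namespace Vale.Agent.P048
open Finset
open scoped Classical

variable {V : Type} [Fintype V] {G : SimpleGraph V}

theorem Ctx.t_le {k t : ℕ} (hc : Ctx G k t) (hk : 1 ≤ k) : t ≤ k := by
  obtain ⟨Q, hQ, ht⟩ := hc.has
  by_contra h
  exact hc.cyc (cyc_of_clq hQ (by omega) (by omega))

theorem phi_le (l : List ℕ) : phi l ≤ 8 ^ l.length * l.sum := by
  induction l using List.reverseRecOn with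
  | nil => simp [phi]
  | append_singleton l x ih =>
    unfold phi at ih ⊢
    rw [List.foldl_append, List.foldl_cons, List.foldl_nil, List.length_append, List.sum_append,
      List.length_singleton, List.sum_singleton, pow_succ]
    have : 1 ≤ 8 ^ l.length := Nat.one_le_pow _ _ (by norm_num)
    nlinarith

theorem exists_max_nat {A : Set ℕ} (h : A.Nonempty) (b : ℕ) (hb : ∀ n ∈ A, n ≤ b) :
    ∃ m ∈ A, ∀ n ∈ A, n ≤ m :=
  ⟨sSup A, Nat.sSup_mem h ⟨b, hb⟩, fun _ hn => le_csSup ⟨b, hb⟩ hn⟩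

theorem exists_opt {k t : ℕ} (hc : Ctx G k t) (hk : 1 ≤ k) :
    ∃ (Q : Finset V) (S : BSys G Q t), Clq G Q ∧ #Q = t ∧ Opt G Q k S.L S.e ∧ S.L + t ≤ k ∧
      Normal S.am := by
  obtain ⟨Q, hQ, ht⟩ := hc.has
  have hnil : PSys G Q [] := ⟨⟨List.nodup_nil, by simp⟩, by simp, by simp⟩
  obtain ⟨L, ⟨p1, hp1, hY1, hs1⟩, hL⟩ := exists_max_nat
    (A := {n | ∃ p, PSys G Q p ∧ nY Q p = n ∧ nY Q p + nQ Q p ≤ k + 1})
    ⟨0, [], hnil, rfl, by simp [nY, nQ]⟩ (k + 1) (by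
      rintro n ⟨p, -, h1, h2⟩
      omega)
  have hB : {n | ∃ p, PSys G Q p ∧ nY Q p = L ∧ nQ Q p = n}.Nonempty := ⟨_, p1, hp1, hY1, rfl⟩
  obtain ⟨p0, hp0, hY0, hQ0⟩ := Nat.sInf_mem hB
  have ho : Opt G Q k L (nQ Q p0) := by
    constructor
    · intro p hp h
      by_contra h2
      have := hL _ ⟨p, hp, rfl, by omega⟩
      omega
    · intro p hp h
      rw [hQ0]
      exact Nat.sInf_le ⟨p, hp, h, rfl⟩
  have hLk : L + t ≤ k := by
    by_cases h0 : L = 0
    · have := hc.t_le hk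
      omega
    · by_contra h
      exact hc.cyc (cyc_of_psys hQ hp1 (by omega) hs1 (by omega))
  obtain ⟨S0, hS0, hS0'⟩ := BSys.ofP ht hc.pos hp0
  have he0 : S0.e = nQ Q p0 := by
    obtain ⟨p, hp, h1, h2⟩ := S0.toP hQ
    have := ho.eq p hp (by omega)
    omega
  obtain ⟨M, ⟨S, hS1, hS2, hS3⟩, hM⟩ := exists_max_nat
    (A := {n | ∃ S : BSys G Q t, S.L = L ∧ S.e = nQ Q p0 ∧ phi S.am = n})
    ⟨_, S0, by omega, he0, rfl⟩ (8 ^ t * L) (by
      rintro n ⟨S, h1, -, rfl⟩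
      have := phi_le S.am
      rwa [S.am_length, S.am_sum, h1] at this)
  refine ⟨Q, S, hQ, ht, by rw [hS1, hS2]; exact ho, by omega, ?_⟩
  intro i j hij hj h0 h1
  rw [S.am_length] at hj
  have hz : ∀ m, S.am.getD m 0 = 0 → S.Y m = [] := by
    intro m hm
    by_cases h : m < t
    · rw [List.getD_eq_getElem _ _ (by rwa [S.am_length])] at hm
      rw [← S.a_eq]
      simpa [BSys.am] using hm
    · exact S.top m (by omega)
  obtain ⟨T, -, -, t1, t2, t3⟩ := S.rev hij hj (hz i h0) (hz j h1)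
  rw [← t3, hS3]
  exact hM _ ⟨T, by omega, by omega, rfl⟩

end Vale.Agent.P048
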