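import Vale.Agent.P048.Defs

/-! Concatenation of selected blocks of a block system. -/

namespace Vale.Agent.P048
open Finset
open scoped Classical

variable {V : Type} {G : SimpleGraph V}

namespace BSys
variable {Q : Finset V} {t : ℕ}

/-- The concatenation of the blocks with index below `n` that satisfy `P`. -/
noncomputable def fl (S : BSys G Q t) (P : ℕ → Prop) (n : ℕ) : List V :=
  (List.range n).flatMap fun m => if P m then S.Y m ++ [S.q m] else []

theorem fl_zero (S : BSys G Q t) (P : ℕ → Prop) : S.fl P 0 = [] := by simp [fl]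

theorem fl_succ (S : BSys G Q t) (P : ℕ → Prop) (n : ℕ) :
    S.fl P (n + 1) = S.fl P n ++ if P n then S.Y n ++ [S.q n] else [] := by
  simp [fl, List.range_succ, List.flatMap_append]

theorem mem_fl (S : BSys G Q t) (P : ℕ → Prop) (n : ℕ) (v : V) :
    v ∈ S.fl P n ↔ ∃ m < n, P m ∧ (v ∈ S.Y m ∨ v = S.q m) := by
  unfold fl
  rw [List.mem_flatMap]
  constructor
  · rintro ⟨m, hm, hv⟩
    by_cases hP : P m
    · rw [if_pos hP] at hv
      exact ⟨m, List.mem_range.1 hm, hP, by simpa using hv⟩
    · rw [if_neg hP] at hv
      simp at hv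
  · rintro ⟨m, hm, hP, hv⟩
    refine ⟨m, List.mem_range.2 hm, ?_⟩
    rw [if_pos hP]
    simpa using hv

theorem fl_nodup (S : BSys G Q t) (P : ℕ → Prop) {n : ℕ} (hn : n ≤ t) : (S.fl P n).Nodup := by
  induction n with
  | zero => simp [fl_zero]
  | succ n ih =>
    rw [fl_succ]
    by_cases hP : P n
    · rw [if_pos hP, List.nodup_append]
      refine ⟨ih (by omega), ?_, ?_⟩
      · rw [List.nodup_append]
        refine ⟨S.nd n, by simp, ?_⟩
        intro a ha b hb hab
        rw [List.mem_singleton] at hb
        exact S.out n a ha (by rw [hab, hb]; exact S.mem n (by omega))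
      · intro a ha b hb hab
        subst hab
        obtain ⟨m, hm, -, hv⟩ := (S.mem_fl P n a).1 ha
        rw [List.mem_append, List.mem_singleton] at hb
        rcases hv with hv | hv <;> rcases hb with hb | hb
        · exact S.dj m n (by omega) a hv hb
        · exact S.out m a hv (by rw [hb]; exact S.mem n (by omega))
        · exact S.out n a hb (by rw [hv]; exact S.mem m (by omega))
        · have := S.inj m (by omega) n (by omega) (hv.symm.trans hb)
          omega
    · rw [if_neg hP, List.append_nil]
      exact ih (by omega)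

theorem fl_last (S : BSys G Q t) (P : ℕ → Prop) (n : ℕ) :
    ∀ x ∈ (S.fl P n).getLast?, ∃ m < n, x = S.q m := by
  induction n with
  | zero => simp [fl_zero]
  | succ n ih =>
    rw [fl_succ]
    by_cases hP : P n
    · rw [if_pos hP, ← List.append_assoc, List.getLast?_concat]
      intro x hx
      exact ⟨n, by omega, (Option.some.inj hx).symm⟩
    · rw [if_neg hP, List.append_nil]
      intro x hx
      obtain ⟨m, hm, h⟩ := ih x hx
      exact ⟨m, by omega, h⟩

theorem fl_last' (S : BSys G Q t) (P : ℕ → Prop) {n : ℕ} (hP : P n) :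
    (S.fl P (n + 1)).getLast? = some (S.q n) := by
  rw [fl_succ, if_pos hP, ← List.append_assoc, List.getLast?_concat]

theorem ne_zero_of_ne (S : BSys G Q t) {n : ℕ} (h : S.Y n ≠ []) : ∃ m, n = m + 1 := by
  cases n with
  | zero => exact absurd S.zero h
  | succ m => exact ⟨m, rfl⟩

theorem lt_of_ne (S : BSys G Q t) {n : ℕ} (h : S.Y n ≠ []) : n < t := by
  by_contra hn
  exact h (S.top n (by omega))

theorem fl_chain (hQ : Clq G Q) (S : BSys G Q t) {P : ℕ → Prop}
    (hP : ∀ m, S.Y (m + 1) ≠ [] → P m) {n : ℕ} (hn : n ≤ t) : (S.fl P n).IsChain G.Adj := by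
  induction n with
  | zero => simp [fl_zero]
  | succ n ih =>
    rw [fl_succ]
    by_cases hPn : P n
    · rw [if_pos hPn]
      by_cases hY : S.Y n = []
      · rw [hY, List.nil_append, List.isChain_append]
        refine ⟨ih (by omega), by simp, ?_⟩
        intro x hx y hy
        obtain ⟨m, hm, rfl⟩ := S.fl_last P n x hx
        have hy' : y = S.q n := by simpa using hy.symm
        subst hy'
        refine hQ _ (S.mem m (by omega)) _ (S.mem n (by omega)) ?_
        intro h
        have := S.inj m (by omega) n (by omega) h
        omega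
      · obtain ⟨m, rfl⟩ := S.ne_zero_of_ne hY
        have hc := S.ch m hY
        rw [List.cons_append, List.isChain_cons] at hc
        rw [List.isChain_append]
        refine ⟨ih (by omega), hc.2, ?_⟩
        intro x hx y hy
        rw [S.fl_last' P (hP m hY)] at hx
        have hx' : x = S.q m := (Option.some.inj hx).symm
        subst hx'
        exact hc.1 y hy
    · rw [if_neg hPn, List.append_nil]
      exact ih (by omega)

theorem fl_head (S : BSys G Q t) {P : ℕ → Prop}
    (hP : ∀ m, S.Y (m + 1) ≠ [] → P m) {n : ℕ} (hn : n ≤ t) :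
    ∀ x ∈ (S.fl P n).head?, x ∈ Q := by
  induction n with
  | zero => simp [fl_zero]
  | succ n ih =>
    rw [fl_succ]
    by_cases h : S.fl P n = []
    · rw [h, List.nil_append]
      by_cases hPn : P n
      · rw [if_pos hPn]
        by_cases hY : S.Y n = []
        · rw [hY]
          intro x hx
          have hx' : x = S.q n := by simpa using hx.symm
          rw [hx']
          exact S.mem n (by omega)
        · obtain ⟨m, rfl⟩ := S.ne_zero_of_ne hY
          have := S.fl_last' P (hP m hY)
          rw [h] at this
          simp at this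
      · rw [if_neg hPn]
        simp
    · rw [List.head?_append_of_ne_nil _ h]
      exact ih (by omega)

theorem fl_nQ (S : BSys G Q t) (P : ℕ → Prop) {n : ℕ} (hn : n ≤ t) :
    nQ Q (S.fl P n) = #{m ∈ range n | P m} := by
  induction n with
  | zero => simp [fl_zero, nQ]
  | succ n ih =>
    have ih' := ih (by omega)
    unfold nQ at ih' ⊢
    rw [fl_succ, List.countP_append, ih', Finset.range_add_one, Finset.filter_insert]
    by_cases hP : P n
    · rw [if_pos hP, if_pos hP, Finset.card_insert_of_notMem (by simp), List.countP_append]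
      have h1 : (S.Y n).countP (fun a => decide (a ∈ Q)) = 0 := by
        rw [List.countP_eq_zero]
        intro a ha
        simpa using S.out n a ha
      have h2 : S.q n ∈ Q := S.mem n (by omega)
      rw [h1]
      simp [h2]
    · rw [if_neg hP, if_neg hP]
      simp

theorem fl_nY (S : BSys G Q t) {P : ℕ → Prop} (hP : ∀ m, S.Y m ≠ [] → P m) {n : ℕ} (hn : n ≤ t) :
    nY Q (S.fl P n) = ∑ m ∈ range n, S.a m := by
  induction n with
  | zero => simp [fl_zero, nY]
  | succ n ih =>
    have ih' := ih (by omega)
    unfold nY at ih' ⊢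
    rw [fl_succ, List.countP_append, ih', Finset.sum_range_succ]
    congr 1
    by_cases hPn : P n
    · rw [if_pos hPn, List.countP_append]
      have h1 : (S.Y n).countP (fun a => decide (a ∉ Q)) = (S.Y n).length := by
        rw [List.countP_eq_length]
        intro a ha
        simpa using S.out n a ha
      have h2 : S.q n ∈ Q := S.mem n (by omega)
      rw [h1]
      simp [h2, a]
    · rw [if_neg hPn]
      have : S.Y n = [] := by
        by_contra h
        exact hPn (hP n h)
      simp [a, this]

theorem a_ne (S : BSys G Q t) (m : ℕ) : S.a m ≠ 0 ↔ S.Y m ≠ [] := by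
  simp [a]

theorem a_eq (S : BSys G Q t) (m : ℕ) : S.a m = 0 ↔ S.Y m = [] := by
  simp [a]

end BSys

theorem nY_add_nQ (Q : Finset V) (p : List V) : nY Q p + nQ Q p = p.length := by
  unfold nY nQ
  induction p with
  | nil => simp
  | cons a l ih =>
    rw [List.countP_cons, List.countP_cons, List.length_cons]
    by_cases h : a ∈ Q <;> simp [h] <;> simp at ih <;> omega

theorem nQ_eq (Q : Finset V) {p : List V} (hp : p.Nodup) : nQ Q p = #{v ∈ Q | v ∈ p} := by
  unfold nQ
  rw [List.countP_eq_length_filter, ← List.toFinset_card_of_nodup (hp.filter _)]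
  congr 1
  ext v
  simp [and_comm]

end Vale.Agent.P048
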