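import Vale.Agent.P048.Defs

/-! A checker for search trees. -/

namespace Vale.Agent.P048
open Finset
open scoped Classical

namespace TinyC

/-- Search trees. -/
inductive Tr : Type
  | cyc (a : ℕ) (l : List ℕ) : Tr
  | clq (l : List ℕ) : Tr
  | ind (l : List ℕ) : Tr
  | card : Tr
  | done : Tr
  | br (u v : ℕ) (a b : Tr) : Tr
  | ext (l : List ℕ) (c : Tr) : Tr

def bit (E u v : ℕ) : Bool := E.testBit (32 * u + v) || E.testBit (32 * v + u)

def ed (s E u v : ℕ) : Bool := bit E u v || (u < s && v < s && u != v)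

def nodup : List ℕ → Bool
  | [] => true
  | a :: l => l.all (fun b => a != b) && nodup l

def pw (f : ℕ → ℕ → Bool) : List ℕ → Bool
  | [] => true
  | a :: l => l.all (fun b => f a b) && pw f l

def chain (f : ℕ → ℕ → Bool) : ℕ → List ℕ → Bool
  | _, [] => true
  | a, b :: l => f a b && chain f b l

def cnt (f : ℕ → Bool) : ℕ → ℕ
  | 0 => 0
  | n + 1 => cnt f n + (if f n then 1 else 0)

def chk (k t s : ℕ) : Tr → ℕ → ℕ → ℕ → List ℕ → ℕ → Bool
  | .cyc a l, n, E, _, _, _ =>
      nodup (a :: l) && (a :: l).all (fun b => b < n) && l.length == k &&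
        chain (ed s E) a (l ++ [a])
  | .clq l, n, E, _, _, _ => nodup l && l.all (fun b => b < n) && t < l.length && pw (ed s E) l
  | .ind l, n, _, N, _, _ => nodup l && l.all (fun b => b < n) && k < l.length && pw (bit N) l
  | .card, n, _, _, _, _ => k * k + 1 < n
  | .done, _, _, N, P, p => !P.isEmpty && P.all (fun a => bit N a p)
  | .br u v a b, n, E, N, P, p =>
      u < n && v < n && chk k t s a n (E ||| 2 ^ (32 * u + v)) N P p &&
        chk k t s b n E (N ||| 2 ^ (32 * u + v)) P p
  | .ext l c, n, E, N, _, _ =>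
      nodup l && l.all (fun b => b < n) && !l.isEmpty && pw (bit N) l && n < 32 &&
        cnt (fun j => l.any fun a => a == j || !bit N a j) n ≤ k * l.length &&
        chk k t s c (n + 1) E N l n

lemma nodup_sound : ∀ l : List ℕ, nodup l = true → l.Nodup
  | [], _ => List.nodup_nil
  | a :: l, h => by
    simp only [nodup, Bool.and_eq_true, List.all_eq_true, bne_iff_ne] at h
    exact List.nodup_cons.2 ⟨fun hm => h.1 a hm rfl, nodup_sound l h.2⟩

lemma pw_sound (f : ℕ → ℕ → Bool) : ∀ l : List ℕ, pw f l = true → l.Pairwise fun a b => f a b = true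
  | [], _ => List.Pairwise.nil
  | a :: l, h => by
    simp only [pw, Bool.and_eq_true, List.all_eq_true] at h
    exact List.Pairwise.cons h.1 (pw_sound f l h.2)

lemma chain_sound (f : ℕ → ℕ → Bool) :
    ∀ (l : List ℕ) (a : ℕ), chain f a l = true → List.IsChain (fun a b => f a b = true) (a :: l)
  | [], a, _ => List.isChain_singleton a
  | b :: l, a, h => by
    simp only [chain, Bool.and_eq_true] at h
    exact List.isChain_cons_cons.2 ⟨h.1, chain_sound f l b h.2⟩

lemma cnt_eq (f : ℕ → Bool) : ∀ n, cnt f n = #{j ∈ range n | f j = true}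
  | 0 => by simp [cnt]
  | n + 1 => by
    rw [cnt, cnt_eq f n, range_add_one, filter_insert]
    split_ifs with h
    · rw [card_insert_of_notMem (by simp)]
    · simp

variable {V : Type} [Fintype V] (G : SimpleGraph V)

/-- The invariant of the search. -/
structure Inv (s : ℕ) (x : ℕ → V) (n E N : ℕ) (P : List ℕ) (p : ℕ) : Prop where
  hn : n ≤ 32
  hs : s ≤ n
  inj : ∀ i < n, ∀ j < n, x i = x j → i = j
  hq : ∀ i < s, ∀ j < s, i ≠ j → G.Adj (x i) (x j)
  hE : ∀ u v, v < 32 → E.testBit (32 * u + v) = true → u < n ∧ v < n ∧ G.Adj (x u) (x v)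
  hN : ∀ u v, v < 32 → N.testBit (32 * u + v) = true → u < n ∧ v < n ∧ ¬G.Adj (x u) (x v)
  hP : P ≠ [] → p < n ∧ (∀ a ∈ P, a < n) ∧ ∃ a ∈ P, G.Adj (x a) (x p)

variable {G}
variable {s : ℕ} {x : ℕ → V} {n E N : ℕ} {P : List ℕ} {p : ℕ}

omit [Fintype V] in
lemma Inv.ed (h : Inv G s x n E N P p) {u v : ℕ} (hu : u < n) (hv : v < n)
    (he : ed s E u v = true) : G.Adj (x u) (x v) := by
  have := h.hn
  simp only [TinyC.ed, bit, Bool.or_eq_true, Bool.and_eq_true, decide_eq_true_eq, bne_iff_ne] at he
  rcases he with (he | he) | he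
  · exact (h.hE u v (by omega) he).2.2
  · exact (h.hE v u (by omega) he).2.2.symm
  · exact h.hq u he.1.1 v he.1.2 he.2

omit [Fintype V] in
lemma Inv.nd (h : Inv G s x n E N P p) {u v : ℕ} (hu : u < n) (hv : v < n)
    (he : bit N u v = true) : ¬G.Adj (x u) (x v) := by
  have := h.hn
  simp only [bit, Bool.or_eq_true] at he
  rcases he with he | he
  · exact (h.hN u v (by omega) he).2.2
  · exact fun h' => (h.hN v u (by omega) he).2.2 h'.symm

omit [Fintype V] in
lemma Inv.nodup_map (h : Inv G s x n E N P p) {l : List ℕ} (hl : l.Nodup) (hb : ∀ b ∈ l, b < n) :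
    (l.map x).Nodup :=
  hl.map_on fun a ha b hb' hab => h.inj a (hb a ha) b (hb b hb') hab

omit [Fintype V] in
lemma Inv.card_map (h : Inv G s x n E N P p) {l : List ℕ} (hl : l.Nodup) (hb : ∀ b ∈ l, b < n) :
    #(l.map x).toFinset = l.length := by
  rw [List.toFinset_card_of_nodup (h.nodup_map hl hb), List.length_map]

omit [Fintype V] in
lemma Inv.indep (h : Inv G s x n E N P p) {l : List ℕ} (hb : ∀ b ∈ l, b < n)
    (hp : pw (bit N) l = true) : Indep G (l.map x).toFinset := by
  intro a ha b hb'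
  simp only [List.mem_toFinset, List.mem_map] at ha hb'
  obtain ⟨a, ha, rfl⟩ := ha
  obtain ⟨b, hb', rfl⟩ := hb'
  have h1 : l.Pairwise fun a b => ¬G.Adj (x a) (x b) :=
    (pw_sound _ l hp).imp_of_mem fun ha hb'' he => h.nd (hb _ ha) (hb _ hb'') he
  by_cases hab : a = b
  · subst hab; exact G.irrefl
  · have : Std.Symm fun a b => ¬G.Adj (x a) (x b) := ⟨fun a b hab h' => hab h'.symm⟩
    exact h1.forall ha hb' hab

lemma bit_or {E u v a b : ℕ} (hv : v < 32) (hb : b < 32)
    (h : (E ||| 2 ^ (32 * u + v)).testBit (32 * a + b) = true) :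
    E.testBit (32 * a + b) = true ∨ (a = u ∧ b = v) := by
  rw [Nat.testBit_or, Bool.or_eq_true, Nat.testBit_two_pow] at h
  rcases h with h | h
  · exact Or.inl h
  · right; simp only [decide_eq_true_eq] at h; omega

theorem sound {k t T : ℕ} (hc : Ctx G k t) (hT : ∀ S, Clq G S → #S ≤ T) (s : ℕ) :
    ∀ (tr : Tr) (x : ℕ → V) (n E N : ℕ) (P : List ℕ) (p : ℕ), Inv G s x n E N P p →
      chk k T s tr n E N P p = true → False := by
  intro tr
  induction tr with
  | cyc a l =>
    intro x n E N P p h hk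
    simp only [chk, Bool.and_eq_true, List.all_eq_true, decide_eq_true_eq, beq_iff_eq] at hk
    obtain ⟨⟨⟨h1, h2⟩, h3⟩, h4⟩ := hk
    apply hc.cyc
    refine ⟨x a, l.map x, ?_, by simp [h3], ?_⟩
    · have := h.nodup_map (nodup_sound _ h1) h2
      simpa using this
    · have h5 := chain_sound _ _ _ h4
      have h6 : List.IsChain (fun a b => G.Adj (x a) (x b)) (a :: (l ++ [a])) := by
        refine h5.imp_of_mem_imp ?_
        intro u v hu hv he
        refine h.ed (h2 u ?_) (h2 v ?_) he
        · simp only [List.mem_cons, List.mem_append] at hu ⊢; tauto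
        · simp only [List.mem_cons, List.mem_append] at hv ⊢; tauto
      have h7 := (List.isChain_map x).2 h6
      simpa using h7
  | clq l =>
    intro x n E N P p h hk
    simp only [chk, Bool.and_eq_true, List.all_eq_true, decide_eq_true_eq] at hk
    obtain ⟨⟨⟨h1, h2⟩, h3⟩, h4⟩ := hk
    have h5 : Clq G (l.map x).toFinset := by
      intro a ha b hb' hab
      simp only [List.mem_toFinset, List.mem_map] at ha hb'
      obtain ⟨a, ha, rfl⟩ := ha
      obtain ⟨b, hb', rfl⟩ := hb'
      have h1 : l.Pairwise fun a b => G.Adj (x a) (x b) :=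
        (pw_sound _ l h4).imp_of_mem fun ha hb'' he => h.ed (h2 _ ha) (h2 _ hb'') he
      have : Std.Symm fun a b => G.Adj (x a) (x b) := ⟨fun a b h' => h'.symm⟩
      exact h1.forall ha hb' (fun e => hab (by rw [e]))
    have := hT _ h5
    rw [h.card_map (nodup_sound _ h1) h2] at this
    omega
  | ind l =>
    intro x n E N P p h hk
    simp only [chk, Bool.and_eq_true, List.all_eq_true, decide_eq_true_eq] at hk
    obtain ⟨⟨⟨h1, h2⟩, h3⟩, h4⟩ := hk
    have := hc.ind _ (h.indep h2 h4)
    rw [h.card_map (nodup_sound _ h1) h2] at this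
    omega
  | card =>
    intro x n E N P p h hk
    simp only [chk, decide_eq_true_eq] at hk
    have h1 := h.card_map (l := List.range n) List.nodup_range (fun b hb => List.mem_range.1 hb)
    have h2 := card_le_univ (List.map x (List.range n)).toFinset
    have := hc.card
    rw [h1, List.length_range] at h2
    omega
  | done =>
    intro x n E N P p h hk
    simp only [chk, Bool.and_eq_true, List.all_eq_true, Bool.not_eq_true',
      List.isEmpty_eq_false_iff] at hk
    obtain ⟨h1, h2, a, ha, h3⟩ := h.hP hk.1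
    exact h.nd (h2 a ha) h1 (hk.2 a ha) h3
  | br u v a b iha ihb =>
    intro x n E N P p h hk
    simp only [chk, Bool.and_eq_true, decide_eq_true_eq] at hk
    obtain ⟨⟨⟨h1, h2⟩, h3⟩, h4⟩ := hk
    have := h.hn
    by_cases huv : G.Adj (x u) (x v)
    · refine iha x n _ N P p ⟨h.hn, h.hs, h.inj, h.hq, ?_, h.hN, h.hP⟩ h3
      intro a b hb he
      rcases bit_or (by omega) hb he with he | ⟨rfl, rfl⟩
      · exact h.hE a b hb he
      · exact ⟨h1, h2, huv⟩
    · refine ihb x n E _ P p ⟨h.hn, h.hs, h.inj, h.hq, h.hE, ?_, h.hP⟩ h4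
      intro a b hb he
      rcases bit_or (by omega) hb he with he | ⟨rfl, rfl⟩
      · exact h.hN a b hb he
      · exact ⟨h1, h2, huv⟩
  | ext l c ih =>
    intro x n E N P p h hk
    simp only [chk, Bool.and_eq_true, List.all_eq_true, decide_eq_true_eq, Bool.not_eq_true',
      List.isEmpty_eq_false_iff] at hk
    obtain ⟨⟨⟨⟨⟨⟨h1, h2⟩, h3⟩, h4⟩, h5⟩, h6⟩, h7⟩ := hk
    have hne : (l.map x).toFinset.Nonempty := by
      obtain ⟨a, ha⟩ := List.exists_mem_of_ne_nil l h3
      exact ⟨x a, by simp only [List.mem_toFinset, List.mem_map]; exact ⟨a, ha, rfl⟩⟩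
    have h8 := hc.exp _ hne (h.indep h2 h4)
    rw [h.card_map (nodup_sound _ h1) h2] at h8
    rw [cnt_eq] at h6
    have h9 : ∃ w ∈ nb G (l.map x).toFinset, ∀ j < n, x j ≠ w := by
      by_contra hcon
      push Not at hcon
      have hsub : nb G (l.map x).toFinset ⊆
          image x {j ∈ range n | (l.any fun a => a == j || !bit N a j) = true} := by
        intro w hw
        obtain ⟨j, hj, rfl⟩ := hcon w hw
        refine mem_image.2 ⟨j, mem_filter.2 ⟨mem_range.2 hj, ?_⟩, rfl⟩
        simp only [nb, mem_filter, mem_univ, true_and, List.mem_toFinset, List.mem_map] at hw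
        simp only [List.any_eq_true, Bool.or_eq_true, beq_iff_eq, Bool.not_eq_true']
        rcases hw with ⟨a, ha, e⟩ | ⟨_, ⟨a, ha, rfl⟩, e⟩
        · exact ⟨a, ha, Or.inl (h.inj a (h2 a ha) j hj e)⟩
        · refine ⟨a, ha, Or.inr ?_⟩
          by_contra hb
          exact h.nd (h2 a ha) hj (by simpa using hb) e
      have := (card_le_card hsub).trans card_image_le
      omega
    obtain ⟨w, hw, hw2⟩ := h9
    have hup : ∀ j < n, Function.update x n w j = x j := fun j hj =>
      Function.update_of_ne (by omega) _ _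
    have hupn : Function.update x n w n = w := Function.update_self _ _ _
    have hs := h.hs
    refine ih (Function.update x n w) (n + 1) E N l n ⟨by omega, by omega, ?_, ?_, ?_, ?_, ?_⟩ h7
    · intro i hi j hj e
      rcases Nat.lt_succ_iff_lt_or_eq.1 hi with hi | rfl <;>
        rcases Nat.lt_succ_iff_lt_or_eq.1 hj with hj | rfl
      · rw [hup i hi, hup j hj] at e; exact h.inj i hi j hj e
      · rw [hup i hi, hupn] at e; exact absurd e (hw2 i hi)
      · rw [hup j hj, hupn] at e; exact absurd e.symm (hw2 j hj)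
      · rfl
    · intro i hi j hj e
      rw [hup i (by omega), hup j (by omega)]; exact h.hq i hi j hj e
    · intro u v hv he
      obtain ⟨a1, a2, a3⟩ := h.hE u v hv he
      rw [hup u a1, hup v a2]; exact ⟨by omega, by omega, a3⟩
    · intro u v hv he
      obtain ⟨a1, a2, a3⟩ := h.hN u v hv he
      rw [hup u a1, hup v a2]; exact ⟨by omega, by omega, a3⟩
    · intro _
      refine ⟨by omega, fun a ha => by have := h2 a ha; omega, ?_⟩
      simp only [nb, mem_filter, mem_univ, true_and, List.mem_toFinset, List.mem_map] at hw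
      rcases hw with ⟨a, ha, e⟩ | ⟨_, ⟨a, ha, rfl⟩, e⟩
      · exact absurd e (hw2 a (h2 a ha))
      · exact ⟨a, ha, by rw [hup a (h2 a ha), hupn]; exact e⟩

theorem start {k t T : ℕ} (hc : Ctx G k t) (hT : ∀ S, Clq G S → #S ≤ T) (s : ℕ) (hs : s ≤ t)
    (hs2 : s ≤ 32) (tr : Tr) (h : chk k T s tr s 0 0 [] 0 = true) : False := by
  obtain ⟨Q, hQ, hQt⟩ := hc.has
  have hpos := hc.pos
  obtain ⟨q0, _⟩ : Q.Nonempty := card_pos.1 (by omega)
  have hl : Q.toList.length = t := by rw [length_toList, hQt]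
  have hg : ∀ i (hi : i < s), Q.toList.getD i q0 = Q.toList[i]'(by omega) := fun i hi =>
    List.getD_eq_getElem _ _ _
  have hinj : ∀ i < s, ∀ j < s, Q.toList.getD i q0 = Q.toList.getD j q0 → i = j := by
    intro i hi j hj e
    rw [hg i hi, hg j hj] at e
    exact (List.Nodup.getElem_inj_iff (nodup_toList Q)).1 e
  refine sound hc hT s tr (fun i => Q.toList.getD i q0) s 0 0 [] 0
    ⟨hs2, le_rfl, hinj, ?_, by simp, by simp, by simp⟩ h
  intro i hi j hj hij
  refine hQ _ ?_ _ ?_ fun e => hij (hinj i hi j hj e)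
  · rw [hg i hi]; exact mem_toList.1 (List.getElem_mem _)
  · rw [hg j hj]; exact mem_toList.1 (List.getElem_mem _)

end TinyC
end Vale.Agent.P048
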